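import Vale.Agent.P154.AFDefs

/-!
Blackwell reductions: channel degradation and offspring monotonicity.
-/

namespace Vale.Agent.P154

open Finset Filter Topology

variable {q : ℕ} {Y : Type} {L : Y → Fin q → ℝ} {F : (Fin q → ℝ) → ℝ}

lemma GoodF.avg_le (hF : GoodF F) {l : Fin q → ℝ} (hl : ∀ i, 0 ≤ l i) :
    F (fun _ => avg l) ≤ F l := by
  have hf : (0 : ℝ) < q.factorial := by positivity
  have e : (fun _ : Fin q => avg l) =
      fun i => (1 / (q.factorial : ℝ)) * ∑ τ : Equiv.Perm (Fin q), l (τ i) := by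
    funext i
    rw [sum_perm_apply]
    field_simp
  have h1 := hF.sum_le univ (fun (τ : Equiv.Perm (Fin q)) i => l (τ i)) fun τ i => hl _
  have h2 : ∑ τ : Equiv.Perm (Fin q), F (fun i => l (τ i)) = q.factorial * F l := by
    rw [sum_congr rfl fun τ _ => hF.perm τ l hl]
    simp [Fintype.card_perm]
  rw [e, hF.smul _ _ (by positivity) fun i => sum_nonneg fun τ _ => hl _, one_div,
    inv_mul_le_iff₀ hf, ← h2]
  exact h1

lemma GoodF.chan_le (hF : GoodF F) {t : ℝ} (h0 : 0 ≤ t) (h1 : t ≤ 1) {l : Fin q → ℝ}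
    (hl : ∀ i, 0 ≤ l i) : F (fun i => t * l i + (1 - t) * avg l) ≤ F l := by
  have h2 : 0 ≤ 1 - t := by linarith
  have h3 := hF.add (fun i => t * l i) (fun _ => (1 - t) * avg l)
    (fun i => mul_nonneg h0 (hl i)) fun _ => mul_nonneg h2 (avg_nonneg hl)
  rw [hF.smul t l h0 hl, hF.smul (1 - t) (fun _ => avg l) h2 fun _ => avg_nonneg hl] at h3
  have h4 := mul_le_mul_of_nonneg_left (hF.avg_le hl) h2
  linarith

lemma neg_inv_le_of_nonneg (hq : 2 ≤ q) {t : ℝ} (h0 : 0 ≤ t) : -1 / ((q : ℝ) - 1) ≤ t := by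
  have h2 : (2 : ℝ) ≤ q := by exact_mod_cast hq
  exact le_trans (div_nonpos_of_nonpos_of_nonneg (by norm_num) (by linarith)) h0

lemma SymExp.dom_chanExp (hq : 2 ≤ q) (hL : SymExp L) {t : ℝ} (h0 : 0 ≤ t) (h1 : t ≤ 1) :
    Dom (P154.chanExp t L) L := by
  intro F hF
  refine hasSum_le (fun y => ?_)
    ((hL.chanExp hq (neg_inv_le_of_nonneg hq h0) h1).summable_good hF).hasSum
    (hL.summable_good hF).hasSum
  have e : P154.chanExp t L y = fun i => t * L y i + (1 - t) * avg (L y) :=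
    funext (chanExp_eq t L y)
  rw [e]
  exact hF.chan_le h0 h1 (hL.nonneg y)

lemma chanExp_mul (hq : 0 < q) (t lam : ℝ) (L : Y → Fin q → ℝ) :
    chanExp (t * lam) L = chanExp t (chanExp lam L) := by
  funext y i
  rw [chanExp_eq, chanExp_eq, avg_chanExp hq, chanExp_eq]
  ring

/-- countable subadditivity -/
lemma GoodF.le_tsum_mul (hF : GoodF F) (hL : SymExp L) {l : Fin q → ℝ} (hl : ∀ i, 0 ≤ l i) :
    F l ≤ ∑' y, F fun i => l i * L y i := by
  classical
  obtain ⟨C, hC⟩ := hF.bound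
  have h1 : Tendsto (fun s : Finset Y => ∑ y ∈ s, F fun i => l i * L y i) atTop
      (𝓝 (∑' y, F fun i => l i * L y i)) := (hL.summable_good_mul hF hl).hasSum
  have h2 : Tendsto (fun s : Finset Y => ∑ y ∈ s, avg fun i => l i * L y i) atTop
      (𝓝 (avg l)) := hL.hasSum_avg_mul l
  have h3 := h1.add ((h2.const_sub (avg l)).const_mul C)
  rw [sub_self, mul_zero, add_zero] at h3
  refine ge_of_tendsto' h3 fun s => ?_
  have hr : ∀ i, 0 ≤ l i - ∑ y ∈ s, l i * L y i := by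
    intro i
    have := sum_le_hasSum s (fun y _ => mul_nonneg (hl i) (hL.nonneg y i))
      ((hL.sum_one i).mul_left (l i))
    linarith
  have h4 := hF.add (fun i => ∑ y ∈ s, l i * L y i) (fun i => l i - ∑ y ∈ s, l i * L y i)
    (fun i => sum_nonneg fun y _ => mul_nonneg (hl i) (hL.nonneg y i)) hr
  have e : (fun i => ∑ y ∈ s, l i * L y i + (l i - ∑ y ∈ s, l i * L y i)) = l := by
    funext i; ring
  rw [e] at h4
  have h5 := hF.sum_le s (fun y i => l i * L y i) fun y i => mul_nonneg (hl i) (hL.nonneg y i)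
  have h6 := (le_abs_self _).trans (hC _ hr)
  have e2 : (avg fun i => l i - ∑ y ∈ s, l i * L y i) =
      avg l - ∑ y ∈ s, avg fun i => l i * L y i := by
    simp only [avg, sum_sub_distrib, sub_div, ← sum_div]
    rw [sum_comm]
  rw [e2] at h6
  linarith

lemma SymExp.dom_star {Z : Type} {M : Z → Fin q → ℝ} (hM : SymExp M) (hL : SymExp L) :
    Dom M (P154.star M L) := by
  intro F hF
  rw [((hM.star hL).summable_good hF).tsum_prod]
  exact hasSum_le (fun z => hF.le_tsum_mul hL (hM.nonneg z)) (hM.summable_good hF).hasSum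
    (hM.summable_good (hF.star hL)).hasSum

lemma SymExp.dom_pw_succ (hL : SymExp L) (k : ℕ) : Dom (P154.pw L k) (P154.pw L (k + 1)) := by
  rw [pw_succ]
  exact ((hL.pw k).dom_star hL).trans (dom_equiv_right _ _)

lemma SymExp.abs_tsum_good_le (hq : 0 < q) (hL : SymExp L) {C : ℝ}
    (hC : ∀ l : Fin q → ℝ, (∀ i, 0 ≤ l i) → |F l| ≤ C * avg l) : |∑' y, F (L y)| ≤ C := by
  have h := (hL.hasSum_avg hq).mul_left C
  rw [mul_one] at h
  exact tsum_of_norm_bounded (f := fun y => F (L y)) h fun y => hC _ (hL.nonneg y)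

/-- stochastic order between offspring laws -/
def LawLe (ν ν' : ℕ → ℝ) : Prop :=
  ∀ (b : ℕ → ℝ) (C : ℝ), Monotone b → (∀ k, |b k| ≤ C) → ∑' k, ν k * b k ≤ ∑' k, ν' k * b k

lemma LawLe.refl (ν : ℕ → ℝ) : LawLe ν ν := fun _ _ _ _ => le_rfl

lemma tsum_dary (k : ℕ) (b : ℕ → ℝ) : ∑' j, dary k j * b j = b k := by
  rw [tsum_eq_single k fun j hj => by simp [dary, hj]]
  simp [dary]

lemma lawLe_dary {k k' : ℕ} (h : k ≤ k') : LawLe (dary k) (dary k') := by
  intro b _ hb _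
  rw [tsum_dary, tsum_dary]
  exact hb h

lemma pois_nonneg {d : ℝ} (hd : 0 ≤ d) (k : ℕ) : 0 ≤ pois d k := by
  unfold pois; positivity

lemma pois_add (d e : ℝ) (n : ℕ) :
    pois (d + e) n = ∑ p ∈ antidiagonal n, pois d p.1 * pois e p.2 := by
  unfold pois
  rw [(Commute.all d e).add_pow', mul_sum, sum_div]
  refine sum_congr rfl fun p hp => ?_
  rw [HasAntidiagonal.mem_antidiagonal] at hp
  subst hp
  have h1 : (p.1.factorial : ℝ) ≠ 0 := by positivity
  have h2 : (p.2.factorial : ℝ) ≠ 0 := by positivity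
  have h3 : (((p.1 + p.2).factorial : ℕ) : ℝ) =
      ((p.1 + p.2).choose p.1 : ℕ) * (p.1.factorial : ℝ) * (p.2.factorial : ℝ) := by
    rw [← Nat.add_choose_mul_factorial_mul_factorial, Nat.choose_symm_add]
    push_cast
    ring
  have h4 : (((p.1 + p.2).choose p.1 : ℕ) : ℝ) ≠ 0 := by
    exact_mod_cast (Nat.choose_pos (Nat.le_add_right _ _)).ne'
  rw [h3, neg_add, Real.exp_add, nsmul_eq_mul]
  field_simp

lemma lawLe_pois {d d' : ℝ} (hd : 0 ≤ d) (h : d ≤ d') : LawLe (pois d) (pois d') := by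
  intro b C hb hC
  obtain ⟨e, he, rfl⟩ : ∃ e, 0 ≤ e ∧ d' = d + e := ⟨d' - d, by linarith, by ring⟩
  have hs : Summable fun p : ℕ × ℕ => pois d p.1 * pois e p.2 :=
    (hasSum_pois d).summable.mul_of_nonneg (hasSum_pois e).summable (pois_nonneg hd)
      (pois_nonneg he)
  have hbd : ∀ g : ℕ × ℕ → ℕ, Summable fun p : ℕ × ℕ => pois d p.1 * pois e p.2 * b (g p) := by
    intro g
    refine Summable.of_norm_bounded (hs.mul_right C) fun p => ?_
    have h0 : 0 ≤ pois d p.1 * pois e p.2 := mul_nonneg (pois_nonneg hd _) (pois_nonneg he _)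
    rw [Real.norm_eq_abs, abs_mul, abs_of_nonneg h0]
    exact mul_le_mul_of_nonneg_left (hC _) h0
  have h1 : ∑' k, pois d k * b k = ∑' p : ℕ × ℕ, pois d p.1 * pois e p.2 * b p.1 := by
    rw [(hbd Prod.fst).tsum_prod]
    refine tsum_congr fun k => ?_
    have := (((hasSum_pois e).mul_left (pois d k)).mul_right (b k)).tsum_eq
    rw [mul_one] at this
    exact this.symm
  have h2 : ∑' n, pois (d + e) n * b n =
      ∑' p : ℕ × ℕ, pois d p.1 * pois e p.2 * b (p.1 + p.2) := by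
    have h3 := (Finset.HasAntidiagonal.sigmaAntidiagonalEquivProd.hasSum_iff
      (f := fun p : ℕ × ℕ => pois d p.1 * pois e p.2 * b (p.1 + p.2))).2
      (hbd fun p => p.1 + p.2).hasSum
    refine (h3.sigma fun n => ?_).tsum_eq
    rw [pois_add, sum_mul, ← sum_coe_sort]
    refine hasSum_of_eq (hasSum_fintype _) fun p => ?_
    have hp := HasAntidiagonal.mem_antidiagonal.1 p.2
    change pois d p.1.1 * pois e p.1.2 * b (p.1.1 + p.1.2) = _
    rw [hp]
  rw [h1, h2]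
  refine hasSum_le (fun p => ?_) (hbd Prod.fst).hasSum (hbd fun p => p.1 + p.2).hasSum
  exact mul_le_mul_of_nonneg_left (hb (Nat.le_add_right _ _))
    (mul_nonneg (pois_nonneg hd _) (pois_nonneg he _))

lemma LawLe.dom_mix (hq : 0 < q) {ν ν' : ℕ → ℝ} (h : LawLe ν ν') (hν : ∀ k, 0 ≤ ν k)
    (hν1 : HasSum ν 1) (hν' : ∀ k, 0 ≤ ν' k) (hν1' : HasSum ν' 1) (hL : SymExp L) :
    Dom (mix ν L) (mix ν' L) := by
  intro F hF
  obtain ⟨C, hC⟩ := hF.bound
  rw [← (hasSum_mix_good hν hν1 hL hF).tsum_eq, ← (hasSum_mix_good hν' hν1' hL hF).tsum_eq]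
  exact h _ C (monotone_nat_of_le_succ fun k => hL.dom_pw_succ k F hF) fun k =>
    (hL.pw k).abs_tsum_good_le hq hC

lemma dom_lik (hq : 2 ≤ q) {lam t : ℝ} (h0 : -1 / ((q : ℝ) - 1) ≤ lam) (h1 : lam ≤ 1)
    (ht0 : 0 ≤ t) (ht1 : t ≤ 1) (h0' : -1 / ((q : ℝ) - 1) ≤ t * lam) (h1' : t * lam ≤ 1)
    {ν ν' : ℕ → ℝ} (h : LawLe ν ν') (hν : ∀ k, 0 ≤ ν k) (hν1 : HasSum ν 1)
    (hν' : ∀ k, 0 ≤ ν' k) (hν1' : HasSum ν' 1) (n : ℕ) :
    Dom (lik q ν (t * lam) n) (lik q ν' lam n) := by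
  induction n with
  | zero => exact Dom.refl _
  | succ n ih =>
    have hA := symExp_lik hq h0' h1' hν hν1 n
    have hB := symExp_lik hq h0 h1 hν' hν1' n
    have h2 : Dom (chanExp (t * lam) (lik q ν (t * lam) n)) (chanExp lam (lik q ν' lam n)) := by
      refine (ih.chanExp hq h0' h1').trans ?_
      rw [chanExp_mul (by omega)]
      exact (hB.chanExp hq h0 h1).dom_chanExp hq ht0 ht1
    rw [lik_succ, lik_succ]
    exact ((h2.mix (hA.chanExp hq h0' h1') (hB.chanExp hq h0 h1) hν hν1).trans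
      (h.dom_mix (by omega) hν hν1 hν' hν1' (hB.chanExp hq h0 h1))).equiv _ _

lemma tendsto_of_lawLe {lam s : ℝ} (hs0 : 0 < s) (hs : s ≤ 1 / 2) (h0 : -s ≤ lam) (h1 : lam < 0)
    {ν ν' : ℕ → ℝ} {d d' : ℝ} (h : LawLe ν ν') (hν : Law ν d) (hν' : Law ν' d')
    (H : Tendsto (adv 3 ν' (-s)) atTop (𝓝 0)) : Tendsto (adv 3 ν lam) atTop (𝓝 0) := by
  have e : -1 / (((3 : ℕ) : ℝ) - 1) = -1 / 2 := by norm_num
  have a0 : -1 / (((3 : ℕ) : ℝ) - 1) ≤ -s := by rw [e]; linarith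
  have a1 : -s ≤ 1 := by linarith
  have b0 : -1 / (((3 : ℕ) : ℝ) - 1) ≤ lam := a0.trans h0
  have b1 : lam ≤ 1 := by linarith
  have et : lam = (-lam / s) * (-s) := by field_simp
  have ht0 : 0 ≤ -lam / s := div_nonneg (by linarith) hs0.le
  have ht1 : -lam / s ≤ 1 := by rw [div_le_one hs0]; linarith
  refine squeeze_zero (adv_nonneg (by norm_num) b0 b1 hν.nonneg hν.one) (fun n => ?_) H
  have hD := dom_lik (q := 3) (by norm_num) a0 a1 ht0 ht1 (et ▸ b0) (et ▸ b1) h hν.nonneg hν.one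
    hν'.nonneg hν'.one n
  rw [← et] at hD
  rw [adv_eq (by norm_num), adv_eq (by norm_num)]
  exact hD.Ex_tv_le (by norm_num) (symExp_lik (by norm_num) b0 b1 hν.nonneg hν.one n)
    (symExp_lik (by norm_num) a0 a1 hν'.nonneg hν'.one n)

theorem af_reduce
    (H4 : Tendsto (adv 3 (dary 4) (-1 / 2)) atTop (𝓝 0))
    (Hd : ∀ d : ℕ, 5 ≤ d → ∀ s : ℝ, 0 < s → (d : ℝ) * s ^ 2 = 1 → Tendsto (adv 3 (dary d) (-s)) atTop (𝓝 0))
    (HP : ∀ s : ℝ, 0 < s → s ≤ 1 / 2 → Tendsto (adv 3 (pois (1 / s ^ 2)) (-s)) atTop (𝓝 0))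
    (lam : ℝ) (h0 : -1 / 2 ≤ lam) (h1 : lam < 0) (d : ℝ) (ν : ℕ → ℝ)
    (hν : (∃ k : ℕ, 2 ≤ k ∧ d = k ∧ ν = dary k) ∨ (0 < d ∧ ν = pois d)) (hc : d * lam ^ 2 ≤ 1) :
    Tendsto (adv 3 ν lam) atTop (𝓝 0) := by
  rcases hν with ⟨k, hk, rfl, rfl⟩ | ⟨hd, rfl⟩
  · rcases le_or_gt k 4 with h4 | h4
    · rw [show (-1 / 2 : ℝ) = -(1 / 2) by ring] at H4
      exact tendsto_of_lawLe (by norm_num) le_rfl (by linarith) h1 (lawLe_dary h4) (law_dary hk)
        (law_dary (by norm_num)) H4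
    · have hk5 : (5 : ℝ) ≤ k := by exact_mod_cast h4
      have hr : 0 < Real.sqrt k := Real.sqrt_pos.2 (by linarith)
      have hr2 : Real.sqrt k ^ 2 = k := Real.sq_sqrt (by linarith)
      have hs0 : 0 < 1 / Real.sqrt k := by positivity
      have hs2 : (k : ℝ) * (1 / Real.sqrt k) ^ 2 = 1 := by
        rw [div_pow, hr2]; field_simp
      generalize 1 / Real.sqrt k = s at hs0 hs2
      refine tendsto_of_lawLe hs0 ?_ ?_ h1 (LawLe.refl _) (law_dary hk) (law_dary hk)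
        (Hd k h4 s hs0 hs2)
      · by_contra hh
        have hh := not_le.1 hh
        nlinarith
      · by_contra hh
        have hh := not_le.1 hh
        have : s ^ 2 < lam ^ 2 := by nlinarith
        nlinarith
  · have hs0 : 0 < -lam := by linarith
    have hl2 : 0 < (-lam) ^ 2 := by positivity
    have hd' : d ≤ 1 / (-lam) ^ 2 := by
      rw [le_div_iff₀ hl2]; nlinarith
    exact tendsto_of_lawLe hs0 (by linarith) (by linarith) h1 (lawLe_pois hd.le hd') (law_pois hd)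
      (law_pois (by positivity)) (HP (-lam) hs0 (by linarith))

end Vale.Agent.P154
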