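import Vale.Agent.P154.AFcR5m
import Vale.Agent.P154.Reduce

/-! The certificates cover all cases. -/

namespace Vale.Agent.P154.AF

open Filter Topology

theorem poi_all {s x τ : ℝ} (h0 : 0 < s) (h1 : s ≤ 1 / 2) (hx : 0 < x) (hx2 : x ≤ 2) :
    CertPoi (-s) x τ := by
  rcases le_total s (3 / 10) with a | a
  · refine cert_poi okP1 (by decide) hx ?_ ?_ ?_ ?_ ?_ <;> norm_num [dP1] <;> linarith
  rcases le_total s (9 / 20) with b | b
  · rcases le_total x (4 / 5) with c | c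
    · refine cert_poi okP2 (by decide) hx ?_ ?_ ?_ ?_ ?_ <;> norm_num [dP2] <;> linarith
    · refine cert_poi okP3 (by decide) hx ?_ ?_ ?_ ?_ ?_ <;> norm_num [dP3] <;> linarith
  rcases le_total x (1 / 5) with c | c
  · refine cert_poi okP4 (by decide) hx ?_ ?_ ?_ ?_ ?_ <;> norm_num [dP4] <;> linarith
  rcases le_total (6 / 5) x with d | d
  · refine cert_poi okP7 (by decide) hx ?_ ?_ ?_ ?_ ?_ <;> norm_num [dP7] <;> linarith
  rcases le_total (100 * τ) (x * (11 + x * 58)) with e | e <;> rcases le_total x (3 / 5) with f | f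
  · refine cert_poi okP5p (by decide) hx ?_ ?_ ?_ ?_ ?_ <;> norm_num [dP5p] <;> linarith
  · refine cert_poi okP6p (by decide) hx ?_ ?_ ?_ ?_ ?_ <;> norm_num [dP6p] <;> linarith
  · refine cert_poi okP5m (by decide) hx ?_ ?_ ?_ ?_ ?_ <;> norm_num [dP5m] <;> linarith
  · refine cert_poi okP6m (by decide) hx ?_ ?_ ?_ ?_ ?_ <;> norm_num [dP6m] <;> linarith

theorem reg_all {s x τ : ℝ} (h0 : 0 < s) (h1 : s ≤ 9 / 20) (hx : 0 < x) (hx2 : x ≤ 2) :
    CertReg (-s) x τ := by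
  rcases le_total s (3 / 10) with a | a
  · refine cert_reg okR1 (by decide) hx ?_ ?_ ?_ ?_ ?_ <;> norm_num [dR1] <;> linarith
  rcases le_total x (4 / 5) with c | c
  · refine cert_reg okR2 (by decide) hx ?_ ?_ ?_ ?_ ?_ <;> norm_num [dR2] <;> linarith
  · refine cert_reg okR3 (by decide) hx ?_ ?_ ?_ ?_ ?_ <;> norm_num [dR3] <;> linarith

theorem reg_four {x τ : ℝ} (hx : 0 < x) (hx2 : x ≤ 1 / 2) : CertReg (-(1 / 2)) x τ := by
  rcases le_total x (1 / 4) with c | c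
  · refine cert_reg okR4 (by decide) hx ?_ ?_ ?_ ?_ ?_ <;> norm_num [dR4] <;> linarith
  rcases le_total (100 * τ) (x * (9 + x * 48)) with e | e
  · refine cert_reg okR5p (by decide) hx ?_ ?_ ?_ ?_ ?_ <;> norm_num [dR5p] <;> linarith
  · refine cert_reg okR5m (by decide) hx ?_ ?_ ?_ ?_ ?_ <;> norm_num [dR5m] <;> linarith

theorem nonrec_P (s : ℝ) (h0 : 0 < s) (h1 : s ≤ 1 / 2) :
    Tendsto (adv 3 (pois (1 / s ^ 2)) (-s)) atTop (𝓝 0) :=
  nonrec_poi (by linarith) (by linarith) (by positivity) (by field_simp)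
    fun _ _ hx hx2 => poi_all h0 h1 hx hx2

theorem nonrec_d (d : ℕ) (hd : 5 ≤ d) (s : ℝ) (h0 : 0 < s) (h1 : (d : ℝ) * s ^ 2 = 1) :
    Tendsto (adv 3 (dary d) (-s)) atTop (𝓝 0) := by
  have h5 : (5 : ℝ) ≤ d := by exact_mod_cast hd
  have h2 : s ≤ 9 / 20 := by nlinarith [mul_le_mul_of_nonneg_right h5 (sq_nonneg s)]
  exact nonrec_reg (by linarith) (by linarith) (by omega) (by rw [← h1]; ring)
    ⟨0, (Ex_chi_lik_zero _ _).le⟩ fun _ _ hx hx2 => reg_all h0 h2 hx hx2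

theorem nonrec_four (h : ∃ n, Ex chi (lik 3 (dary 4) (-1 / 2) n) ≤ 1 / 2) :
    Tendsto (adv 3 (dary 4) (-1 / 2)) atTop (𝓝 0) :=
  nonrec_reg le_rfl (by norm_num) (by norm_num) (by norm_num) h fun _ _ hx hx2 => by
    rw [show (-1 / 2 : ℝ) = -(1 / 2) by ring]; exact reg_four hx hx2

lemma nonrec_le {k m : ℕ} (hk : 2 ≤ k) (hkm : k ≤ m) (hm : 5 ≤ m) {lam : ℝ} (h1 : lam < 0)
    (hc : m * lam ^ 2 ≤ 1) : Tendsto (adv 3 (dary k) lam) atTop (𝓝 0) := by
  have hk5 : (5 : ℝ) ≤ m := by exact_mod_cast hm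
  have hr : 0 < Real.sqrt m := Real.sqrt_pos.2 (by linarith)
  have hr2 : Real.sqrt m ^ 2 = m := Real.sq_sqrt (by linarith)
  have hs0 : 0 < 1 / Real.sqrt m := by positivity
  have hs2 : (m : ℝ) * (1 / Real.sqrt m) ^ 2 = 1 := by
    rw [div_pow, hr2]; field_simp
  generalize 1 / Real.sqrt m = s at hs0 hs2
  refine tendsto_of_lawLe hs0 ?_ ?_ h1 (lawLe_dary hkm) (law_dary hk) (law_dary (by omega))
    (nonrec_d m hm s hs0 hs2)
  · by_contra hh
    have hh := not_le.1 hh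
    nlinarith
  · by_contra hh
    have hh := not_le.1 hh
    have : s ^ 2 < lam ^ 2 := by nlinarith
    nlinarith

lemma nonrec_pois {d lam : ℝ} (hd : 0 < d) (h0 : -1 / 2 ≤ lam) (h1 : lam < 0)
    (hc : d * lam ^ 2 ≤ 1) : Tendsto (adv 3 (pois d) lam) atTop (𝓝 0) := by
  have hs0 : 0 < -lam := by linarith
  have hl2 : 0 < (-lam) ^ 2 := by positivity
  have hd' : d ≤ 1 / (-lam) ^ 2 := by
    rw [le_div_iff₀ hl2]; nlinarith
  exact tendsto_of_lawLe hs0 (by linarith) (by linarith) h1 (lawLe_pois hd.le hd') (law_pois hd)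
    (law_pois (by positivity)) (nonrec_P (-lam) hs0 (by linarith))

end Vale.Agent.P154.AF
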