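import Vale.Agent.P154.Laws

/-! Certificates for the antiferromagnetic three-state case: definitions. -/

namespace Vale.Agent.P154

open Finset

abbrev F3 := (Fin 3 → ℝ) → ℝ

/-- third central moment -/
noncomputable def thr3 (p : Fin 3 → ℝ) : ℝ := avg fun i => (p i - 1) ^ 3

/-- `V(w) = sum_e w^e V_e` -/
noncomputable def Vw (m : ℕ) (V : ℕ → F3) (w : ℝ) : F3 := fun p => ∑ e ∈ range m, w ^ e * V e p

/-- the derivative of `Vw` in `w` -/
noncomputable def dVw (m : ℕ) (V : ℕ → F3) (w : ℝ) : F3 :=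
  fun p => ∑ e ∈ range m, (e : ℝ) * w ^ (e - 1) * V e p

/-- common part of the two certificates -/
structure CertBase (m : ℕ) (V : ℕ → F3) (α β : ℝ → F3) : Prop where
  pos : 0 < m
  bV : ∀ e, Bdd (V e)
  bαβ : ∃ C : ℝ, ∀ w, 0 ≤ w → w ≤ 1 → ∀ p, Simp p → |α w p| ≤ C ∧ |β w p| ≤ C
  neg : Vw m V 1 (fun _ => 1) < 0

/-- certificate excluding the limit values `(x, τ)` on a regular tree -/
def CertReg (lam x τ : ℝ) : Prop :=
  ∃ (m : ℕ) (V : ℕ → F3) (α β : ℝ → F3), CertBase m V α β ∧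
    ∀ w, 0 ≤ w → w ≤ 1 - lam ^ 2 → ∀ p r, Simp p → Simp r →
      Kop (Vw m V w) p (chan lam r) ≤ Vw m V (w + lam ^ 2) p
        + lam ^ 2 * (V 0 r + α w p * (chi r - x) + β w p * (thr3 r - τ))

/-- certificate excluding the limit values `(x, τ)` on a Poisson tree -/
def CertPoi (lam x τ : ℝ) : Prop :=
  ∃ (m : ℕ) (V : ℕ → F3) (α β : ℝ → F3), CertBase m V α β ∧
    ∀ w, 0 ≤ w → w ≤ 1 → ∀ p r, Simp p → Simp r →
      Kop (Vw m V w) p (chan lam r) ≤ Vw m V w p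
        + lam ^ 2 * (dVw m V w p + V 0 r + α w p * (chi r - x) + β w p * (thr3 r - τ))

end Vale.Agent.P154
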