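import Vale.Agent.P154.Cert

/-! Kronecker substitution for polynomials in nine variables that are homogeneous in each of
four groups of variables. -/

namespace Vale.Agent.P154.AF

open Finset

abbrev X9 := Fin 9 → ℕ
abbrev D4 := ℕ × ℕ × ℕ × ℕ

def dg9 (e : X9) : D4 := (e 0 + e 1, e 2 + e 3, e 4 + e 5, e 6 + e 7 + e 8)
def ix9 (e : X9) : ℕ := e 7 + 9 * e 8 + 73 * e 1 + 292 * e 3 + 1168 * e 5
noncomputable def mn9 (z : Fin 9 → ℝ) (e : X9) : ℝ := ∏ i, z i ^ e i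

def Rp (B : ℕ) (z : Fin 9 → ℝ) (d : D4) (N : ℤ) (n : ℕ) (v : ℝ) : Prop :=
  ∃ L : List (ℤ × X9), (∀ t ∈ L, dg9 t.2 = d) ∧
    N = (L.map fun t => t.1 * 2 ^ (B * ix9 t.2)).sum ∧
    (L.map fun t => t.1.natAbs).sum ≤ n ∧ v = (L.map fun t => (t.1 : ℝ) * mn9 z t.2).sum

lemma sum_comb9 {R : Type} [CommSemiring R] (g : ℤ × X9 → R)
    (hg : ∀ s t, g (s.1 * t.1, s.2 + t.2) = g s * g t) (L L' : List (ℤ × X9)) :
    ((L.flatMap fun s => L'.map fun t => (s.1 * t.1, s.2 + t.2)).map g).sum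
      = (L.map g).sum * (L'.map g).sum := by
  induction L with
  | nil => simp
  | cons s L ih =>
    simp only [List.flatMap_cons, List.map_append, List.sum_append, ih, List.map_cons,
      List.sum_cons, add_mul, List.map_map]
    congr 1
    have : (g ∘ fun t => (s.1 * t.1, s.2 + t.2)) = fun t => g s * g t := funext fun t => hg s t
    rw [this, List.sum_map_mul_left]

variable {B : ℕ} {z : Fin 9 → ℝ} {d d' : D4} {N N' : ℤ} {n n' : ℕ} {v v' : ℝ}

lemma Rp.cast (h : Rp B z d N n v) (e1 : d = d') (e2 : N = N') (e3 : n = n') (e4 : v = v') :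
    Rp B z d' N' n' v' := e1 ▸ e2 ▸ e3 ▸ e4 ▸ h

lemma rp_zero : Rp B z d 0 0 0 := ⟨[], by simp, by simp, by simp, by simp⟩

lemma rp_mono (c : ℤ) (e : X9) : Rp B z (dg9 e) (c * 2 ^ (B * ix9 e)) c.natAbs (c * mn9 z e) :=
  ⟨[(c, e)], by simp, by simp, by simp, by simp⟩

lemma Rp.add (h : Rp B z d N n v) (h' : Rp B z d N' n' v') :
    Rp B z d (N + N') (n + n') (v + v') := by
  obtain ⟨L, h1, h2, h3, h4⟩ := h
  obtain ⟨L', g1, g2, g3, g4⟩ := h'
  refine ⟨L ++ L', fun t ht => (List.mem_append.1 ht).elim (h1 t) (g1 t), ?_, ?_, ?_⟩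
  · simp only [List.map_append, List.sum_append, h2, g2]
  · simp only [List.map_append, List.sum_append]
    exact Nat.add_le_add h3 g3
  · simp only [List.map_append, List.sum_append, h4, g4]

lemma Rp.mul (h : Rp B z d N n v) (h' : Rp B z d' N' n' v') :
    Rp B z (d + d') (N * N') (n * n') (v * v') := by
  obtain ⟨L, h1, h2, h3, h4⟩ := h
  obtain ⟨L', g1, g2, g3, g4⟩ := h'
  refine ⟨L.flatMap fun s => L'.map fun t => (s.1 * t.1, s.2 + t.2), ?_, ?_, ?_, ?_⟩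
  · intro t ht
    obtain ⟨s, hs, ht⟩ := List.mem_flatMap.1 ht
    obtain ⟨u, hu, rfl⟩ := List.mem_map.1 ht
    rw [← h1 s hs, ← g1 u hu]
    simp only [dg9, Pi.add_apply, Prod.mk_add_mk, Prod.mk.injEq]
    omega
  · rw [sum_comb9 (fun t => t.1 * 2 ^ (B * ix9 t.2)), ← h2, ← g2]
    intro s t
    have : ix9 (s.2 + t.2) = ix9 s.2 + ix9 t.2 := by simp only [ix9, Pi.add_apply]; ring
    simp only [this, mul_add, pow_add]
    ring
  · rw [sum_comb9 (fun t => t.1.natAbs)]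
    · exact Nat.mul_le_mul h3 g3
    · intro s t; simp [Int.natAbs_mul]
  · rw [sum_comb9 (fun t => (t.1 : ℝ) * mn9 z t.2), ← h4, ← g4]
    intro s t
    simp only [mn9, Pi.add_apply, pow_add, prod_mul_distrib, Int.cast_mul]
    ring

lemma Rp.eq_zero (h : Rp B z d N 0 v) : v = 0 := by
  obtain ⟨L, -, -, h3, rfl⟩ := h
  refine List.sum_eq_zero fun a ha => ?_
  obtain ⟨t, ht, rfl⟩ := List.mem_map.1 ha
  have := List.single_le_sum (l := L.map fun t => t.1.natAbs) (by simp) _ (List.mem_map_of_mem ht)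
  have : t.1 = 0 := by omega
  simp [this]

lemma rp_const (c : ℤ) : Rp B z 0 c c.natAbs c :=
  (rp_mono c 0).cast rfl (by simp [ix9]) rfl (by simp [mn9])

lemma rp_var (c : ℤ) (i : Fin 9) : Rp B z (dg9 (Pi.single i 1))
    (c * 2 ^ (B * ix9 (Pi.single i 1))) c.natAbs (c * z i) :=
  (rp_mono c _).cast rfl rfl rfl (by
    unfold mn9
    rw [prod_eq_single i (fun j _ hj => by simp [hj]) (by simp)]; simp)

def J4 (d : D4) : ℕ := 73 + 73 * d.1 + 292 * d.2.1 + 1168 * d.2.2.1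

open Classical in
noncomputable def mT (z : Fin 9 → ℝ) (d : D4) (t : ℕ) : ℝ :=
  if h : ∃ e, dg9 e = d ∧ ix9 e = t then mn9 z h.choose else 0

lemma mT_nonneg (hz : ∀ i, 0 ≤ z i) (t : ℕ) : 0 ≤ mT z d t := by
  unfold mT
  split_ifs
  · exact prod_nonneg fun i _ => pow_nonneg (hz i) _
  · exact le_rfl

lemma mT_ix {e : X9} (he : dg9 e = d) (hd : d.1 ≤ 3 ∧ d.2.1 ≤ 3 ∧ d.2.2.2 ≤ 8) :
    mT z d (ix9 e) = mn9 z e := by
  have h : ∃ e', dg9 e' = d ∧ ix9 e' = ix9 e := ⟨e, he, rfl⟩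
  unfold mT
  rw [dif_pos h]
  obtain ⟨h1, h2⟩ := h.choose_spec
  generalize h.choose = e' at h1 h2
  subst he
  simp only [dg9, ix9, Prod.mk.injEq] at h1 h2 hd
  have k : ∀ m a b a' b' : ℕ, a < m → a' < m → a + m * b = a' + m * b' → a = a' ∧ b = b' := by
    intro m a b a' b' h h' e
    have e1 := congrArg (· % m) e
    simp only [Nat.add_mul_mod_self_left, Nat.mod_eq_of_lt h, Nat.mod_eq_of_lt h'] at e1
    subst e1
    exact ⟨rfl, Nat.eq_of_mul_eq_mul_left (by omega) (Nat.add_left_cancel e)⟩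
  have k1 := k 1168 _ _ _ _ (by omega) (by omega) h2
  have k2 := k 292 _ _ _ _ (by omega) (by omega) k1.1
  have k3 := k 73 _ _ _ _ (by omega) (by omega) k2.1
  have k4 := k 9 _ _ _ _ (by omega) (by omega) k3.1
  congr 1
  funext i
  fin_cases i <;> simp <;> omega

lemma Rp.collect (h : Rp B z d N n v) (hd : d.1 ≤ 3 ∧ d.2.1 ≤ 3 ∧ d.2.2.2 ≤ 8) :
    ∃ C : ℕ → ℤ, (∀ t, (C t).natAbs ≤ n) ∧ (∀ t, (∀ e, dg9 e = d → ix9 e ≠ t) → C t = 0) ∧
      N = ∑ t ∈ range (J4 d), C t * 2 ^ (B * t) ∧ v = ∑ t ∈ range (J4 d), (C t : ℝ) * mT z d t := by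
  obtain ⟨L, h1, rfl, h3, rfl⟩ := h
  suffices H : ∃ C : ℕ → ℤ, (∀ t, (C t).natAbs ≤ (L.map fun t => t.1.natAbs).sum) ∧
      (∀ t, (∀ e, dg9 e = d → ix9 e ≠ t) → C t = 0) ∧
      (L.map fun t => t.1 * 2 ^ (B * ix9 t.2)).sum = ∑ t ∈ range (J4 d), C t * 2 ^ (B * t) ∧
      (L.map fun t => (t.1 : ℝ) * mn9 z t.2).sum = ∑ t ∈ range (J4 d), (C t : ℝ) * mT z d t by
    obtain ⟨C, c1, c2⟩ := H
    exact ⟨C, fun t => (c1 t).trans h3, c2⟩
  clear h3
  induction L with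
  | nil => exact ⟨fun _ => 0, by simp, by simp, by simp, by simp⟩
  | cons s L ih =>
    obtain ⟨C, c1, c2, c3, c4⟩ := ih fun t ht => h1 t (List.mem_cons_of_mem _ ht)
    have hs := h1 s List.mem_cons_self
    have hlt : ix9 s.2 ∈ range (J4 d) := by
      subst hs
      simp only [dg9, ix9, J4, mem_range] at hd ⊢
      omega
    refine ⟨fun t => (if t = ix9 s.2 then s.1 else 0) + C t, ?_, ?_, ?_, ?_⟩
    · intro t
      simp only [List.map_cons, List.sum_cons]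
      refine (Int.natAbs_add_le _ _).trans (Nat.add_le_add ?_ (c1 t))
      split_ifs <;> simp
    · intro t ht
      beta_reduce
      rw [c2 t ht, if_neg (ht _ hs).symm, add_zero]
    · simp only [List.map_cons, List.sum_cons, c3, add_mul, sum_add_distrib, ite_mul, zero_mul,
        sum_ite_eq', hlt, if_true]
    · simp only [List.map_cons, List.sum_cons, c4, Int.cast_add, add_mul, sum_add_distrib,
        Int.cast_ite, Int.cast_zero, ite_mul, zero_mul, sum_ite_eq', hlt, if_true, mT_ix hs hd]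

lemma Rp.nonneg (h : Rp (B + 1) z d N n v) (hd : d.1 ≤ 3 ∧ d.2.1 ≤ 3 ∧ d.2.2.2 ≤ 8)
    (hc : nnB B (off B (J4 d)) ⟨N, n⟩ = true) (hz : ∀ i, 0 ≤ z i) : 0 ≤ v := by
  obtain ⟨C, c1, -, c3, c4⟩ := h.collect hd
  simp only [nnB, Bool.and_eq_true, Nat.blt_eq, Nat.beq_eq, Nat.shiftLeft_eq', Nat.shiftLeft_eq,
    one_mul] at hc
  have hC : ∀ t, (C t).natAbs < 2 ^ B := fun t => (c1 t).trans_lt hc.1
  rw [c4]
  refine sum_nonneg fun t ht => mul_nonneg ?_ (mT_nonneg hz t)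
  have := nn_fields hC (c3 ▸ hc.2) (mem_range.1 ht)
  exact_mod_cast this

/-! ### polynomials that carry their degrees -/

structure P where
  N : ℤ
  n : ℕ
  d0 : ℕ
  d1 : ℕ
  d2 : ℕ
  d3 : ℕ

def P.dd (a : P) : D4 := (a.d0, a.d1, a.d2, a.d3)

noncomputable def fJ {α : Type} (x : ℤ) (k : ℤ → α) : α :=
  Int.rec (fun n => fZ n fun m => k (Int.ofNat m)) (fun n => fZ n fun m => k (Int.negSucc m)) x

noncomputable def uP {α : Type} (a : P) (k : ℤ → ℕ → ℕ → ℕ → ℕ → ℕ → α) : α :=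
  P.rec (fun N n a b c d => fJ N fun N => fZ n fun n => fZ a fun a => fZ b fun b =>
    fZ c fun c => fZ d fun d => k N n a b c d) a

noncomputable def fP {α : Type} (a : P) (k : P → α) : α :=
  uP a fun N n a b c d => k ⟨N, n, a, b, c, d⟩

lemma fJ_eq {α : Type} (x : ℤ) (k : ℤ → α) : fJ x k = k x := by cases x <;> rfl
lemma uP_eq {α : Type} (a : P) (k : ℤ → ℕ → ℕ → ℕ → ℕ → ℕ → α) :
    uP a k = k a.N a.n a.d0 a.d1 a.d2 a.d3 := by
  rcases a with ⟨N, _⟩
  cases N <;> rfl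
lemma fP_eq {α : Type} (a : P) (k : P → α) : fP a k = k a := uP_eq _ _

noncomputable def shl (N : ℤ) (k : ℕ) : ℤ :=
  Int.rec (fun n => Int.ofNat (Nat.shiftLeft n k))
    (fun n => Int.negSucc (Nat.pred (Nat.shiftLeft (Nat.succ n) k))) N

lemma shl_eq (N : ℤ) (k : ℕ) : shl N k = N * 2 ^ k := by
  cases N with
  | ofNat n => simp [shl, Nat.shiftLeft_eq]
  | negSucc n =>
    have h : 0 < (n + 1) * 2 ^ k := by positivity
    simp only [shl, Nat.shiftLeft_eq', Nat.shiftLeft_eq, Int.negSucc_eq, Nat.pred_eq_sub_one,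
      Nat.succ_eq_add_one, Nat.cast_sub h]
    push_cast; ring

def pzero : P := ⟨0, 0, 0, 0, 0, 0⟩
def pone : P := ⟨1, 1, 0, 0, 0, 0⟩

noncomputable def l2 (c0 c1 N : ℤ) (k : ℕ) : ℤ := Int.add (Int.mul c0 N) (Int.mul c1 (shl N k))

noncomputable def m0 (B : ℕ) (c0 c1 : ℤ) (a : P) : P := uP a fun N n d0 d1 d2 d3 =>
  ⟨l2 c0 c1 N (Nat.mul B 73), Nat.mul (Nat.add c0.natAbs c1.natAbs) n, Nat.succ d0, d1, d2, d3⟩
noncomputable def m1 (B : ℕ) (c0 c1 : ℤ) (a : P) : P := uP a fun N n d0 d1 d2 d3 =>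
  ⟨l2 c0 c1 N (Nat.mul B 292), Nat.mul (Nat.add c0.natAbs c1.natAbs) n, d0, Nat.succ d1, d2, d3⟩
noncomputable def m2 (B : ℕ) (c0 c1 : ℤ) (a : P) : P := uP a fun N n d0 d1 d2 d3 =>
  ⟨l2 c0 c1 N (Nat.mul B 1168), Nat.mul (Nat.add c0.natAbs c1.natAbs) n, d0, d1, Nat.succ d2, d3⟩
noncomputable def m3 (B : ℕ) (c0 c1 c2 : ℤ) (a : P) : P := uP a fun N n d0 d1 d2 d3 =>
  ⟨Int.add (l2 c0 c1 N B) (Int.mul c2 (shl N (Nat.mul B 9))),
    Nat.mul (Nat.add (Nat.add c0.natAbs c1.natAbs) c2.natAbs) n, d0, d1, d2, Nat.succ d3⟩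

noncomputable def pmul (a b : P) : P := uP a fun N n d0 d1 d2 d3 => uP b fun N' n' e0 e1 e2 e3 =>
  ⟨Int.mul N N', Nat.mul n n', Nat.add d0 e0, Nat.add d1 e1, Nat.add d2 e2, Nat.add d3 e3⟩

noncomputable def psm (c : ℤ) (a : P) : P := fJ c fun c =>
  Bool.rec (uP a fun N n d0 d1 d2 d3 => ⟨Int.mul c N, Nat.mul c.natAbs n, d0, d1, d2, d3⟩) pzero
    (Nat.beq c.natAbs 0)

noncomputable def iter (k : ℕ) (f : P → P) (a : P) : P := Nat.rec a (fun _ ih => f ih) k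

structure Cx where
  B : ℕ
  b0 : ℤ
  b1 : ℤ
  b2 : ℤ
  s0 : ℤ
  s1 : ℤ
  s2 : ℤ

noncomputable def lift (X : Cx) (e0 e1 e2 e3 : ℕ) (a : P) : P := uP a fun N n d0 d1 d2 d3 =>
  iter (Nat.sub e2 d2) (m2 X.B X.b2 X.b2) (iter (Nat.sub e1 d1) (m1 X.B X.b1 X.b1)
    (iter (Nat.sub e0 d0) (m0 X.B X.b0 X.b0)
      (iter (Nat.sub e3 d3) (m3 X.B X.s0 X.s1 X.s2) ⟨N, n, d0, d1, d2, d3⟩)))

def radd (a b : P) : P := ⟨Int.add a.N b.N, Nat.add a.n b.n, a.d0, a.d1, a.d2, a.d3⟩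

def deq (a : P) (e0 e1 e2 e3 : ℕ) : Bool :=
  Bool.and (Bool.and (Nat.beq a.d0 e0) (Nat.beq a.d1 e1)) (Bool.and (Nat.beq a.d2 e2) (Nat.beq a.d3 e3))

noncomputable def padd (X : Cx) (a b : P) : P := fP a fun a => fP b fun b =>
  Bool.rec (Bool.rec (Bool.rec
    (fP (lift X b.d0 b.d1 b.d2 b.d3 a) fun a' => fP (lift X a.d0 a.d1 a.d2 a.d3 b) fun b' => radd a' b')
    (radd a b) (deq a b.d0 b.d1 b.d2 b.d3)) b (Nat.beq a.n 0)) a (Nat.beq b.n 0)

noncomputable def sumP (X : Cx) (n : ℕ) (f : ℕ → P) : P :=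
  Nat.rec pzero (fun i ih => padd X ih (f i)) n

noncomputable def sumZ (n : ℕ) (f : ℕ → ℤ) : ℤ :=
  Nat.rec 0 (fun i ih => fJ ih fun a => Int.add a (f i)) n

/-- polynomial in the first two groups with coefficient table `c` -/
noncomputable def dat (B d0 d1 : ℕ) (c : ℕ → ℕ → ℤ) : P :=
  ⟨sumZ (d1 + 1) fun j => sumZ (d0 + 1) fun k =>
      shl (c j k) (Nat.mul B (Nat.add (Nat.mul 73 k) (Nat.mul 292 j))),
    Int.toNat (sumZ (d1 + 1) fun j => sumZ (d0 + 1) fun k =>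
      Int.ofNat (c j k).natAbs), d0, d1, 0, 0⟩

noncomputable def dv (z0 z1 z2 z3 : ℝ) (d0 d1 : ℕ) (c : ℕ → ℕ → ℤ) : ℝ :=
  ∑ j ∈ range (d1 + 1), ∑ k ∈ range (d0 + 1),
    (c j k : ℝ) * (z0 ^ (d0 - k) * z1 ^ k * z2 ^ (d1 - j) * z3 ^ j)

noncomputable def nnP (B : ℕ) (a : P) : Bool := uP a fun N n d0 d1 d2 d3 =>
  Bool.and (Bool.and (Bool.and (Nat.ble d0 3) (Nat.ble d1 3)) (Nat.ble d3 8))
    (fZ (off B (J4 (d0, d1, d2, d3))) fun o => nnB B o ⟨N, n⟩)

def R (B : ℕ) (z : Fin 9 → ℝ) (a : P) (v : ℝ) : Prop := Rp B z a.dd a.N a.n v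

structure Good (X : Cx) (z : Fin 9 → ℝ) : Prop where
  pos : ∀ i, 0 ≤ z i
  h0 : X.b0 * z 0 + X.b0 * z 1 = 1
  h1 : X.b1 * z 2 + X.b1 * z 3 = 1
  h2 : X.b2 * z 4 + X.b2 * z 5 = 1
  h3 : X.s0 * z 6 + X.s1 * z 7 + X.s2 * z 8 = 1

variable {a b : P} {X : Cx}

lemma R.congr (h : R B z a v) (e : v = v') : R B z a v' := e ▸ h

lemma r_zero : R B z pzero 0 := rp_zero
lemma r_one : R B z pone 1 := (rp_const 1).cast rfl rfl rfl (by simp)

lemma R.m0 (h : R B z a v) (c0 c1 : ℤ) : R B z (m0 B c0 c1 a) ((c0 * z 0 + c1 * z 1) * v) := by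
  have := ((rp_var c0 0).add ((rp_var c1 1).cast (by decide) rfl rfl rfl)).mul h
  unfold AF.m0
  rw [uP_eq]
  refine this.cast (by simp [dg9, P.dd, add_comm]) ?_ rfl rfl
  simp [l2, shl_eq, ix9]; ring

lemma R.m1 (h : R B z a v) (c0 c1 : ℤ) : R B z (m1 B c0 c1 a) ((c0 * z 2 + c1 * z 3) * v) := by
  have := ((rp_var c0 2).add ((rp_var c1 3).cast (by decide) rfl rfl rfl)).mul h
  unfold AF.m1
  rw [uP_eq]
  refine this.cast (by simp [dg9, P.dd, add_comm]) ?_ rfl rfl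
  simp [l2, shl_eq, ix9]; ring

lemma R.m2 (h : R B z a v) (c0 c1 : ℤ) : R B z (m2 B c0 c1 a) ((c0 * z 4 + c1 * z 5) * v) := by
  have := ((rp_var c0 4).add ((rp_var c1 5).cast (by decide) rfl rfl rfl)).mul h
  unfold AF.m2
  rw [uP_eq]
  refine this.cast (by simp [dg9, P.dd, add_comm]) ?_ rfl rfl
  simp [l2, shl_eq, ix9]; ring

lemma R.m3 (h : R B z a v) (c0 c1 c2 : ℤ) :
    R B z (m3 B c0 c1 c2 a) ((c0 * z 6 + c1 * z 7 + c2 * z 8) * v) := by
  have := (((rp_var c0 6).add ((rp_var c1 7).cast (by decide) rfl rfl rfl)).add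
    ((rp_var c2 8).cast (by decide) rfl rfl rfl)).mul h
  unfold AF.m3
  rw [uP_eq]
  refine this.cast (by simp [dg9, P.dd, add_comm]) ?_ rfl rfl
  simp [l2, shl_eq, ix9]; ring

lemma R.pmul (h : R B z a v) (h' : R B z b v') : R B z (pmul a b) (v * v') := by
  unfold AF.pmul
  rw [uP_eq, uP_eq]
  exact Rp.mul h h'

lemma R.psm (h : R B z a v) (c : ℤ) : R B z (psm c a) (c * v) := by
  unfold AF.psm
  rw [fJ_eq]
  cases hc : Nat.beq c.natAbs 0 with
  | true =>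
    obtain rfl : c = 0 := by simpa using hc
    exact r_zero.congr (by simp)
  | false =>
    rw [uP_eq]
    exact ((rp_const c).mul h).cast (zero_add _) rfl rfl rfl

lemma R.iter {f : P → P} {c : ℝ} (hf : ∀ a v, R B z a v → R B z (f a) (c * v)) (k : ℕ)
    (h : R B z a v) : R B z (iter k f a) (c ^ k * v) := by
  induction k with
  | zero => exact h.congr (by simp)
  | succ k ih => exact (hf _ _ ih).congr (by ring)

lemma iter_d {f : P → P} {δ : D4} (hf : ∀ a, (f a).dd = a.dd + δ) (k : ℕ) (a : P) :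
    (iter k f a).dd = a.dd + k • δ := by
  induction k with
  | zero => simp [iter]
  | succ k ih => exact (hf _).trans (by rw [show Nat.rec a _ k = iter k f a from rfl, ih, succ_nsmul,
      add_assoc])

lemma lift_d (X : Cx) (e0 e1 e2 e3 : ℕ) (a : P) : (lift X e0 e1 e2 e3 a).dd
    = (a.d0 + (e0 - a.d0), a.d1 + (e1 - a.d1), a.d2 + (e2 - a.d2), a.d3 + (e3 - a.d3)) := by
  unfold lift
  rw [uP_eq, iter_d (δ := (0, 0, 1, 0)), iter_d (δ := (0, 1, 0, 0)), iter_d (δ := (1, 0, 0, 0)),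
    iter_d (δ := (0, 0, 0, 1))]
  · simp [P.dd]
  all_goals
    intro a
    simp [m0, m1, m2, m3, uP_eq, P.dd]

lemma R.lift (hX : Good X z) (h : R X.B z a v) (e0 e1 e2 e3 : ℕ) :
    R X.B z (lift X e0 e1 e2 e3 a) v := by
  unfold AF.lift
  rw [uP_eq]
  refine (R.iter (fun _ _ h => h.m2 _ _) _ (R.iter (fun _ _ h => h.m1 _ _) _
    (R.iter (fun _ _ h => h.m0 _ _) _ (R.iter (fun _ _ h => h.m3 _ _ _) _ h)))).congr ?_
  simp [hX.h0, hX.h1, hX.h2, hX.h3]

lemma deq_true {e0 e1 e2 e3 : ℕ} (h : deq a e0 e1 e2 e3 = true) : a.dd = (e0, e1, e2, e3) := by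
  simp only [deq, Bool.and_eq_true, Nat.beq_eq] at h
  simp [P.dd, h]

lemma R.padd (hX : Good X z) (h : R X.B z a v) (h' : R X.B z b v') :
    R X.B z (padd X a b) (v + v') := by
  unfold AF.padd
  rw [fP_eq, fP_eq]
  cases hb : Nat.beq b.n 0 with
  | true =>
    unfold R at h'
    rw [Nat.eq_of_beq_eq_true hb] at h'
    exact h.congr (by simp [h'.eq_zero])
  | false =>
    cases ha : Nat.beq a.n 0 with
    | true =>
      unfold R at h
      rw [Nat.eq_of_beq_eq_true ha] at h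
      exact h'.congr (by simp [h.eq_zero])
    | false =>
      cases hd : deq a b.d0 b.d1 b.d2 b.d3 with
      | true => exact Rp.add h (h'.cast (deq_true hd).symm rfl rfl rfl)
      | false =>
        simp only [fP_eq]
        refine Rp.add (h.lift hX _ _ _ _) ((h'.lift hX _ _ _ _).cast ?_ rfl rfl rfl)
        change _ = (AF.lift X b.d0 b.d1 b.d2 b.d3 a).dd
        simp only [lift_d, Prod.mk.injEq]
        omega

lemma r_sumP (hX : Good X z) {f : ℕ → P} {F : ℕ → ℝ} (m : ℕ) (h : ∀ i < m, R X.B z (f i) (F i)) :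
    R X.B z (sumP X m f) (∑ i ∈ range m, F i) := by
  induction m with
  | zero => exact r_zero
  | succ m ih =>
    rw [sum_range_succ]
    exact (ih fun i hi => h i (by omega)).padd hX (h m (by omega))

lemma sumZ_eq (m : ℕ) (f : ℕ → ℤ) : sumZ m f = ∑ i ∈ range m, f i := by
  induction m with
  | zero => rfl
  | succ m ih => rw [sum_range_succ, ← ih]; exact fJ_eq (sumZ m f) fun a => Int.add a (f m)

lemma rp_sum {f : ℕ → ℤ} {g : ℕ → ℕ} {F : ℕ → ℝ} (m : ℕ)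
    (h : ∀ i < m, Rp B z d (f i) (g i) (F i)) :
    Rp B z d (∑ i ∈ range m, f i) (∑ i ∈ range m, g i) (∑ i ∈ range m, F i) := by
  induction m with
  | zero => exact rp_zero
  | succ m ih =>
    simp only [sum_range_succ]
    exact (ih fun i hi => h i (by omega)).add (h m (by omega))

lemma r_dat (d0 d1 : ℕ) (c : ℕ → ℕ → ℤ) :
    R B z (dat B d0 d1 c) (dv (z 0) (z 1) (z 2) (z 3) d0 d1 c) := by
  refine (rp_sum (d := (d0, d1, 0, 0)) (d1 + 1) fun j hj => rp_sum (d0 + 1) fun k hk =>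
    (rp_mono (B := B) (z := z) (c j k) ![d0 - k, k, d1 - j, j, 0, 0, 0, 0, 0]).cast
      ?_ rfl rfl rfl).cast rfl ?_ ?_ ?_
  · simp [dg9]; omega
  · simp [dat, sumZ_eq, shl_eq, ix9]
  · simp only [dat, sumZ_eq, Int.ofNat_eq_natCast, ← Nat.cast_sum, Int.toNat_natCast]
  · simp [dv, mn9, Fin.prod_univ_succ, mul_assoc]

lemma R.nonneg (h : R (B + 1) z a v) (hc : nnP B a = true) (hz : ∀ i, 0 ≤ z i) : 0 ≤ v := by
  simp only [nnP, uP_eq, fZ_eq, Bool.and_eq_true, Nat.ble_eq] at hc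
  exact Rp.nonneg h ⟨hc.1.1.1, hc.1.1.2, hc.1.2⟩ hc.2 hz

/-! ### bilinear forms -/

noncomputable def prepV (B d2 : ℕ) (vs : List P) (k : ℕ → List SV → Bool) : Bool :=
  Bool.and (allL vs fun v => deq v 3 3 d2 8)
    (fZ (off B (J4 (3, 3, d2, 8))) fun o => mapL (fun v : P => svI v.N v.n) vs (k o))

noncomputable def bilU (B1 B o s : ℕ) (ws : List SV) (us : List P) : Bool :=
  fZ (off B1 73) fun o1 =>
  Bool.and (allL us fun u => Bool.and (deq u 0 0 0 8) (Nat.blt u.n (Nat.shiftLeft 1 B1)))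
    (mapL (fun u : P => fZ (shf o1 u.N)) us fun ms =>
      allN 73 fun t =>
        Bool.rec (mapL (fun M => svI (dec B1 M t) 0) ms fun cs => lin2 B o (Nat.add s t) cs ws 0 0 0)
          true (Nat.blt 8 (Nat.add (Nat.mod t 9) (Nat.div t 9))))

lemma rp_lin (cs : List ℤ) {vs : List K} {Vs : List ℝ}
    (hv : List.Forall₂ (fun a v => Rp B z d a.N a.n v) vs Vs) {acc : K} (ha : Rp B z d acc.N acc.n v) :
    Rp B z d (lin cs vs acc).N (lin cs vs acc).n
      (v + (List.zipWith (fun (c : ℤ) (V : ℝ) => c * V) cs Vs).sum) := by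
  induction cs generalizing vs Vs acc v with
  | nil => exact ha.cast rfl rfl rfl (by simp)
  | cons c cs ih =>
    cases hv with
    | nil => exact ha.cast rfl rfl rfl (by simp)
    | @cons w V vs Vs h1 h2 =>
      have e : lin (c :: cs) (w :: vs) acc = Bool.rec (fK (kadd acc (ksm c w)) (lin cs vs))
        (lin cs vs acc) (Nat.beq (Int.natAbs c) 0) := rfl
      rw [e]
      cases hc : Nat.beq (Int.natAbs c) 0 with
      | false =>
        simp only [fK_eq]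
        exact (ih h2 (acc := kadd acc (ksm c w)) (ha.add (((rp_const c).mul h1).cast (zero_add _)
          rfl rfl rfl))).cast rfl rfl rfl (by simp [add_assoc])
      | true =>
        obtain rfl : c = 0 := by simpa using hc
        exact (ih h2 ha).cast rfl rfl rfl (by simp)

theorem bil_sound9 {B1 d2 : ℕ} {vs : List P} {k : ℕ → List SV → Bool} (h : prepV B d2 vs k = true)
    {Vs : List ℝ} (hv : List.Forall₂ (R (B + 1) z) vs Vs) (hz : ∀ i, 0 ≤ z i) :
    ∃ o ws, k o ws = true ∧ ∀ s us, bilU B1 B o s ws us = true → ∀ (y : Fin 9 → ℝ) (Us : List ℝ),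
      List.Forall₂ (R (B1 + 1) y) us Us → (∀ i, 0 ≤ y i) →
        0 ≤ (List.zipWith (fun U V => U * V) Us Vs).sum := by
  simp only [prepV, fZ_eq, Bool.and_eq_true,
    mapL_eq (fun v : P => svI v.N v.n) (fun v => svP v.N v.n) (fun v k => svI_eq _ _ _)] at h
  refine ⟨_, _, h.2, fun s us hb y Us hu hy => ?_⟩
  have hv' : List.Forall₂ (fun (a : K) v => Rp (B + 1) z (3, 3, d2, 8) a.N a.n v)
      (vs.map fun v => ⟨v.N, v.n⟩) Vs := by
    have h1 := allL_true h.1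
    clear h hb
    induction hv with
    | nil => exact .nil
    | cons g1 _ ih =>
      refine List.Forall₂.cons ?_ (ih fun a ha => h1 a (List.mem_cons_of_mem _ ha))
      exact g1.cast (deq_true (h1 _ List.mem_cons_self)) rfl rfl rfl
  simp only [bilU, fZ_eq, Bool.and_eq_true,
    mapL_eq (fun u : P => fZ (shf (off B1 73) u.N)) (fun u => shf (off B1 73) u.N)
      (fun a k => fZ_eq _ _)] at hb
  obtain ⟨hb, hall⟩ := hb
  replace hb := allL_true hb
  replace hall := allN_true hall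
  have key : ∃ Cs : List (ℕ → ℤ),
      (∀ t < 73, (us.map fun u => shf (off B1 73) u.N).map (fun M => dec B1 M t) = Cs.map (· t)) ∧
      (∀ t, 8 < t % 9 + t / 9 → ∀ C ∈ Cs, C t = 0) ∧
      ∀ Vs : List ℝ, (List.zipWith (fun U V => U * V) Us Vs).sum = ∑ t ∈ range 73,
        mT y (0, 0, 0, 8) t * (List.zipWith (fun (c : ℤ) (V : ℝ) => c * V) (Cs.map (· t)) Vs).sum := by
    clear hall
    induction hu with
    | nil => exact ⟨[], by simp, by simp, by simp⟩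
    | @cons u U us Us h1 h2 ih =>
      obtain ⟨Cs, k1, k2, k3⟩ := ih fun a ha => hb a (List.mem_cons_of_mem _ ha)
      have hu := hb u List.mem_cons_self
      simp only [Bool.and_eq_true, Nat.blt_eq, Nat.shiftLeft_eq', Nat.shiftLeft_eq, one_mul] at hu
      obtain ⟨C, c1, c2, c3, c4⟩ := (h1.cast (deq_true hu.1) rfl rfl rfl).collect (by simp)
      have hC : ∀ t, (C t).natAbs < 2 ^ B1 := fun t => (c1 t).trans_lt hu.2
      refine ⟨C :: Cs, ?_, ?_, ?_⟩
      · intro t ht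
        simp only [List.map_cons, k1 t ht, c3]
        exact congrArg (· :: _) (dec_eq hC ht)
      · intro t ht C' hC'
        rcases List.mem_cons.1 hC' with rfl | h
        · refine c2 t fun e he => ?_
          simp only [dg9, ix9, Prod.mk.injEq] at he ⊢
          omega
        · exact k2 t ht C' h
      · intro Vs
        cases Vs with
        | nil => simp
        | cons V Vs =>
          simp only [List.zipWith_cons_cons, List.sum_cons, List.map_cons, k3 Vs, c4, sum_mul,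
            mul_add, sum_add_distrib]
          congr 1
          exact sum_congr rfl fun t _ => by ring
  obtain ⟨Cs, k1, k2, k3⟩ := key
  rw [k3]
  refine sum_nonneg fun t ht => mul_nonneg (mT_nonneg hy t) ?_
  have ht := mem_range.1 ht
  have h1 := hall t ht
  cases hd : Nat.blt 8 (Nat.add (Nat.mod t 9) (Nat.div t 9)) with
  | true =>
    have hz := k2 t (Nat.blt_eq.mp hd)
    refine le_of_eq (Eq.symm (List.sum_eq_zero fun a ha => ?_))
    obtain ⟨i, hi, rfl⟩ := List.mem_iff_getElem.1 ha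
    simp [hz _ (List.getElem_mem _)]
  | false =>
    rw [hd] at h1
    simp only [mapL_eq (fun M => svI (dec B1 M t) 0) (fun M => svP (dec B1 M t) 0)
      (fun a k => svI_eq _ _ _)] at h1
    have e := lin2_eq B (off B (J4 (3, 3, d2, 8))) (Nat.add s t) (Cs.map (· t))
      (vs.map fun v => ⟨v.N, v.n⟩) 0 0 0
    rw [← k1 t ht, List.map_map, List.map_map (l := vs)] at e
    have := (rp_lin (Cs.map (· t)) hv' (acc := ⟨((0 : ℕ) : ℤ) - (0 : ℕ), 0⟩)
      (rp_zero.cast rfl (by simp) rfl rfl)).nonneg (by simp) (by rw [← k1 t ht]; exact e ▸ h1) hz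
    simpa using this

end Vale.Agent.P154.AF
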