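import Vale.Agent.P154.Laws

/-! Derivative of Poisson averages in the mean. -/

namespace Vale.Agent.P154

variable {b : ℕ → ℝ} {C : ℝ}

lemma abs_expTerm_le (hb : ∀ k, |b k| ≤ C) {t R : ℝ} (ht : |t| ≤ R) (k : ℕ) :
    |b k * (t ^ k / k.factorial)| ≤ C * (R ^ k / k.factorial) := by
  rw [abs_mul, abs_div, abs_pow, Nat.abs_cast]
  have := (abs_nonneg _).trans (hb k)
  gcongr
  exact hb k

lemma summable_expTerm (hb : ∀ k, |b k| ≤ C) (t : ℝ) :
    Summable fun k => b k * (t ^ k / k.factorial) :=
  Summable.of_norm_bounded ((Real.summable_pow_div_factorial |t|).mul_left C)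
    (abs_expTerm_le hb le_rfl)

lemma hasDerivAt_expTerm (hb : ∀ k, |b k| ≤ C) (t : ℝ) :
    HasDerivAt (fun t => ∑' k, b k * (t ^ k / k.factorial))
      (∑' k, b (k + 1) * (t ^ k / k.factorial)) t := by
  have h := hasDerivAt_tsum_of_isPreconnected
    ((Real.summable_pow_div_factorial (|t| + 1)).mul_left C) (Metric.isOpen_ball (ε := |t| + 1))
    (convex_ball (0 : ℝ) _).isPreconnected
    (g := fun k z => b (k + 1) * (z ^ (k + 1) / (k + 1).factorial))
    (g' := fun k z => b (k + 1) * (z ^ k / k.factorial)) (y₀ := t) (y := t)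
    (fun k y _ => by
      refine (((hasDerivAt_pow (k + 1) y).div_const _).const_mul _).congr_deriv ?_
      rw [Nat.factorial_succ]
      push_cast
      rw [mul_div_mul_left _ _ (by positivity)])
    (fun k y hy => abs_expTerm_le (fun k => hb (k + 1)) (mem_ball_zero_iff.1 hy).le k)
    (by simp) ((summable_nat_add_iff 1).2 (summable_expTerm hb t)) (by simp)
  refine (h.const_add (b 0)).congr_of_eventuallyEq (Filter.Eventually.of_forall fun z => ?_)
  simp only
  rw [(summable_expTerm hb z).tsum_eq_zero_add]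
  simp

lemma pois_mul_eq (t : ℝ) (k : ℕ) (c : ℝ) :
    pois t k * c = Real.exp (-t) * (c * (t ^ k / k.factorial)) := by
  unfold pois
  ring

lemma summable_pois_mul (hb : ∀ k, |b k| ≤ C) (t : ℝ) : Summable fun k => pois t k * b k := by
  simp only [pois_mul_eq]
  exact (summable_expTerm hb t).mul_left _

lemma hasDerivAt_pois_sum (hb : ∀ k, |b k| ≤ C) (t : ℝ) :
    HasDerivAt (fun t => ∑' k, pois t k * b k) (∑' k, pois t k * (b (k + 1) - b k)) t := by
  simp only [mul_sub]
  rw [(summable_pois_mul (fun k => hb (k + 1)) t).tsum_sub (summable_pois_mul hb t)]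
  simp only [pois_mul_eq, tsum_mul_left]
  refine ((hasDerivAt_neg t).exp.mul (hasDerivAt_expTerm hb t)).congr_deriv ?_
  ring

end Vale.Agent.P154
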