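import Vale.Agent.P154.AFDefs
import Vale.Agent.P154.PoisDeriv

/-! From certificates to nonreconstruction. -/

namespace Vale.Agent.P154

open Finset Filter Topology

namespace HJB

lemma bdd_avg {q : ℕ} {f : ℝ → ℝ} (hf : Continuous f) :
    Bdd fun p : Fin q → ℝ => avg fun i => f (p i) := by
  obtain ⟨C, hC⟩ := (isCompact_Icc (a := (0 : ℝ)) (b := q)).exists_bound_of_continuousOn
    hf.continuousOn
  refine ⟨C, fun p hp => abs_le.2 ⟨?_, ?_⟩⟩
  · rw [← avg_const hp.pos (-C)]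
    exact avg_mono fun i => (abs_le.1 (hC _ ⟨hp.1 i, hp.le i⟩)).1
  · conv_rhs => rw [← avg_const hp.pos C]
    exact avg_mono fun i => (abs_le.1 (hC _ ⟨hp.1 i, hp.le i⟩)).2

lemma goodF_avg {q : ℕ} {f f' : ℝ → ℝ} (hf : Continuous f)
    (hc : ∀ a b, 0 ≤ a → 0 ≤ b → f b + f' b * (a - b) ≤ f a) :
    GoodF (hom fun p : Fin q → ℝ => avg fun i => f (p i)) := by
  refine ⟨fun c l _ _ => hom_smul _ c l, fun l l' hl hl' => ?_, fun σ l _ => ?_, ?_⟩
  · have hs : ∀ i, 0 ≤ l i + l' i := fun i => add_nonneg (hl i) (hl' i)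
    set g := nrm fun i => l i + l' i with hg
    have hg0 : ∀ i, 0 ≤ g i := fun i => div_nonneg (hs i) (avg_nonneg hs)
    have e : ∀ m : Fin q → ℝ, (∀ i, 0 ≤ m i) →
        avg m * avg (fun i => f (g i) + f' (g i) * (nrm m i - g i)) =
          avg m * avg (fun i => f (g i) - f' (g i) * g i) + avg fun i => f' (g i) * m i := by
      intro m hm
      rw [← avg_mul_left, ← avg_mul_left, ← avg_add]
      refine congrArg avg (funext fun i => ?_)
      conv_rhs => rw [← avg_mul_nrm hm i]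
      ring
    have h1 : ∀ m : Fin q → ℝ, (∀ i, 0 ≤ m i) →
        avg m * avg (fun i => f (g i) - f' (g i) * g i) + (avg fun i => f' (g i) * m i) ≤
          hom (fun p : Fin q → ℝ => avg fun i => f (p i)) m := by
      intro m hm
      rw [← e m hm, hom_eq]
      exact mul_le_mul_of_nonneg_left
        (avg_mono fun i => hc _ _ (div_nonneg (hm i) (avg_nonneg hm)) (hg0 i)) (avg_nonneg hm)
    have h2 := e _ hs
    simp only [← hg, sub_self, mul_zero, add_zero, mul_add, avg_add, add_mul] at h2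
    have h3 := h1 l hl
    have h4 := h1 l' hl'
    rw [hom_eq, ← hg, avg_add, add_mul]
    linarith
  · simp only [hom, avg_perm]
    rw [avg_perm fun i => f (l i / avg l)]
  · obtain ⟨C, hC⟩ := bdd_avg (q := q) hf
    exact ⟨C, fun l hl => abs_hom_le hC hl⟩

lemma bdd_thr3 : Bdd thr3 := bdd_avg (f := fun a => (a - 1) ^ 3) (by fun_prop)

lemma cube_eq {p : Fin 3 → ℝ} (hp : Simp p) :
    thr3 p = (avg fun i => p i ^ 3) - (3 * chi p + 1) := by
  have h := hp.2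
  simp only [thr3, chi, avg, Fin.sum_univ_three] at h ⊢
  push_cast at h ⊢
  linarith

lemma range_lam {lam : ℝ} (h0 : -1 / 2 ≤ lam) : -1 / (((3 : ℕ) : ℝ) - 1) ≤ lam := by
  norm_num at h0 ⊢
  exact h0

lemma star_chan {lam : ℝ} (h0 : -1 / 2 ≤ lam) (h1 : lam ≤ 1) {Y Y' : Type} {P : Y → Fin 3 → ℝ}
    {L : Y' → Fin 3 → ℝ} (hP : SymExp P) (hL : SymExp L) {φ ψ V α β : F3} (hφ : Bdd φ)
    (hψ : Bdd ψ) (hV : Bdd V) {C x τ : ℝ} (hC : ∀ p, Simp p → |α p| ≤ C ∧ |β p| ≤ C)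
    (h : ∀ p r, Simp p → Simp r → Kop φ p (chan lam r) ≤
      ψ p + lam ^ 2 * (V r + α p * (chi r - x) + β p * (thr3 r - τ))) :
    Ex φ (star P (chanExp lam L)) ≤
      Ex ψ P + lam ^ 2 * (Ex V L + C * (|Ex chi L - x| + |Ex thr3 L - τ|)) := by
  have b1 : Bdd fun _ : Fin 3 → ℝ => (1 : ℝ) := bdd_const 1
  have b2 := bdd_chi.sub (bdd_const (q := 3) x)
  have b3 := bdd_thr3.sub (bdd_const τ)
  have hα : Bdd α := ⟨C, fun p hp => (hC p hp).1⟩
  have hβ : Bdd β := ⟨C, fun p hp => (hC p hp).2⟩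
  have h2 := (hasSum_hom_mul hP hL hψ b1).add ((((hasSum_hom_mul hP hL b1 hV).add
    (hasSum_hom_mul hP hL hα b2)).add (hasSum_hom_mul hP hL hβ b3)).mul_left (lam ^ 2))
  rw [hP.Ex_const (by norm_num), hL.Ex_const (by norm_num), hL.Ex_sub bdd_chi (bdd_const _),
    hL.Ex_sub bdd_thr3 (bdd_const _), hL.Ex_const (by norm_num), hL.Ex_const (by norm_num)] at h2
  refine (hasSum_le (fun y => ?_)
    (hasSum_star hP (hL.chanExp (by norm_num) (range_lam h0) h1) hφ) h2).trans ?_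
  · simp only [hom_eq, avg_chanExp (show 0 < 3 by norm_num)]
    by_cases h3 : avg (P y.1) = 0
    · simp [h3]
    by_cases h4 : avg (L y.2) = 0
    · simp [h4]
    have e : nrm (chanExp lam L y.2) = chan lam (nrm (L y.2)) := by
      funext i
      simp only [nrm, chan, chanExp_eq, avg_chanExp (show 0 < 3 by norm_num)]
      field_simp
    rw [e]
    refine (mul_le_mul_of_nonneg_left (h _ _ (simp_nrm (hP.nonneg _) h3)
      (simp_nrm (hL.nonneg _) h4))
      (mul_nonneg (avg_nonneg (hP.nonneg _)) (avg_nonneg (hL.nonneg _)))).trans_eq ?_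
    ring
  · have h3 := hP.abs_Ex_le (by norm_num) fun p hp => (hC p hp).1
    have h4 := hP.abs_Ex_le (by norm_num) fun p hp => (hC p hp).2
    have h5 : ∀ a s : ℝ, |a| ≤ C → a * s ≤ C * |s| := fun a s ha =>
      (le_abs_self _).trans (by rw [abs_mul]; gcongr)
    have h6 := h5 _ (Ex chi L - x) h3
    have h7 := h5 _ (Ex thr3 L - τ) h4
    rw [mul_one, one_mul]
    exact add_le_add le_rfl (mul_le_mul_of_nonneg_left (by linarith) (sq_nonneg _))

lemma core {lam : ℝ} (h0 : -1 / 2 ≤ lam) (h1 : lam ≤ 1) {ν : ℕ → ℝ} (hν : ∀ k, 0 ≤ ν k)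
    (hν1 : HasSum ν 1) {X : ℝ} (hX : ∃ n, Ex chi (lik 3 ν lam n) ≤ X)
    (h : ∀ x τ : ℝ, 0 < x → x ≤ X → ∃ (φ : F3) (C c : ℝ), Bdd φ ∧ c < 0 ∧ ∀ n,
      Ex φ (lik 3 ν lam (n + 1)) ≤ c + (Ex φ (lik 3 ν lam n) +
        C * (|Ex chi (lik 3 ν lam n) - x| + |Ex thr3 (lik 3 ν lam n) - τ|))) :
    Tendsto (adv 3 ν lam) atTop (𝓝 0) := by
  have hq : 2 ≤ 3 := by norm_num
  have h0' := range_lam h0
  have hL := symExp_lik hq h0' h1 hν hν1
  have b3 : Bdd fun p : Fin 3 → ℝ => avg fun i => p i ^ 3 := bdd_avg (f := (· ^ 3)) (by fun_prop)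
  have a1 : Antitone fun n => Ex chi (lik 3 ν lam n) := antitone_nat_of_succ_le fun n =>
    dom_lik_succ hq h0' h1 hν hν1 n _ (goodF_avg (f := fun a => (a - 1) ^ 2)
      (f' := fun a => 2 * (a - 1)) (by fun_prop) fun a b _ _ => by nlinarith [sq_nonneg (a - b)])
  have a2 : Antitone fun n => Ex (fun p => avg fun i => p i ^ 3) (lik 3 ν lam n) :=
    antitone_nat_of_succ_le fun n => dom_lik_succ hq h0' h1 hν hν1 n _
      (goodF_avg (f := (· ^ 3)) (f' := fun a => 3 * a ^ 2) (by fun_prop) fun a b ha hb => by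
        nlinarith [mul_nonneg (sq_nonneg (a - b)) (show 0 ≤ a + 2 * b by linarith)])
  have x0 : ∀ n, 0 ≤ Ex chi (lik 3 ν lam n) := fun n =>
    (hL n).Ex_nonneg bdd_chi fun p _ => chi_nonneg p
  have bb1 : BddBelow (Set.range fun n => Ex chi (lik 3 ν lam n)) :=
    ⟨0, by rintro _ ⟨n, rfl⟩; exact x0 n⟩
  have t1 := tendsto_atTop_ciInf a1 bb1
  have t2 := tendsto_atTop_ciInf a2 ⟨0, by
    rintro _ ⟨n, rfl⟩
    exact (hL n).Ex_nonneg b3 fun p hp => avg_nonneg fun i => pow_nonneg (hp.1 i) 3⟩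
  have t3 := (t2.sub ((t1.const_mul 3).add_const 1)).congr
    (f₂ := fun n => Ex thr3 (lik 3 ν lam n)) fun n => by
      rw [(hL n).Ex_congr fun p hp => cube_eq hp,
        (hL n).Ex_sub b3 ((bdd_chi.const_mul 3).add (bdd_const 1)),
        (hL n).Ex_add (bdd_chi.const_mul 3) (bdd_const 1), Ex_const_mul,
        (hL n).Ex_const (by norm_num)]
  obtain ⟨τ, t5⟩ : ∃ τ, Tendsto (fun n => Ex thr3 (lik 3 ν lam n)) atTop (𝓝 τ) := ⟨_, t3⟩
  clear t3
  obtain ⟨n0, hn0⟩ := hX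
  have hxX := (ciInf_le bb1 n0).trans hn0
  have hx0 : 0 ≤ ⨅ n, Ex chi (lik 3 ν lam n) := le_ciInf x0
  set x := ⨅ n, Ex chi (lik 3 ν lam n)
  rcases hx0.eq_or_lt with hx | hx
  · rw [← hx] at t1
    rw [Metric.tendsto_atTop]
    intro ε hε
    obtain ⟨N, hN⟩ := eventually_atTop.1 (t1.eventually (gt_mem_nhds (mul_pos hε hε)))
    refine ⟨N, fun n hn => ?_⟩
    rw [Real.dist_eq, sub_zero, abs_of_nonneg (adv_nonneg hq h0' h1 hν hν1 n)]
    refine (adv_le hq h0' h1 hν hν1 n hε).trans_lt ?_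
    have : Ex chi (lik 3 ν lam n) / ε < ε := by rw [div_lt_iff₀ hε]; exact hN n hn
    linarith
  exfalso
  obtain ⟨φ, C, c, ⟨B, hB⟩, hc, hs⟩ := h x τ hx hxX
  have t4 := (((t1.sub_const x).abs).add ((t5.sub_const τ).abs)).const_mul C
  simp only [sub_self, abs_zero, add_zero, mul_zero] at t4
  obtain ⟨N, hN⟩ := eventually_atTop.1 (t4.eventually (gt_mem_nhds (show 0 < -c / 2 by linarith)))
  have h2 : ∀ k : ℕ, Ex φ (lik 3 ν lam (N + k)) ≤ B + k * (c / 2) := by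
    intro k
    induction k with
    | zero => simpa using (abs_le.1 ((hL N).abs_Ex_le (by norm_num) hB)).2
    | succ k ih =>
      have h3 := hs (N + k)
      have h4 := hN (N + k) (by omega)
      rw [← add_assoc]
      push_cast
      linarith
  obtain ⟨k, hk⟩ := exists_nat_gt (2 * B / (-c / 2))
  rw [div_lt_iff₀ (by linarith)] at hk
  have h3 := (abs_le.1 ((hL (N + k)).abs_Ex_le (by norm_num) hB)).1
  have h4 := h2 k
  linarith

lemma Ex_sum {Y : Type} {L : Y → Fin 3 → ℝ} (hL : SymExp L) {V : ℕ → F3} (hV : ∀ e, Bdd (V e))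
    (c : ℕ → ℝ) (m : ℕ) : Bdd (fun p => ∑ e ∈ range m, c e * V e p) ∧
      Ex (fun p => ∑ e ∈ range m, c e * V e p) L = ∑ e ∈ range m, c e * Ex (V e) L := by
  induction m with
  | zero => exact ⟨bdd_const 0, Ex_zero L⟩
  | succ m ih =>
    simp only [sum_range_succ]
    exact ⟨ih.1.add ((hV m).const_mul _), by
      rw [hL.Ex_add ih.1 ((hV m).const_mul _), ih.2, Ex_const_mul]⟩

lemma sum_zero_pow {m : ℕ} (hm : 0 < m) (a : ℕ → ℝ) : ∑ e ∈ range m, (0 : ℝ) ^ e * a e = a 0 := by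
  rw [sum_eq_single 0 (fun e _ he => by rw [zero_pow he, zero_mul]) (by simp [hm.ne'])]
  simp

end HJB

open HJB

lemma Ex_chi_lik_zero (ν : ℕ → ℝ) (lam : ℝ) : Ex chi (lik 3 ν lam 0) = 2 := by
  rw [Ex_lik_zero]
  simp only [avg, chi, vert, Fin.sum_univ_three]
  norm_num [Fin.ext_iff]

theorem nonrec_reg {lam : ℝ} (h0 : -1 / 2 ≤ lam) (h1 : lam ≤ 1) {d : ℕ} (hd2 : 2 ≤ d)
    (hd : (d : ℝ) * lam ^ 2 = 1) {X : ℝ} (hX : ∃ n, Ex chi (lik 3 (dary d) lam n) ≤ X)
    (h : ∀ x τ : ℝ, 0 < x → x ≤ X → CertReg lam x τ) :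
    Tendsto (adv 3 (dary d) lam) atTop (𝓝 0) := by
  have hq : 2 ≤ 3 := by norm_num
  have hν := law_dary hd2
  refine core h0 h1 hν.nonneg hν.one hX fun x τ hx hxX => ?_
  obtain ⟨m, V, α, β, ⟨hm, hV, ⟨C, hC⟩, hneg⟩, hK⟩ := h x τ hx hxX
  refine ⟨V 0, C, _, hV 0, hneg, fun n => ?_⟩
  have hL := symExp_lik hq (range_lam h0) h1 hν.nonneg hν.one n
  have hQ := hL.chanExp hq (range_lam h0) h1
  set E := Ex (V 0) (lik 3 (dary d) lam n) + C * (|Ex chi (lik 3 (dary d) lam n) - x| +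
    |Ex thr3 (lik 3 (dary d) lam n) - τ|) with hE
  have key : ∀ k : ℕ, k ≤ d → Ex (Vw m V (1 - k * lam ^ 2))
      (pw (chanExp lam (lik 3 (dary d) lam n)) k) ≤ Vw m V 1 (fun _ => 1) + k * lam ^ 2 * E := by
    intro k hk
    induction k with
    | zero => simp [Ex_pw_zero]
    | succ k ih =>
      have h2 : ((k + 1 : ℕ) : ℝ) * lam ^ 2 ≤ 1 := by
        rw [← hd]
        gcongr
      have h3 : (0 : ℝ) ≤ k * lam ^ 2 := by positivity
      push_cast at h2 ⊢
      have w0 : 0 ≤ 1 - (k + 1) * lam ^ 2 := by linarith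
      have w1 : 1 - (k + 1) * lam ^ 2 ≤ 1 - lam ^ 2 := by linarith
      have h4 := star_chan h0 h1 (hQ.pw k) hL (Ex_sum hL hV _ m).1 (Ex_sum hL hV _ m).1 (hV 0)
        (hC _ w0 (by linarith [sq_nonneg lam])) (hK _ w0 w1)
      have h5 := ih (by omega)
      rw [show (1 : ℝ) - k * lam ^ 2 = 1 - (k + 1) * lam ^ 2 + lam ^ 2 by ring] at h5
      rw [Ex_pw_succ]
      refine h4.trans ?_
      rw [← hE]
      unfold Vw at h5 ⊢
      linarith
  have h2 := key d le_rfl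
  rw [hd, sub_self, one_mul, show Vw m V 0 = V 0 from funext fun p => sum_zero_pow hm _] at h2
  refine le_trans (le_of_eq ((hasSum_tree_step hq (range_lam h0) h1 hν.nonneg hν.one n
    (hV 0)).unique (hasSum_of_eq (hasSum_ite_eq d _) fun k => ?_))) h2
  unfold dary
  split_ifs with hk
  · rw [hk, one_mul]
  · rw [zero_mul]

theorem nonrec_poi {lam d : ℝ} (h0 : -1 / 2 ≤ lam) (h1 : lam ≤ 1) (hd0 : 0 < d)
    (hd : d * lam ^ 2 = 1) (h : ∀ x τ : ℝ, 0 < x → x ≤ 2 → CertPoi lam x τ) :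
    Tendsto (adv 3 (pois d) lam) atTop (𝓝 0) := by
  have hq : 2 ≤ 3 := by norm_num
  have hν := law_pois hd0
  refine core h0 h1 hν.nonneg hν.one ⟨0, (Ex_chi_lik_zero _ _).le⟩ fun x τ hx hxX => ?_
  obtain ⟨m, V, α, β, ⟨hm, hV, ⟨C, hC⟩, hneg⟩, hK⟩ := h x τ hx hxX
  refine ⟨V 0, C, _, hV 0, hneg, fun n => ?_⟩
  have hL := symExp_lik hq (range_lam h0) h1 hν.nonneg hν.one n
  have hQ := hL.chanExp hq (range_lam h0) h1
  set E := Ex (V 0) (lik 3 (pois d) lam n) + C * (|Ex chi (lik 3 (pois d) lam n) - x| +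
    |Ex thr3 (lik 3 (pois d) lam n) - τ|) with hE
  set b : ℕ → ℕ → ℝ := fun e k => Ex (V e) (pw (chanExp lam (lik 3 (pois d) lam n)) k) with hb
  choose B hB using hV
  have hV : ∀ e, Bdd (V e) := fun e => ⟨B e, hB e⟩
  have bb : ∀ e k, |b e k| ≤ B e := fun e k => (hQ.pw k).abs_Ex_le (by norm_num) (hB e)
  have step : ∀ w, 0 ≤ w → w ≤ 1 → ∀ k, ∑ e ∈ range m,
      (-(e * w ^ (e - 1)) * b e k + w ^ e * d * (b e (k + 1) - b e k)) ≤ E := by
    intro w w0 w1 k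
    have b1 := Ex_sum (hQ.pw k) hV (w ^ ·) m
    have b2 := Ex_sum (hQ.pw k) hV (fun e => e * w ^ (e - 1)) m
    have h4 := star_chan h0 h1 (hQ.pw k) hL b1.1 (b1.1.add (b2.1.const_mul (lam ^ 2))) (hV 0)
      (hC w w0 w1) (x := x) (τ := τ) fun p r hp hr => (hK w w0 w1 p r hp hr).trans_eq (by
        unfold Vw dVw
        ring)
    rw [← Ex_pw_succ, (Ex_sum (hQ.pw (k + 1)) hV (w ^ ·) m).2, ← hE,
      (hQ.pw k).Ex_add b1.1 (b2.1.const_mul _), Ex_const_mul, b1.2, b2.2] at h4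
    have e : ∑ e ∈ range m, (-(e * w ^ (e - 1)) * b e k + w ^ e * d * (b e (k + 1) - b e k)) =
        d * (∑ e ∈ range m, w ^ e * b e (k + 1) - ∑ e ∈ range m, w ^ e * b e k) -
          ∑ e ∈ range m, e * w ^ (e - 1) * b e k := by
      rw [← sum_sub_distrib, mul_sum, ← sum_sub_distrib]
      exact sum_congr rfl fun e _ => by ring
    have h5 := mul_le_mul_of_nonneg_left h4 hd0.le
    rw [e]
    linear_combination h5 + (∑ e ∈ range m, e * w ^ (e - 1) * b e k + E) * hd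
  have hder : ∀ u : ℝ, HasDerivAt
      (fun u => ∑ e ∈ range m, (1 - u) ^ e * ∑' k, pois (d * u) k * b e k)
      (∑ e ∈ range m, (-(e * (1 - u) ^ (e - 1)) * ∑' k, pois (d * u) k * b e k +
        (1 - u) ^ e * d * ∑' k, pois (d * u) k * (b e (k + 1) - b e k))) u := fun u =>
    HasDerivAt.fun_sum fun e _ => ((((hasDerivAt_id u).const_sub 1).fun_pow e).fun_mul
      ((hasDerivAt_pois_sum (bb e) (d * u)).comp u
        ((hasDerivAt_id u).const_mul d))).congr_deriv (by simp only [id, Function.comp]; ring)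
  obtain ⟨u, hu, e⟩ := exists_hasDerivAt_eq_slope _ _ zero_lt_one
    (fun u _ => (hder u).continuousAt.continuousWithinAt) fun u _ => hder u
  have hp : ∀ k, 0 ≤ pois (d * u) k := fun k => by
    have := hu.1
    unfold pois
    positivity
  have h2 := hasSum_le (fun k => ?_) (hasSum_sum (s := range m) fun e _ =>
    ((summable_pois_mul (bb e) (d * u)).hasSum.mul_left (-(e * (1 - u) ^ (e - 1)))).add
      ((summable_pois_mul (C := B e + B e) (fun k => (abs_sub _ _).trans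
        (add_le_add (bb e (k + 1)) (bb e k))) (d * u)).hasSum.mul_left ((1 - u) ^ e * d)))
    ((hasSum_pois (d * u)).mul_right E)
  · have h3 : ∀ e, ∑' k, pois 0 k * b e k = V e fun _ => 1 := fun e => by
      rw [tsum_eq_single 0 fun k hk => by simp [pois, hk]]
      simp [pois, hb, Ex_pw_zero]
    rw [e, sub_self, sum_zero_pow hm, mul_one, mul_zero, sub_zero, div_one, one_mul,
      (hasSum_tree_step hq (range_lam h0) h1 hν.nonneg hν.one n (hV 0)).tsum_eq] at h2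
    simp only [h3] at h2
    unfold Vw
    linarith
  · refine le_trans (le_of_eq ?_) (mul_le_mul_of_nonneg_left
      (step (1 - u) (by linarith [hu.2]) (by linarith [hu.1]) k) (hp k))
    rw [mul_sum]
    exact sum_congr rfl fun e _ => by ring

end Vale.Agent.P154
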