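import Vale.Agent.P154.AFChk
import Vale.Agent.P154.HJB

/-! Soundness of the checker for the antiferromagnetic three-state case. -/

namespace Vale.Agent.P154.AF

open Finset

noncomputable def Bm (i : ℕ) (p : Fin 3 → ℝ) : ℝ := (chi p / 2) ^ nth 0 fa i * thr3 p ^ nth 0 fb i

noncomputable def ev (a : ℕ → ℝ) (p : Fin 3 → ℝ) : ℝ := ∑ i ∈ range 10, a i * Bm i p

noncomputable def MM (j : ℕ) : F3 := ev fun i => cc j i

lemma mkX_eq {α : Type} (B : ℕ) (b0 b1 b2 s0 s1 s2 : ℤ) (k : Cx → α) :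
    mkX B b0 b1 b2 s0 s1 s2 k = k ⟨B, b0, b1, b2, s0, s1, s2⟩ := by
  simp only [mkX, fZ_eq, fJ_eq]

lemma mapP_eq {α : Type} (f : ℕ → P) (n : ℕ) (k : List P → α) :
    mapP f n k = k ((List.range n).map f) := mapL_eq _ f (fun _ _ => fP_eq _ _) _ _

/-- the point lies in the cell `c` and represents `p` up to a permutation -/
def At (c : Cell) (a b e : ℝ) (p : Fin 3 → ℝ) : Prop :=
  ∃ σ : Equiv.Perm (Fin 3), ∀ i : Fin 3, vz c 0 i * a + vz c 1 i * b + vz c 2 i * e = p (σ i) / 3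

variable {B : ℕ} {z : Fin 9 → ℝ} {X : Cx} {c : Cell} {p : Fin 3 → ℝ}

lemma simp_perm (hp : Simp p) (σ : Equiv.Perm (Fin 3)) : Simp fun i => p (σ i) :=
  ⟨fun _ => hp.1 _, by rw [avg_perm, hp.2]⟩

lemma At.one {a b e : ℝ} (h : At c a b e p) (hp : Simp p) :
    vS c 0 * a + vS c 1 * b + vS c 2 * e = 1 := by
  obtain ⟨σ, h⟩ := h
  have h3 := (simp_perm hp σ).sum
  have h0 : vz c 0 0 * a + vz c 1 0 * b + vz c 2 0 * e = _ := h 0
  have h1 : vz c 0 1 * a + vz c 1 1 * b + vz c 2 1 * e = _ := h 1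
  have h2 : vz c 0 2 * a + vz c 1 2 * b + vz c 2 2 * e = _ := h 2
  simp only [Fin.sum_univ_three, vS, Int.add_def] at h3 ⊢
  push_cast at h3 ⊢
  linarith

lemma int_sub (a b : ℤ) : Int.sub a b = a - b := rfl

lemma feats_spec (hX : Good X z) (h : At c (z 6) (z 7) (z 8) p) (hp : Simp p) :
    ∃ us : ℕ → P, (∀ i, R X.B z (us i) (Bm i p)) ∧
      ∀ {α : Type} (k : List P → α), feats X c k = k ((List.range 10).map us) := by
  refine ⟨_, fun i => ?_, fun k => by simp only [feats, fP_eq, mapP_eq]; rfl⟩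
  obtain ⟨σ, h⟩ := h
  have h3 := (simp_perm hp σ).sum
  have e1 : chi p = chi fun i => p (σ i) := (avg_perm (fun i => (p i - 1) ^ 2) σ).symm
  have e2 : thr3 p = thr3 fun i => p (σ i) := (avg_perm (fun i => (p i - 1) ^ 3) σ).symm
  have e3 : p (σ 2) = 3 - p (σ 0) - p (σ 1) := by
    simp only [Fin.sum_univ_three] at h3; push_cast at h3; linarith
  have hq : ∀ i j : Fin 3, R X.B z (qq X.B c i j) (p (σ i) / 3 * (p (σ i) / 3 - p (σ j) / 3)) :=
    fun i j => ((r_one.m3 _ _ _).m3 _ _ _).congr (by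
      rw [← h i, ← h j]; simp only [int_sub]; push_cast; ring)
  have hm : ∀ (i : Fin 3) a v, R X.B z a v → R X.B z (mm X c i a) ((p (σ i) - 1) * v) :=
    fun i a v ha => (ha.m3 _ _ _).congr (by
      have := h i
      have := hX.h3
      simp only [int_sub, Int.mul_def]; push_cast; congr 1; linarith)
  have hh : R X.B z _ (chi p / 2) := (((hq 0 1).padd hX (hq 1 2)).padd hX (hq 2 0)).congr (by
    rw [e1]; simp only [chi, avg, Fin.sum_univ_three, e3]; push_cast; ring)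
  have hT : R X.B z _ (thr3 p) := (hm 0 _ _ (hm 1 _ _ (hm 2 _ _ r_one))).congr (by
    rw [e2]; simp only [thr3, avg, Fin.sum_univ_three, e3]; push_cast; ring)
  exact ((R.iter (fun _ _ h => hh.pmul h) _ (R.iter (fun _ _ h => hT.pmul h) _ r_one)).lift
    hX _ _ _ _).congr (by simp [Bm])

lemma r_nth {n : ℕ} {f : ℕ → P} {F : ℕ → ℝ} (h : ∀ i < n, R B z (f i) (F i)) {i : ℕ} (hi : i < n) :
    R B z (nth pzero ((List.range n).map f) i) (F i) := by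
  rw [nth_map_range _ _ hi]; exact h i hi

lemma r_evP (hX : Good X z) {us a : ℕ → P} {A : ℕ → ℝ} (hu : ∀ i, R X.B z (us i) (Bm i p))
    (ha : ∀ i, R X.B z (a i) (A i)) : R X.B z (evP X ((List.range 10).map us) a) (ev A p) :=
  r_sumP hX 10 fun i hi => (ha i).pmul (r_nth (fun i _ => hu i) hi)

lemma r_evC (hX : Good X z) {us : ℕ → P} (hu : ∀ i, R X.B z (us i) (Bm i p)) (j : ℕ) :
    R X.B z (evC X ((List.range 10).map us) j) (MM j p) :=
  r_sumP hX 10 fun _ hi => (r_nth (fun i _ => hu i) hi).psm _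

lemma tab_ok : tabChk 40 = true := by decide +kernel

lemma nu_ok : ∀ j < 41, (nu j).length = 3 ∧ (nu j).sum < 9 := by
  have : allN 41 (fun j => decide ((nu j).length = 3 ∧ (nu j).sum < 9)) = true := by decide +kernel
  exact fun j hj => of_decide_eq_true (allN_true this j hj)

lemma Ms_eq (hp : Simp p) {j : ℕ} (hj : j < 41) : Ms (nu j) p = MM j p := by
  have h := tab_ok
  set z : Fin 9 → ℝ := ![1, 0, 1, 0, 1, 0, p 0 / 3, p 1 / 3, p 2 / 3] with hz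
  have hA : At cell1 (z 6) (z 7) (z 8) p :=
    ⟨1, fun i => by fin_cases i <;> simp [hz, vz, vtx, nth_eq, cell1]⟩
  have hX : Good ⟨40 + 1, 1, 1, 1, 1, 1, 1⟩ z := by
    refine ⟨fun i => ?_, by simp [hz], by simp [hz], by simp [hz], ?_⟩
    · have := hp.1 0
      have := hp.1 1
      have := hp.1 2
      fin_cases i <;> simp [hz] <;> positivity
    · simpa [vS, vz, vtx, nth_eq, cell1] using hA.one hp
  obtain ⟨us, hu, e⟩ := feats_spec hX hA hp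
  rw [tabChk, mkX_eq, e] at h
  have h1 := allN_true h j hj
  rw [fP_eq, Bool.and_eq_true] at h1
  obtain ⟨a, b, d, hν⟩ := List.length_eq_three.1 (nu_ok j hj).1
  have ht : ∀ i < 3, ∀ a v, R (40 + 1) z a v → R (40 + 1) z (t3 (40 + 1) i a) (ext p i * v) :=
    fun i hi a v ha => (ha.m3 _ _ _).congr (by
      interval_cases i <;> simp [hz, nth_eq, ext] <;> left <;> ring)
  have hb : ∀ u < 6, ∀ i < 3, nth 0 (nth [] tbl3 u) i < 3 := by simp only [nth_eq]; decide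
  have h2 : R (40 + 1) z (msP ⟨40 + 1, 1, 1, 1, 1, 1, 1⟩ (nu j)) _ := r_sumP hX 6
    (F := fun u => ext p (nth 0 (nth [] tbl3 u) 0) ^ nth 0 (nu j) 0 *
      (ext p (nth 0 (nth [] tbl3 u) 1) ^ nth 0 (nu j) 1 *
        (ext p (nth 0 (nth [] tbl3 u) 2) ^ nth 0 (nu j) 2 * 1))) fun u hu =>
    R.iter (ht _ (hb u hu 0 (by norm_num))) _ (R.iter (ht _ (hb u hu 1 (by norm_num))) _
      (R.iter (ht _ (hb u hu 2 (by norm_num))) _ r_one))
  have h3 := (h2.congr (v' := Ms (nu j) p) (by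
    rw [← msR_eq permTbl3 (nu_ok j hj).1 (f := ext p) (by simp), hν]
    simp [msR, tbl3, nth_eq, sum_range_succ, add_assoc])).padd hX ((r_evC hX hu j).psm (-1))
  have a1 := h3.nonneg h1.1 hX.pos
  have a2 := (h3.psm (-1)).nonneg h1.2 hX.pos
  push_cast at a1 a2
  linarith

lemma kop_le3 {φ : F3} {γ : ℕ → ℝ} {lo hi : ℝ} (hlo : 0 ≤ lo)
    (hm : ∀ π, Simp π → ∀ W, lo ≤ W → W ≤ hi →
      W * φ π ≤ ∑ j ∈ range 41, W ^ (nu j).sum * (γ j * MM j π))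
    (hp : Simp p) {r : Fin 3 → ℝ} (hr : Simp r) (hb : ∀ i, lo ≤ r i ∧ r i ≤ hi) :
    6 * Kop φ p r ≤ ∑ j ∈ range 41, γ j * MM j p * MM j r := by
  have h1 : ∀ τ : Equiv.Perm (Fin 3), hom φ (fun i => p i * r (τ i)) ≤
      ∑ j ∈ range 41, γ j * Ms (nu j) (fun i => p i * r (τ i)) := by
    intro τ
    have hy : ∀ i, 0 ≤ p i * r (τ i) := fun i => mul_nonneg (hp.1 i) (hr.1 _)
    obtain ⟨π, hπ, e, e'⟩ : ∃ π, Simp π ∧ (∀ i, p i * r (τ i) = avg (fun i => p i * r (τ i)) * π i) ∧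
        hom φ (fun i => p i * r (τ i)) = avg (fun i => p i * r (τ i)) * φ π := by
      by_cases h : avg (fun i => p i * r (τ i)) = 0
      · exact ⟨fun _ => 1, simp_one hp.pos, fun i => by
          rw [eq_zero_of_avg hy h i, h]; simp, by rw [hom_eq, h]; simp⟩
      · exact ⟨_, simp_nrm hy h, fun i => (avg_mul_nrm hy i).symm, hom_eq _ _⟩
    have l1 := avg_mono fun i => mul_le_mul_of_nonneg_left (hb (τ i)).1 (hp.1 i)
    have l2 := avg_mono fun i => mul_le_mul_of_nonneg_left (hb (τ i)).2 (hp.1 i)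
    simp only [mul_comm (p _) lo, mul_comm (p _) hi, avg_mul_left, hp.2, mul_one] at l1 l2
    rw [e']
    refine (hm π hπ _ l1 l2).trans_eq (sum_congr rfl fun j hj => ?_)
    conv_rhs => rw [funext e, Ms_smul (nu_ok j (mem_range.1 hj)).1, Ms_eq hπ (mem_range.1 hj)]
    ring
  have h2 := sum_le_sum fun τ (_ : τ ∈ univ) => h1 τ
  unfold Kop
  rw [show ((Nat.factorial 3 : ℕ) : ℝ) = 6 by norm_num [Nat.factorial],
    mul_div_cancel₀ _ (by norm_num)]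
  refine h2.trans_eq ?_
  rw [sum_comm]
  refine sum_congr rfl fun j hj => ?_
  rw [← mul_sum, Ms_avg, Ms_eq hp (mem_range.1 hj), Ms_eq hr (mem_range.1 hj), mul_assoc]

/-! ### real values of the data -/

noncomputable def vR (D : Dat) (a b : ℝ) (e i : ℕ) : ℝ := dv a b 1 1 3 0 fun _ => zz D.w D.v i e
noncomputable def VR (D : Dat) (a b : ℝ) (e : ℕ) : F3 := ev (vR D a b e)
noncomputable def tR (D : Dat) (M d0 : ℕ) (a b u v : ℝ) (i : ℕ) : ℝ := dv a b u v d0 3 (zz D.w M i)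

lemma r_vP (D : Dat) (e i : ℕ) : R B z (vP B D e i) (vR D (z 0) (z 1) e i) :=
  (r_dat _ _ _).congr (by simp [vR, dv])

lemma Vw4 (V : ℕ → F3) (w : ℝ) (p : Fin 3 → ℝ) :
    Vw 4 V w p = V 0 p + w * (V 1 p + w * (V 2 p + w * V 3 p)) := by
  simp only [Vw, sum_range_succ, sum_range_zero]; ring

lemma prep_spec (B : ℕ) (D : Dat) (hX : Good ⟨B, D.bx, D.bw, D.bs, vS c 0, vS c 1, vS c 2⟩ z)
    (h : At c (z 6) (z 7) (z 8) p) (hp : Simp p) :
    ∃ (us V G : ℕ → P) (W : P), (∀ i, R B z (us i) (Bm i p)) ∧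
      (∀ e, R B z (V e) (VR D (z 0) (z 1) e p)) ∧
      R B z W (Vw 4 (VR D (z 0) (z 1)) (D.aw * z 3) p) ∧
      (∀ j, R B z (G j) (tR D D.ga 3 (z 0) (z 1) (z 2) (z 3) j * MM j p)) ∧
      ∀ k : Cx → List P → List P → P → List P → Bool, prep B D c k =
        k ⟨B, D.bx, D.bw, D.bs, vS c 0, vS c 1, vS c 2⟩ ((List.range 10).map us)
          ((List.range 4).map V) W ((List.range 41).map G) := by
  obtain ⟨us, hu, e⟩ := feats_spec hX h hp
  have hV := fun e => r_evP hX hu (r_vP D e)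
  refine ⟨us, _, _, _, hu, hV, ?_, fun j => (r_dat _ _ _).pmul (r_evC hX hu j),
    fun k => by simp only [prep, mkX_eq, e, mapP_eq, fP_eq]; rfl⟩
  have hn := fun i hi => r_nth (n := 4) (fun e _ => hV e) (i := i) hi
  exact ((hn 0 (by norm_num)).padd hX (((hn 1 (by norm_num)).padd hX (((hn 2 (by norm_num)).padd hX
    ((hn 3 (by norm_num)).m1 _ _)).m1 _ _)).m1 _ _)).congr (by simp [Vw4, VR])

lemma zip_range (n : ℕ) (f g : ℕ → ℝ) : (List.zipWith (fun U V => U * V) ((List.range n).map f)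
    ((List.range n).map g)).sum = ∑ i ∈ range n, f i * g i := by
  rw [List.zipWith_map, List.zipWith_self, ← List.sum_toFinset _ List.nodup_range,
    List.toFinset_range]

lemma forall₂_range {n : ℕ} {f : ℕ → P} {F : ℕ → ℝ} (h : ∀ i < n, R B z (f i) (F i)) :
    List.Forall₂ (R B z) ((List.range n).map f) ((List.range n).map F) :=
  forall₂_map _ _ _ _ fun i hi => h i (List.mem_range.1 hi)

lemma good_u (B : ℕ) (s0 s1 s2 : ℤ) {a b e : ℝ} (ha : 0 ≤ a) (hb : 0 ≤ b) (he : 0 ≤ e)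
    (h : s0 * a + s1 * b + s2 * e = 1) : Good ⟨B, 1, 1, 1, s0, s1, s2⟩ ![1, 0, 1, 0, 1, 0, a, b, e] :=
  ⟨fun i => by fin_cases i <;> simp [*], by simp, by simp, by simp, by simpa using h⟩

lemma exists_bary {b a0 a1 x : ℝ} (hb : 0 < b) (h0 : a0 ≤ b * x) (h1 : b * x ≤ a1) :
    ∃ u v : ℝ, 0 ≤ u ∧ 0 ≤ v ∧ b * u + b * v = 1 ∧ a0 * u + a1 * v = x := by
  rcases (h0.trans h1).eq_or_lt with h | h
  · refine ⟨1 / b, 0, by positivity, le_rfl, by field_simp; ring, ?_⟩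
    rw [le_antisymm h0 (h ▸ h1)]; field_simp; ring
  · have h2 := sub_pos.2 h
    refine ⟨(a1 - b * x) / (b * (a1 - a0)), (b * x - a0) / (b * (a1 - a0)),
      div_nonneg (by linarith) (by positivity), div_nonneg (by linarith) (by positivity), ?_, ?_⟩ <;>
    field_simp <;> ring

lemma exists_step (f : ℕ → ℝ) (n : ℕ) {y : ℝ} (h0 : f 0 ≤ y) (h1 : y ≤ f (n + 1)) :
    ∃ j < n + 1, f j ≤ y ∧ y ≤ f (j + 1) := by
  induction n with
  | zero => exact ⟨0, by norm_num, h0, h1⟩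
  | succ n ih =>
    rcases le_total y (f (n + 1)) with h | h
    · obtain ⟨j, hj, h2⟩ := ih h
      exact ⟨j, by omega, h2⟩
    · exact ⟨n + 1, by omega, h, h1⟩

lemma maj_sound {D : Dat} (hc : majChk D c = true)
    (hX : Good ⟨D.BM + 1, D.bx, D.bw, D.bs, vS c 0, vS c 1, vS c 2⟩ z)
    (h : At c (z 6) (z 7) (z 8) p) (hp : Simp p) (hb : 0 < D.bW) (hl : 2 ≤ D.Ws.length) {W : ℝ}
    (h0 : (nth 0 D.Ws 0 : ℕ) ≤ D.bW * W) (h1 : D.bW * W ≤ (nth 0 D.Ws (D.Ws.length - 1) : ℕ)) :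
    W * Vw 4 (VR D (z 0) (z 1)) (D.aw * z 3) p ≤
      ∑ j ∈ range 41, W ^ (nu j).sum * (tR D D.ga 3 (z 0) (z 1) (z 2) (z 3) j * MM j p) := by
  obtain ⟨us, V, G, Y, -, -, hY, hG, e⟩ := prep_spec _ D hX h hp
  rw [majChk, e, mapP_eq] at hc
  set g := fun j => tR D D.ga 3 (z 0) (z 1) (z 2) (z 3) j * MM j p with hg
  obtain ⟨o, ws, h2, h3⟩ := bil_sound9 (B1 := D.B1) hc (forall₂_range (F := fun k =>
    ∑ j ∈ range 41, (if (nu j).sum = k then g j else 0) +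
      (nth 0 [0, -1] k : ℤ) * Vw 4 (VR D (z 0) (z 1)) (D.aw * z 3) p) fun k _ =>
    ((r_sumP hX 41 fun j hj => by
      cases hb : Nat.beq (nu j).sum k with
      | true => rw [if_pos (Nat.eq_of_beq_eq_true hb)]; exact r_nth (fun j _ => hG j) hj
      | false => rw [if_neg (Nat.ne_of_beq_eq_false hb)]; exact r_zero).padd hX
        (hY.psm _)).lift hX _ _ _ _) hX.pos
  obtain ⟨n, hn⟩ : ∃ n, D.Ws.length - 1 = n + 1 := ⟨D.Ws.length - 2, by omega⟩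
  rw [hn] at h1 h2
  obtain ⟨j, hj, l0, l1⟩ := exists_step (fun j => (nth 0 D.Ws j : ℕ)) n h0 h1
  obtain ⟨u, v, hu, hv, e1, e2⟩ := exists_bary (by exact_mod_cast hb) l0 l1
  have hU := good_u (D.B1 + 1) D.bW D.bW 0 hu hv le_rfl (by simpa using e1)
  have h4 := allN_true h2 j hj
  rw [mkX_eq, mapP_eq] at h4
  have h5 := h3 _ _ h4 _ _ (forall₂_range (F := fun k => W ^ k) fun k _ =>
    ((R.iter (fun _ _ h => h.m3 _ _ _) k r_one).lift hU _ _ _ _).congr (by simp [e2])) hU.pos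
  rw [zip_range] at h5
  simp only [mul_add, sum_add_distrib, mul_sum, mul_ite, mul_zero] at h5
  rw [sum_comm, sum_congr rfl fun j hj => by
    rw [sum_ite_eq, if_pos (mem_range.2 (nu_ok j (mem_range.1 hj)).2)]] at h5
  simp only [sum_range_succ _ 8, sum_range_succ _ 7, sum_range_succ _ 6, sum_range_succ _ 5,
    sum_range_succ _ 4, sum_range_succ _ 3, sum_range_succ _ 2, sum_range_succ _ 1,
    sum_range_one, nth_eq] at h5
  simp at h5
  linarith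

lemma thr3_chan (lam : ℝ) (p : Fin 3 → ℝ) : thr3 (chan lam p) = lam ^ 3 * thr3 p := by
  unfold thr3 chan
  rw [← avg_mul_left]; congr 1; funext i; ring

noncomputable def dVR (D : Dat) (V : ℕ → F3) (w s : ℝ) (p : Fin 3 → ℝ) : ℝ :=
  V 1 p + w * (2 * V 2 p + w * (3 * V 3 p)) + D.reg * s ^ 2 * (V 2 p + w * (3 * V 3 p) + s ^ 2 * V 3 p)

lemma pair_sound {D : Dat} {rs : List Cell} (hc : pairChk D c rs = true)
    (hX : Good ⟨D.B + 1, D.bx, D.bw, D.bs, vS c 0, vS c 1, vS c 2⟩ z)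
    (h : At c (z 6) (z 7) (z 8) p) (hp : Simp p) {x s : ℝ} (hx : D.x0 * z 0 + D.x1 * z 1 = x)
    (hs : D.s0 * z 4 + D.s1 * z 5 = s) :
    0 ≤ ev (tR D D.be 1 (z 0) (z 1) (z 2) (z 3)) p ∧ ∀ j < rs.length, ∀ a b e r, 0 ≤ a → 0 ≤ b →
      0 ≤ e → At (nth [] rs j) a b e r → Simp r →
      ∑ j ∈ range 41, tR D D.ga 3 (z 0) (z 1) (z 2) (z 3) j * MM j p * MM j (chan (-s) r) ≤
        6 * (Vw 4 (VR D (z 0) (z 1)) (D.aw * z 3) p + s ^ 2 * (dVR D (VR D (z 0) (z 1)) (D.aw * z 3) s p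
          + VR D (z 0) (z 1) 0 r + ev (tR D D.al 2 (z 0) (z 1) (z 2) (z 3)) p * (chi r - x)
          + D.sg * ev (tR D D.be 1 (z 0) (z 1) (z 2) (z 3)) p *
            (D.tb * thr3 r - (D.t0 + x * (D.t1 + x * D.t2))))) := by
  obtain ⟨us, V, G, Y, hu, hV, hY, hG, e⟩ := prep_spec _ D hX h hp
  rw [pairChk, e, fP_eq, fP_eq, mapP_eq, mapP_eq, Bool.and_eq_true, Bool.and_eq_true] at hc
  obtain ⟨⟨c1, c2⟩, c3⟩ := hc
  set X : Cx := ⟨D.B + 1, D.bx, D.bw, D.bs, vS c 0, vS c 1, vS c 2⟩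
  have hA := r_evP hX hu (A := tR D D.al 2 (z 0) (z 1) (z 2) (z 3)) fun i => r_dat _ _ _
  have hB := r_evP hX hu (A := tR D D.be 1 (z 0) (z 1) (z 2) (z 3)) fun i => r_dat _ _ _
  refine ⟨hB.nonneg c2 hX.pos, fun j hj a b e r ha hb he hr hr' => ?_⟩
  generalize ev (tR D D.al 2 (z 0) (z 1) (z 2) (z 3)) p = A at *
  generalize ev (tR D D.be 1 (z 0) (z 1) (z 2) (z 3)) p = Be at *
  generalize evP X _ (fun i => dat X.B 2 3 (zz D.w D.al i)) = pA at *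
  generalize evP X _ (fun i => dat X.B 1 3 (zz D.w D.be i)) = pB at *
  obtain ⟨Q, hQ⟩ : ∃ Q : ℕ → ℝ, Q = fun b => ∑ j ∈ range 41,
    cc j b * (tR D D.ga 3 (z 0) (z 1) (z 2) (z 3) j * MM j p) := ⟨_, rfl⟩
  have hq : ∀ b < 10, R X.B z (nth pzero ((List.range 10).map fun b => sumP X 41 fun j =>
      psm (cc j b) (nth pzero ((List.range 41).map G) j)) b) (Q b) := fun b hb =>
    r_nth (fun b _ => hQ ▸ r_sumP hX 41 fun j hj => (r_nth (fun j _ => hG j) hj).psm _) hb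
  have a1 := ((hY.psm 6).padd hX ((hq 0 (by norm_num)).psm (-1))).nonneg c1 hX.pos
  have hw : ∀ {a v}, R X.B z a v → R X.B z (wP X D a) (D.aw * z 3 * v) :=
    fun h => (h.m1 _ _).congr (by simp)
  have hx' : ∀ {a v}, R X.B z a v → R X.B z (xP X D a) (x * v) :=
    fun h => (h.m0 _ _).congr (by simp [hx])
  have hs' : ∀ a v, R X.B z a v → R X.B z (sP X D a) (-s * v) :=
    fun a v h => (h.m2 _ _).congr (by rw [← hs]; push_cast; ring)
  have hn := fun i hi => r_nth (n := 4) (fun e _ => hV e) (i := i) hi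
  have n1 := hn 1 (by norm_num)
  have n2 := hn 2 (by norm_num)
  have n3 := hn 3 (by norm_num)
  have hd : R X.B z (dVP X D ((List.range 4).map V)) (dVR D (VR D (z 0) (z 1)) (D.aw * z 3) s p) :=
    ((n1.padd hX (hw ((n2.psm 2).padd hX (hw (n3.psm 3))))).padd hX ((hs' _ _ (hs' _ _
      ((n2.padd hX (hw (n3.psm 3))).padd hX (hs' _ _ (hs' _ _ n3))))).psm _)).congr (by
        unfold dVR; push_cast; ring)
  generalize dVR D (VR D (z 0) (z 1)) (D.aw * z 3) s p = dV at *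
  have hE : ∀ b, R X.B z (nth pzero (exP X D ((List.range 4).map V) pA pB) b)
      (nth 0 [dV - (x * A + D.sg * (D.t0 * Be + x * (D.t1 * Be + x * (D.t2 * Be)))), 2 * A,
        D.sg * D.tb * Be] b) := fun b =>
    match b with
    | 0 => (hd.padd hX (((hx' hA).padd hX (((hB.psm _).padd hX (hx' ((hB.psm _).padd hX
        (hx' (hB.psm _))))).psm _)).psm _)).congr (by simp [nth_eq]; ring)
    | 1 => (hA.psm _).congr (by simp [nth_eq])
    | 2 => (hB.psm _).congr (by simp [nth_eq])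
    | _ + 3 => r_zero
  obtain ⟨o, ws, h2, h3⟩ := bil_sound9 (B1 := D.B1) c3 (forall₂_range fun b hb =>
    ((((r_vP D 0 b).padd hX (hE b)).psm 6).padd hX ((R.iter hs' (nth 0 fe b) (hq b hb)).psm
      (nth (-1) [0] b))).lift hX _ _ _ _) hX.pos
  have hU := good_u (D.B1 + 1) _ _ _ ha hb he (hr.one hr')
  obtain ⟨ur, hur, e2⟩ := feats_spec hU hr hr'
  have h4 := allN_true h2 j hj
  rw [mkX_eq, e2] at h4
  have h5 := h3 _ _ h4 _ _ (forall₂_range fun i _ => hur i) hU.pos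
  rw [zip_range] at h5
  have e3 : ∑ j ∈ range 41, tR D D.ga 3 (z 0) (z 1) (z 2) (z 3) j * MM j p * MM j (chan (-s) r)
      = ∑ b ∈ range 10, Bm b (chan (-s) r) * Q b := by
    simp only [hQ, mul_sum]
    rw [sum_comm]
    refine sum_congr rfl fun j _ => ?_
    rw [show MM j (chan (-s) r) = ∑ i ∈ range 10, cc j i * Bm i (chan (-s) r) from rfl, mul_sum]
    exact sum_congr rfl fun i _ => by ring
  rw [e3]
  generalize Vw 4 (VR D (z 0) (z 1)) (D.aw * z 3) p = W at *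
  have h6 := mul_nonneg (sq_nonneg s) h5
  simp only [VR, ev, Bm, sum_range_succ, sum_range_zero, nth_eq, fa, fb, fe, chi_chan, thr3_chan,
    List.getD_cons_zero, List.getD_cons_succ, List.getD_nil] at h6 ⊢
  push_cast at h6 a1
  linarith

lemma cells_v3 (tr : Tr) (h : okTr3 tr = true) : okTr tr = true ∧ ∀ c : Cell, c.length = 4 →
    ∀ c' ∈ cellsOf 3 tr c, ∀ t < 3, vtx c' 3 t = vtx c 3 t := by
  induction tr with
  | leaf => exact ⟨rfl, fun c _ c' hc => by simp [cellsOf] at hc; simp [hc]⟩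
  | node i j a b l r ihl ihr =>
    simp only [okTr3, Bool.and_eq_true, decide_eq_true_eq] at h
    obtain ⟨⟨⟨⟨⟨⟨hi, hj⟩, hij⟩, ha⟩, hb⟩, hl⟩, hr⟩ := h
    refine ⟨by simp [okTr, *, (ihl hl).1, (ihr hr).1]; omega, fun c hc c' hc' t ht => ?_⟩
    rcases List.mem_append.1 hc' with h | h
    · rw [(ihl hl).2 _ (by simpa using hc) c' h t ht, vtx_set hc (by omega) _ _ _ _ _ _ ht,
        if_neg (by omega)]
    · rw [(ihr hr).2 _ (by simpa using hc) c' h t ht, vtx_set hc (by omega) _ _ _ _ _ _ ht,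
        if_neg (by omega)]

lemma cover3 {tr : Tr} (h : okTr3 tr = true) (hp : Simp p) :
    ∃ j < (cellsOf 3 tr root3).length, ∃ a b e, 0 ≤ a ∧ 0 ≤ b ∧ 0 ≤ e ∧
      At (nth [] (cellsOf 3 tr root3) j) a b e p := by
  obtain ⟨h1, h2⟩ := cells_v3 tr h
  obtain ⟨σ, c, hc, x, hx, e⟩ := covers_of_root covers_root3 rfl tr h1 (fun i => p i / 3)
    fun i => div_nonneg (hp.1 i) (by norm_num)
  have h3 := h2 root3 rfl c hc
  obtain ⟨j, hj, rfl⟩ := List.mem_iff_getElem.1 hc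
  refine ⟨j, hj, x 0, x 1, x 2, hx 0, hx 1, hx 2, σ, fun i => ?_⟩
  have h4 : vtx root3 3 i = 0 := by fin_cases i <;> simp [vtx, nth_eq, root3]
  rw [← e i, nth_eq, List.getD_eq_getElem _ _ hj, pt, h3 i i.2, h4]
  simp [vz]

lemma bdd2 {F : ℝ → F3} (h : Continuous fun y : ℝ × (Fin 3 → ℝ) => F y.1 y.2) :
    ∃ C, ∀ w, 0 ≤ w → w ≤ 1 → ∀ p, Simp p → |F w p| ≤ C := by
  obtain ⟨C, hC⟩ := ((isCompact_Icc (a := (0 : ℝ)) (b := 1)).prod
    (isCompact_Icc (a := (0 : Fin 3 → ℝ)) (b := fun _ => 3))).exists_bound_of_continuousOn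
      h.continuousOn
  exact ⟨C, fun w h0 h1 p hp => hC (w, p) ⟨⟨h0, h1⟩, hp.1, fun i => by simpa using hp.le i⟩⟩

def Ok (D : Dat) : Prop :=
  restChk D = true ∧ ∀ i < (cellsOf 3 D.tp root3).length, pairAt D i = true

lemma all2 {n : ℕ} {f : ℕ → Bool} (h : n = 2) (h0 : f 0 = true) (h1 : f 1 = true) :
    ∀ i < n, f i = true := by
  intro i hi
  subst h
  interval_cases i <;> assumption

lemma good_w {D : Dat} (bw : 0 < D.bw) (aw : 0 < D.aw) {a b u v w y0 y1 y2 : ℝ} (ha : 0 ≤ a)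
    (hb : 0 ≤ b) (hu : 0 ≤ u) (hv : 0 ≤ v) (ex : D.bx * a + D.bx * b = 1)
    (es : D.bs * u + D.bs * v = 1) (w0 : 0 ≤ w) (w1 : D.bw * w ≤ D.aw) (h0 : 0 ≤ y0) (h1 : 0 ≤ y1)
    (h2 : 0 ≤ y2) (B : ℕ) {c0 c1 c2 : ℤ} (e : c0 * y0 + c1 * y1 + c2 * y2 = 1) :
    Good ⟨B, D.bx, D.bw, D.bs, c0, c1, c2⟩
      ![a, b, 1 / D.bw - w / D.aw, w / D.aw, u, v, y0, y1, y2] := by
  have bw' : (0 : ℝ) < D.bw := by exact_mod_cast bw
  have aw' : (0 : ℝ) < D.aw := by exact_mod_cast aw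
  have k1 : 0 ≤ w / D.aw := by positivity
  have k2 : w / D.aw ≤ (D.bw : ℝ)⁻¹ := by
    rw [← one_div, div_le_div_iff₀ aw' bw']; linarith
  refine ⟨fun i => by fin_cases i <;> simp [*], by simpa using ex, ?_, by simpa using es,
    by simpa using e⟩
  simp only [Int.cast_natCast, Matrix.cons_val]
  field_simp; ring

lemma cont_ev (D : Dat) (a b : ℝ) (M d0 : ℕ) : Continuous fun y : ℝ × (Fin 3 → ℝ) =>
    ev (tR D M d0 a b (1 / D.bw - y.1 / D.aw) (y.1 / D.aw)) y.2 := by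
  unfold ev tR dv Bm chi thr3 avg
  fun_prop

lemma bdd_ev (a : ℕ → ℝ) : Bdd (ev a) := by
  obtain ⟨C, hC⟩ := bdd2 (F := fun _ => ev a) (by unfold ev Bm chi thr3 avg; fun_prop)
  exact ⟨C, hC 0 le_rfl zero_le_one⟩

lemma term_sound {D : Dat} (hX : Good ⟨D.B + 1, D.bx, D.bw, D.bs, 1, 1, 1⟩ z) (eps : 0 < D.eps)
    (ht : (mkX (D.B + 1) D.bx D.bw D.bs 1 1 1 fun X => nnP D.B (psm (-1) (padd X
      (sumP X 4 fun e => vP X.B D e 0) (psm D.eps (xP X D (xP X D pone)))))) = true)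
    (hx : 0 < D.x0 * z 0 + D.x1 * z 1) : Vw 4 (VR D (z 0) (z 1)) 1 (fun _ => 1) < 0 := by
  rw [mkX_eq] at ht
  have := (((r_sumP hX 4 fun e _ => r_vP D e 0).padd hX (((r_one.m0 D.x0 D.x1).m0 D.x0 D.x1).psm
    D.eps)).psm (-1)).nonneg ht hX.pos
  have e1 : thr3 (fun _ => 1) = 0 := by simp [thr3, avg]
  push_cast at this
  generalize D.x0 * z 0 + D.x1 * z 1 = x at *
  have e2 : (0 : ℝ) < D.eps * (x * x) := by
    have : (0 : ℝ) < D.eps := by exact_mod_cast eps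
    positivity
  simp only [Vw4, VR, ev, Bm, sum_range_succ, sum_range_zero, nth_eq, fa, fb, chi_one, e1,
    List.getD_cons_zero, List.getD_cons_succ] at this ⊢
  linarith

lemma range_W {D : Dat} (bs : 0 < D.bs) (bW : 0 < D.bW)
    (W0 : nth 0 D.Ws 0 * D.bs + 2 * D.s1 * D.bW ≤ D.bs * D.bW)
    (W1 : (D.bs + D.s1) * D.bW ≤ nth 0 D.Ws (D.Ws.length - 1) * D.bs) {s : ℝ}
    (s0 : D.s0 ≤ D.bs * s) (s1 : D.bs * s ≤ D.s1) : 0 ≤ s ∧ 0 ≤ 1 - 2 * s ∧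
    ∀ W, 1 - 2 * s ≤ W → W ≤ 1 + s → (nth 0 D.Ws 0 : ℕ) ≤ D.bW * W ∧
      D.bW * W ≤ (nth 0 D.Ws (D.Ws.length - 1) : ℕ) := by
  have bs' : (0 : ℝ) < D.bs := by exact_mod_cast bs
  have bW' : (0 : ℝ) < D.bW := by exact_mod_cast bW
  have h := mul_le_mul_of_nonneg_left s1 bW'.le
  have W0' : ((nth 0 D.Ws 0 : ℕ) : ℝ) ≤ D.bW * (1 - 2 * s) := by
    have : ((nth 0 D.Ws 0 : ℕ) : ℝ) * D.bs + 2 * D.s1 * D.bW ≤ D.bs * D.bW := by exact_mod_cast W0
    exact le_of_mul_le_mul_right (by linarith) bs'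
  have W1' : D.bW * (1 + s) ≤ ((nth 0 D.Ws (D.Ws.length - 1) : ℕ) : ℝ) := by
    have : ((D.bs : ℝ) + D.s1) * D.bW ≤ (nth 0 D.Ws (D.Ws.length - 1) : ℕ) * D.bs := by
      exact_mod_cast W1
    exact le_of_mul_le_mul_right (by linarith) bs'
  exact ⟨(mul_nonneg_iff_of_pos_left bs').1 (le_trans (by positivity) s0),
    (mul_nonneg_iff_of_pos_left bW').1 (le_trans (by positivity) W0'),
    fun W l0 l1 => ⟨W0'.trans (by gcongr), le_trans (by gcongr) W1'⟩⟩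

lemma chan_range {s : ℝ} (hs : 0 ≤ s) {r : Fin 3 → ℝ} (hr : Simp r) (i : Fin 3) :
    1 - 2 * s ≤ chan (-s) r i ∧ chan (-s) r i ≤ 1 + s := by
  have h1 := mul_nonneg hs (hr.1 i)
  have h2 := mul_le_mul_of_nonneg_left (hr.le i) hs
  unfold chan
  push_cast at h2
  constructor <;> linarith

theorem core {D : Dat} (hD : Ok D) {x s τ : ℝ} (hx : 0 < x) (x0 : D.x0 ≤ D.bx * x)
    (x1 : D.bx * x ≤ D.x1) (s0 : D.s0 ≤ D.bs * s) (s1 : D.bs * s ≤ D.s1)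
    (hτ : 0 ≤ D.sg * (D.t0 + x * (D.t1 + x * D.t2) - D.tb * τ)) :
    ∃ (V : ℕ → F3) (α β : ℝ → F3), CertBase 4 V α β ∧ ∀ w : ℝ, 0 ≤ w → D.bw * w ≤ D.aw →
      ∀ p r, Simp p → Simp r → Kop (Vw 4 V w) p (chan (-s) r) ≤ Vw 4 V w p
        + s ^ 2 * (dVR D V w s p + V 0 r + α w p * (chi r - x) + β w p * (thr3 r - τ)) := by
  obtain ⟨h1, h2⟩ := hD
  simp only [restChk, Bool.and_eq_true, decide_eq_true_eq] at h1
  obtain ⟨⟨⟨⟨⟨⟨bx, bw, aw, bs, bW, eps, hl, W0, W1⟩, tp⟩, tr⟩, tm⟩, ht⟩, hm⟩ := h1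
  obtain ⟨a, b, ha, hb, ex1, ex⟩ := exists_bary (by exact_mod_cast bx) x0 x1
  obtain ⟨u, v, hu, hv, es1, es⟩ := exists_bary (by exact_mod_cast bs) s0 s1
  refine ⟨VR D a b, fun w => ev (tR D D.al 2 a b (1 / D.bw - w / D.aw) (w / D.aw)),
    fun w p => D.sg * D.tb * ev (tR D D.be 1 a b (1 / D.bw - w / D.aw) (w / D.aw)) p,
    ⟨by norm_num, fun e => bdd_ev _, ?_, ?_⟩, fun w w0 w1 p r hp hr => ?_⟩
  · obtain ⟨C, hC⟩ := bdd2 (F := fun w =>
      ev (tR D D.al 2 a b (1 / D.bw - w / D.aw) (w / D.aw))) (cont_ev D a b D.al 2)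
    obtain ⟨C', hC'⟩ := bdd2 (F := fun w p => D.sg * D.tb *
      ev (tR D D.be 1 a b (1 / D.bw - w / D.aw) (w / D.aw)) p)
      (continuous_const.mul (cont_ev D a b D.be 1))
    exact ⟨max C C', fun w w0 w1 p hp => ⟨(hC w w0 w1 p hp).trans (le_max_left _ _),
      (hC' w w0 w1 p hp).trans (le_max_right _ _)⟩⟩
  · have := term_sound (good_w bw aw ha hb hu hv ex1 es1 le_rfl (by simp) zero_le_one le_rfl le_rfl _
      (by simp)) eps ht (by simpa [ex] using hx)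
    simpa only [Matrix.cons_val] using this
  obtain ⟨hs0, hs1, hW⟩ := range_W bs bW W0 W1 s0 s1
  have ew : D.aw * (w / D.aw) = w := by field_simp
  have k1 := kop_le3 (φ := Vw 4 (VR D a b) w) (hi := 1 + s)
    (γ := tR D D.ga 3 a b (1 / D.bw - w / D.aw) (w / D.aw)) hs1 (fun π hπ W l0 l1 => by
      obtain ⟨j, hj, y0, y1, y2, g0, g1, g2, hA⟩ := cover3 tm hπ
      have := maj_sound (allL_true hm _ (by
        rw [nth_eq, List.getD_eq_getElem _ _ hj]; exact List.getElem_mem _))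
        (good_w bw aw ha hb hu hv ex1 es1 w0 w1 g0 g1 g2 _ (hA.one hπ)) hA hπ bW hl
        (hW W l0 l1).1 (hW W l0 l1).2
      simp only [Matrix.cons_val, ew] at this
      exact this) hp
    (simp_chan (lam := -s) (by norm_num) (by norm_num; linarith) (by linarith) hr)
    (chan_range hs0 hr)
  obtain ⟨j, hj, y0, y1, y2, g0, g1, g2, hA⟩ := cover3 tp hp
  obtain ⟨k2, k3⟩ := pair_sound (h2 j hj)
    (good_w bw aw ha hb hu hv ex1 es1 w0 w1 g0 g1 g2 _ (hA.one hp)) hA hp (x := x) (s := s) ex es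
  obtain ⟨j', hj', y0', y1', y2', g0', g1', g2', hA'⟩ := cover3 tr hr
  have k4 := k3 j' hj' _ _ _ r g0' g1' g2' hA' hr
  simp only [Matrix.cons_val, ew] at k2 k4
  have k5 := mul_nonneg (sq_nonneg s) (mul_nonneg k2 hτ)
  linarith

theorem cert_poi {D : Dat} (hD : Ok D) (hr : D.reg = 0 ∧ D.bw ≤ D.aw) {x s τ : ℝ} (hx : 0 < x)
    (x0 : D.x0 ≤ D.bx * x) (x1 : D.bx * x ≤ D.x1) (s0 : D.s0 ≤ D.bs * s) (s1 : D.bs * s ≤ D.s1)
    (hτ : 0 ≤ D.sg * (D.t0 + x * (D.t1 + x * D.t2) - D.tb * τ)) : CertPoi (-s) x τ := by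
  obtain ⟨V, α, β, h1, h2⟩ := core hD hx x0 x1 s0 s1 hτ
  refine ⟨4, V, α, β, h1, fun w w0 w1 p r hp hr' => (h2 w w0 ?_ p r hp hr').trans_eq ?_⟩
  · have : (D.bw : ℝ) ≤ D.aw := by exact_mod_cast hr.2
    have : (0 : ℝ) ≤ D.bw := by positivity
    nlinarith
  · simp only [dVR, dVw, hr.1, sum_range_succ, sum_range_zero]
    push_cast; ring

theorem cert_reg {D : Dat} (hD : Ok D)
    (hr : D.reg = 1 ∧ 0 < D.bs ∧ D.bw * D.bs ^ 2 ≤ D.aw * D.bs ^ 2 + D.bw * D.s0 ^ 2) {x s τ : ℝ}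
    (hx : 0 < x) (x0 : D.x0 ≤ D.bx * x) (x1 : D.bx * x ≤ D.x1) (s0 : D.s0 ≤ D.bs * s)
    (s1 : D.bs * s ≤ D.s1) (hτ : 0 ≤ D.sg * (D.t0 + x * (D.t1 + x * D.t2) - D.tb * τ)) :
    CertReg (-s) x τ := by
  obtain ⟨V, α, β, h1, h2⟩ := core hD hx x0 x1 s0 s1 hτ
  refine ⟨4, V, α, β, h1, fun w w0 w1 p r hp hr' => (h2 w w0 ?_ p r hp hr').trans_eq ?_⟩
  · have h3 : (D.bw : ℝ) * D.bs ^ 2 ≤ D.aw * D.bs ^ 2 + D.bw * D.s0 ^ 2 := by exact_mod_cast hr.2.2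
    have h4 : (0 : ℝ) ≤ D.bw := by positivity
    have h5 : (0 : ℝ) < D.bs ^ 2 := by have := hr.2.1; positivity
    have h6 : (D.s0 : ℝ) ^ 2 ≤ (D.bs * s) ^ 2 := by gcongr
    refine le_of_mul_le_mul_right ?_ h5
    have h7 := mul_le_mul_of_nonneg_left h6 h4
    have h8 := mul_le_mul_of_nonneg_left w1 (mul_nonneg h4 h5.le)
    nlinarith
  · simp only [dVR, Vw4, hr.1]
    push_cast; ring

end Vale.Agent.P154.AF
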