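import Vale.Agent.P154.Defs

namespace Vale.Agent.P154

open Finset

variable {q : ℕ}

/-- average over the `q` spins -/
noncomputable def avg (f : Fin q → ℝ) : ℝ := (∑ i, f i) / q

/-- normalised posteriors: `p = q * posterior` -/
def Simp (p : Fin q → ℝ) : Prop := (∀ i, 0 ≤ p i) ∧ avg p = 1

/-- degree one homogeneous extension of a function of the normalised posterior -/
noncomputable def hom (φ : (Fin q → ℝ) → ℝ) (l : Fin q → ℝ) : ℝ :=
  avg l * φ (fun i => l i / avg l)

/-- expected value of `φ` after combining two fully symmetric channels `p`, `r` -/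
noncomputable def Kop (φ : (Fin q → ℝ) → ℝ) (p r : Fin q → ℝ) : ℝ :=
  (∑ τ : Equiv.Perm (Fin q), hom φ (fun i => p i * r (τ i))) / (q.factorial : ℝ)

/-- chi-square information of a posterior -/
noncomputable def chi (p : Fin q → ℝ) : ℝ := avg (fun i => (p i - 1) ^ 2)

/-- action of the Potts channel on normalised posteriors -/
def chan (lam : ℝ) (p : Fin q → ℝ) : Fin q → ℝ := fun i => lam * p i + (1 - lam)

/-- bounded on the simplex -/
def Bdd (φ : (Fin q → ℝ) → ℝ) : Prop := ∃ C : ℝ, ∀ p, Simp p → |φ p| ≤ C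

/-- the vertex of the simplex -/
def vert (j : Fin q) : Fin q → ℝ := fun i => if j = i then (q : ℝ) else 0

/-- expectation of `φ` of the normalised posterior in the experiment `L` -/
noncomputable def Ex {Y : Type} (φ : (Fin q → ℝ) → ℝ) (L : Y → Fin q → ℝ) : ℝ :=
  ∑' y, hom φ (L y)

/-- a permutation symmetric experiment: `L y i = P(y | i)` -/
structure SymExp {Y : Type} (L : Y → Fin q → ℝ) : Prop where
  nonneg : ∀ y i, 0 ≤ L y i
  sum_one : ∀ i, HasSum (fun y => L y i) 1
  symm : ∀ σ : Equiv.Perm (Fin q), ∃ e : Y ≃ Y, ∀ y i, L (e y) i = L y (σ i)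

end Vale.Agent.P154
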