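import Vale.Agent.P154.Kron

/-! Strict evaluation combinators and the checker for bilinear forms. -/

namespace Vale.Agent.P154

open Finset

noncomputable def fN {α : Type} (n : ℕ) (k : ℕ → α) : α :=
  Nat.rec (k 0) (fun m _ => k (Nat.succ m)) n
noncomputable def fI {α : Type} (x : ℤ) (k : ℤ → α) : α :=
  Int.rec (fun n => fN n fun n' => k (Int.ofNat n')) (fun n => fN n fun n' => k (Int.negSucc n')) x
noncomputable def fK {α : Type} (a : K) (k : K → α) : α :=
  K.rec (fun N n => fI N fun N' => fN n fun n' => k ⟨N', n'⟩) a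

@[simp] lemma fN_eq {α : Type} (n : ℕ) (k : ℕ → α) : fN n k = k n := by cases n <;> rfl
@[simp] lemma fI_eq {α : Type} (x : ℤ) (k : ℤ → α) : fI x k = k x := by
  cases x <;> simp [fI]
@[simp] lemma fK_eq {α : Type} (a : K) (k : K → α) : fK a k = k a := by
  cases a; simp [fK]

noncomputable def mapK {α β : Type} (f : β → K) (l : List β) : (List K → α) → α :=
  List.rec (fun k => k []) (fun a _ ih k => fK (f a) fun b => ih fun bs => k (b :: bs)) l
noncomputable def mapI {α β : Type} (f : β → ℤ) (l : List β) : (List ℤ → α) → α :=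
  List.rec (fun k => k []) (fun a _ ih k => fI (f a) fun b => ih fun bs => k (b :: bs)) l
noncomputable def mapN {α β : Type} (f : β → ℕ) (l : List β) : (List ℕ → α) → α :=
  List.rec (fun k => k []) (fun a _ ih k => fN (f a) fun b => ih fun bs => k (b :: bs)) l
/-- `f a k'` must call `k'` on a list; used to map strict list valued functions -/
noncomputable def mapL {α β γ : Type} (f : β → (γ → α) → α) (l : List β) : (List γ → α) → α :=
  List.rec (fun k => k []) (fun a _ ih k => f a fun b => ih fun bs => k (b :: bs)) l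

@[simp] lemma mapK_eq {α β : Type} (f : β → K) (l : List β) (k : List K → α) :
    mapK f l k = k (l.map f) := by
  induction l generalizing k with
  | nil => rfl
  | cons a l ih => exact (fK_eq (f a) fun b => mapK f l fun bs => k (b :: bs)).trans (ih _)
@[simp] lemma mapI_eq {α β : Type} (f : β → ℤ) (l : List β) (k : List ℤ → α) :
    mapI f l k = k (l.map f) := by
  induction l generalizing k with
  | nil => rfl
  | cons a l ih => exact (fI_eq (f a) fun b => mapI f l fun bs => k (b :: bs)).trans (ih _)
@[simp] lemma mapN_eq {α β : Type} (f : β → ℕ) (l : List β) (k : List ℕ → α) :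
    mapN f l k = k (l.map f) := by
  induction l generalizing k with
  | nil => rfl
  | cons a l ih => exact (fN_eq (f a) fun b => mapN f l fun bs => k (b :: bs)).trans (ih _)
lemma mapL_eq {α β γ : Type} (f : β → (γ → α) → α) (g : β → γ) (hf : ∀ a k, f a k = k (g a))
    (l : List β) (k : List γ → α) : mapL f l k = k (l.map g) := by
  induction l generalizing k with
  | nil => rfl
  | cons a l ih => exact (hf _ _).trans (ih _)

noncomputable def allN (n : ℕ) (f : ℕ → Bool) : Bool :=
  Nat.rec true (fun t ih => Bool.rec false ih (f t)) n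
noncomputable def allL {β : Type} (l : List β) (f : β → Bool) : Bool :=
  List.rec true (fun a _ ih => Bool.rec false ih (f a)) l

lemma allN_true {n : ℕ} {f : ℕ → Bool} (h : allN n f = true) : ∀ t < n, f t = true := by
  induction n with
  | zero => intro t ht; omega
  | succ n ih =>
    have h' : Bool.rec false (allN n f) (f n) = true := h
    cases hf : f n with
    | false => rw [hf] at h'; exact absurd h' (by simp)
    | true =>
      rw [hf] at h'
      intro t ht
      rcases Nat.lt_succ_iff_lt_or_eq.1 ht with h1 | rfl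
      exacts [ih h' t h1, hf]

lemma allL_true {β : Type} {l : List β} {f : β → Bool} (h : allL l f = true) :
    ∀ a ∈ l, f a = true := by
  induction l with
  | nil => simp
  | cons b l ih =>
    have h' : Bool.rec false (allL l f) (f b) = true := h
    cases hf : f b with
    | false => rw [hf] at h'; exact absurd h' (by simp)
    | true =>
      rw [hf] at h'
      intro a ha
      rcases List.mem_cons.1 ha with rfl | h1
      exacts [hf, ih h' a h1]

/-- `acc + sum c_j v_j` -/
noncomputable def lin (cs : List ℤ) : List K → K → K :=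
  List.rec (fun _ acc => acc)
    (fun c _ ih vs acc => List.rec acc
      (fun v vs' _ => Bool.rec (fK (kadd acc (ksm c v)) (ih vs')) (ih vs' acc)
        (Nat.beq (Int.natAbs c) 0)) vs) cs

abbrev Fn := (Fin 4 → ℝ) → ℝ

lemma rep_lin {B E d : ℕ} (cs : List ℤ) {vs : List K} {Vs : List Fn}
    (hv : List.Forall₂ (Rep B E d) vs Vs) {acc : K} {F : Fn} (ha : Rep B E d acc F) :
    Rep B E d (lin cs vs acc) fun x => F x + (List.zipWith (fun (c : ℤ) (V : Fn) => c * V x) cs Vs).sum := by
  induction cs generalizing vs Vs acc F with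
  | nil => exact ha.congr fun x => by simp
  | cons c cs ih =>
    cases hv with
    | nil => exact ha.congr fun x => by simp
    | @cons v V vs Vs h1 h2 =>
      have e : lin (c :: cs) (v :: vs) acc = Bool.rec (fK (kadd acc (ksm c v)) (lin cs vs))
        (lin cs vs acc) (Nat.beq (Int.natAbs c) 0) := rfl
      rw [e]
      cases hc : Nat.beq (Int.natAbs c) 0 with
      | false =>
        simp only [fK_eq]
        exact (ih h2 (ha.add (h1.sm c))).congr fun x => by simp [add_assoc]
      | true =>
        have : c = 0 := by simpa using hc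
        subst this
        exact (ih h2 ha).congr fun x => by simp

noncomputable def bil0 (B1 E1 d1 : ℕ) (us : List K) (B2 o2 : ℕ) (vss : List (List K)) : Bool :=
  fN (off B1 (d1 * (E1 * E1) + 1)) fun o1 =>
  Bool.and (allL us fun u => Nat.blt u.n (Nat.shiftLeft 1 B1))
    (mapN (fun u => shf o1 u.N) us fun ms =>
      allN (d1 * (E1 * E1) + 1) fun t =>
        Bool.rec (mapI (fun M => dec B1 M t) ms fun cs =>
          allL vss fun vs => nnB B2 o2 (lin cs vs kzero)) true (Nat.blt d1 (dsum E1 t)))

/-! The same check with natural number arithmetic only. The first argument of `wAdd`, `wMul`,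
`wSub` only serves to spread the hash codes of the terms that the kernel caches. -/

def wAdd (_ a b : ℕ) : ℕ := Nat.add a b
def wMul (_ a b : ℕ) : ℕ := Nat.mul a b
def wSub (_ a b : ℕ) : ℕ := Nat.sub a b
def wAnd (_ a b : ℕ) : ℕ := Nat.land a b

noncomputable def fZ {α : Type} (n : ℕ) (k : ℕ → α) : α :=
  Nat.rec (k 0) (fun m _ => k m) (Nat.succ n)

@[simp] lemma fZ_eq {α : Type} (n : ℕ) (k : ℕ → α) : fZ n k = k n := rfl

structure SV where
  s : Bool
  m : ℕ
  r : ℕ

noncomputable def svI {α : Type} (x : ℤ) (r : ℕ) (k : SV → α) : α :=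
  Int.rec (fun n => fZ n fun m => fZ r fun r' => k ⟨false, m, r'⟩)
    (fun n => fZ (Nat.succ n) fun m => fZ r fun r' => k ⟨true, m, r'⟩) x

def svP (x : ℤ) (r : ℕ) : SV := ⟨decide (x < 0), x.natAbs, r⟩

lemma svI_eq {α : Type} (x : ℤ) (r : ℕ) (k : SV → α) : svI x r k = k (svP x r) := by
  cases x with
  | ofNat n => simp [svI, svP, show ¬ ((n : ℤ) < 0) by omega]
  | negSucc n => simp [svI, svP, Int.negSucc_lt_zero]

noncomputable def lin2 (B o t : ℕ) (cs : List SV) : List SV → ℕ → ℕ → ℕ → Bool :=
  List.rec (fun _ P M n => Bool.and (Nat.blt n (Nat.shiftLeft 1 B))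
      (Nat.beq (wAnd t (wSub t (wAdd t P o) M) o) o))
    (fun c _ ih vs P M n => List.rec (Bool.and (Nat.blt n (Nat.shiftLeft 1 B))
        (Nat.beq (wAnd t (wSub t (wAdd t P o) M) o) o))
      (fun v vs' _ => SV.rec (fun s1 m1 _ => SV.rec (fun s2 m2 r2 =>
        Bool.rec
          (Bool.rec (ih vs' (wAdd t P (wMul t m1 m2)) M (Nat.add n (Nat.mul m1 r2)))
            (ih vs' P (wAdd t M (wMul t m1 m2)) (Nat.add n (Nat.mul m1 r2)))
            (Bool.rec s2 (Bool.rec true false s2) s1))
          (ih vs' P M n) (Nat.beq m1 0)) v) c) vs) cs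

lemma nnB_sub (B o t P M n : ℕ) : Bool.and (Nat.blt n (Nat.shiftLeft 1 B))
    (Nat.beq (wAnd t (wSub t (wAdd t P o) M) o) o) = nnB B o ⟨(P : ℤ) - M, n⟩ := by
  have : shf o ((P : ℤ) - M) = wSub t (wAdd t P o) M := by
    simp only [shf, wSub, wAdd, Int.add_def, Int.ofNat_eq_natCast, Nat.sub_eq, Nat.add_eq]; omega
  simp only [nnB, this, wAnd]

lemma lin2_eq (B o t : ℕ) (cs : List ℤ) (vs : List K) (P M n : ℕ) :
    lin2 B o t (cs.map fun c => svP c 0) (vs.map fun v => svP v.N v.n) P M n
      = nnB B o (lin cs vs ⟨(P : ℤ) - M, n⟩) := by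
  induction cs generalizing vs P M n with
  | nil => exact nnB_sub B o t P M n
  | cons c cs ih =>
    cases vs with
    | nil => exact nnB_sub B o t P M n
    | cons v vs =>
      have e : lin (c :: cs) (v :: vs) ⟨(P : ℤ) - M, n⟩ = Bool.rec (fK (kadd ⟨(P : ℤ) - M, n⟩ (ksm c v))
        (lin cs vs)) (lin cs vs ⟨(P : ℤ) - M, n⟩) (Nat.beq (Int.natAbs c) 0) := rfl
      have e2 : lin2 B o t ((c :: cs).map fun c => svP c 0) ((v :: vs).map fun v => svP v.N v.n) P M n
        = Bool.rec (Bool.rec
            (lin2 B o t (cs.map fun c => svP c 0) (vs.map fun v => svP v.N v.n)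
              (wAdd t P (wMul t c.natAbs v.N.natAbs)) M (Nat.add n (Nat.mul c.natAbs v.n)))
            (lin2 B o t (cs.map fun c => svP c 0) (vs.map fun v => svP v.N v.n)
              P (wAdd t M (wMul t c.natAbs v.N.natAbs)) (Nat.add n (Nat.mul c.natAbs v.n)))
            (Bool.rec (decide (v.N < 0)) (Bool.rec true false (decide (v.N < 0))) (decide (c < 0))))
          (lin2 B o t (cs.map fun c => svP c 0) (vs.map fun v => svP v.N v.n) P M n)
          (Nat.beq c.natAbs 0) := rfl
      rw [e, e2]
      cases Nat.beq (Int.natAbs c) 0 with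
      | true => exact ih vs P M n
      | false =>
        simp only [fK_eq, ih, kadd, ksm, wAdd, wMul, Int.add_def, Int.mul_def, Nat.add_eq, Nat.mul_eq]
        by_cases h1 : c < 0 <;> by_cases h2 : v.N < 0 <;>
          simp only [h1, h2, decide_true, decide_false] <;> congr 3 <;> push_cast
        · rw [abs_of_neg h1, abs_of_neg h2]; ring
        · rw [abs_of_neg h1, abs_of_nonneg (not_lt.1 h2)]; ring
        · rw [abs_of_nonneg (not_lt.1 h1), abs_of_neg h2]; ring
        · rw [abs_of_nonneg (not_lt.1 h1), abs_of_nonneg (not_lt.1 h2)]; ring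

noncomputable def bil (B1 E1 d1 : ℕ) (us : List K) (B2 o2 : ℕ) (vss : List (List K)) : Bool :=
  fZ (off B1 (d1 * (E1 * E1) + 1)) fun o1 =>
  fZ o2 fun o2 =>
  mapL (fun vs => mapL (fun v : K => svI v.N v.n) vs) vss fun wss =>
  Bool.and (allL us fun u => Nat.blt u.n (Nat.shiftLeft 1 B1))
    (mapL (fun u : K => fZ (shf o1 u.N)) us fun ms =>
      allN (d1 * (E1 * E1) + 1) fun t =>
        Bool.rec (mapL (fun M => svI (dec B1 M t) 0) ms fun cs =>
          allL wss fun ws => lin2 B2 o2 t cs ws 0 0 0) true (Nat.blt d1 (dsum E1 t)))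

lemma allL_map {β γ : Type} (g : β → γ) (l : List β) (f : γ → Bool) :
    allL (l.map g) f = allL l fun a => f (g a) := by
  induction l with
  | nil => rfl
  | cons a l ih =>
    have e1 : allL ((a :: l).map g) f = Bool.rec false (allL (l.map g) f) (f (g a)) := rfl
    rw [e1, ih]; rfl

lemma bil_eq (B1 E1 d1 : ℕ) (us : List K) (B2 o2 : ℕ) (vss : List (List K)) :
    bil B1 E1 d1 us B2 o2 vss = bil0 B1 E1 d1 us B2 o2 vss := by
  unfold bil bil0
  rw [fZ_eq, fZ_eq, fN_eq, mapL_eq _ (fun vs : List K => vs.map fun v => svP v.N v.n)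
    (fun a k => mapL_eq (fun v : K => svI v.N v.n) (fun v => svP v.N v.n)
      (fun v k => svI_eq _ _ _) _ _),
    mapL_eq _ (fun u : K => shf (off B1 (d1 * (E1 * E1) + 1)) u.N) (fun a k => fZ_eq _ _), mapN_eq]
  congr 2
  funext t
  congr 1
  rw [mapL_eq _ (fun M => svP (dec B1 M t) 0) (fun a k => svI_eq _ _ _), mapI_eq, allL_map]
  congr 1
  funext vs
  have := lin2_eq B2 o2 t ((us.map fun u : K => shf (off B1 (d1 * (E1 * E1) + 1)) u.N).map
    fun M => dec B1 M t) vs 0 0 0
  rw [List.map_map] at this
  exact this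

noncomputable def dotF (Us Vs : List Fn) (x y : Fin 4 → ℝ) : ℝ :=
  (List.zipWith (fun (U V : Fn) => U x * V y) Us Vs).sum

theorem bil_sound {B1 E1 d1 B2 E2 d2 : ℕ} {us : List K} {Us : List Fn} {vss : List (List K)}
    (hu : List.Forall₂ (Rep (B1 + 1) E1 d1) us Us) (hE1 : d1 < E1) (hE2 : d2 < E2)
    (h : bil B1 E1 d1 us B2 (off B2 (d2 * (E2 * E2) + 1)) vss = true)
    {vs : List K} (hvs : vs ∈ vss) {Vs : List Fn} (hv : List.Forall₂ (Rep (B2 + 1) E2 d2) vs Vs)
    {x y : Fin 4 → ℝ} (hx : ∀ i, 0 ≤ x i) (hy : ∀ i, 0 ≤ y i) : 0 ≤ dotF Us Vs x y := by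
  simp only [bil_eq, bil0, fN_eq, mapN_eq, Bool.and_eq_true] at h
  obtain ⟨hb, hall⟩ := h
  replace hb := allL_true hb
  replace hall := allN_true hall
  set J := d1 * (E1 * E1) + 1 with hJ
  have key : ∃ Cs : List (ℕ → ℤ),
      (∀ t < J, (us.map fun u => shf (off B1 J) u.N).map (fun M => dec B1 M t) = Cs.map (· t)) ∧
      (∀ t, d1 < dsum E1 t → ∀ C ∈ Cs, C t = 0) ∧
      ∀ Vs : List Fn, dotF Us Vs x y = ∑ t ∈ range J, monT E1 d1 x t *
        (List.zipWith (fun (c : ℤ) (V : Fn) => c * V y) (Cs.map (· t)) Vs).sum := by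
    clear hall
    induction hu with
    | nil => exact ⟨[], by simp, by simp, by simp [dotF]⟩
    | @cons u U us Us h1 h2 ih =>
      obtain ⟨Cs, k1, k2, k3⟩ := ih fun a ha => hb a (List.mem_cons_of_mem _ ha)
      obtain ⟨C, c1, c2, c3, c4⟩ := h1.collect hE1
      have hu := hb u List.mem_cons_self
      simp only [Nat.blt_eq, Nat.shiftLeft_eq', Nat.shiftLeft_eq, one_mul] at hu
      have hC : ∀ t, (C t).natAbs < 2 ^ B1 := fun t => (c1 t).trans_lt hu
      refine ⟨C :: Cs, ?_, ?_, ?_⟩
      · intro t ht
        simp only [List.map_cons, k1 t ht, c3]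
        rw [dec_eq hC ht]
      · intro t ht C' hC'
        rcases List.mem_cons.1 hC' with rfl | h
        exacts [c2 t ht, k2 t ht C' h]
      · intro Vs
        cases Vs with
        | nil => simp [dotF]
        | cons V Vs =>
          have := k3 Vs
          simp only [dotF] at this
          simp only [dotF, List.zipWith_cons_cons, List.sum_cons, List.map_cons, this, c4, sum_mul,
            mul_add, sum_add_distrib]
          congr 1
          exact sum_congr rfl fun t _ => by ring
  obtain ⟨Cs, k1, k2, k3⟩ := key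
  rw [k3]
  refine sum_nonneg fun t ht => mul_nonneg (monT_nonneg hx t) ?_
  have ht := mem_range.1 ht
  have h1 := hall t ht
  cases hd : Nat.blt d1 (dsum E1 t) with
  | true =>
    have hz := k2 t (by simpa using hd)
    clear k1 k2 k3
    refine le_of_eq (Eq.symm ?_)
    clear hv
    induction Cs generalizing Vs with
    | nil => simp
    | cons C Cs ih =>
      cases Vs with
      | nil => simp
      | cons V Vs =>
        simp only [List.map_cons, List.zipWith_cons_cons, List.sum_cons,
          hz C List.mem_cons_self, ih fun C' h => hz C' (List.mem_cons_of_mem _ h)]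
        simp
  | false =>
    rw [hd] at h1
    simp only [mapI_eq, k1 t ht] at h1
    have := (rep_lin (Cs.map (· t)) hv rep_zero).nonneg hE2 (allL_true h1 vs hvs) hy
    simpa using this

end Vale.Agent.P154
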