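import Vale.Agent.P154.Check

/-! From the checkers to upper bounds on `Kop`. -/

namespace Vale.Agent.P154

open Finset

variable {q : ℕ} {tbl : List (List ℕ)}

lemma W_le {p r π : Fin q → ℝ} (hp : Simp p) (hr : Simp r) (hπ : Simp π) {W : ℝ} (hW : 0 ≤ W)
    (e : ∀ i, p i * r i = W * π i) : W ≤ 1 + chi π := by
  have hq := hp.pos
  have ha : 1 + chi π = avg fun i => π i ^ 2 := by
    have : chi π = avg fun i => π i ^ 2 + ((-2) * π i + 1) := by
      unfold chi; congr 1; funext i; ring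
    rw [this, avg_add, avg_add, avg_mul_left, hπ.2, avg_const hq]; ring
  set a := 1 + chi π with hadef
  have a1 : 1 ≤ a := by have := chi_nonneg π; linarith
  obtain ⟨s, hs, rfl⟩ : ∃ s, 0 ≤ s ∧ W = s ^ 2 := ⟨√W, Real.sqrt_nonneg _, (Real.sq_sqrt hW).symm⟩
  obtain ⟨b, hb, hab⟩ : ∃ b, 0 < b ∧ a = b ^ 2 :=
    ⟨√a, Real.sqrt_pos.2 (by linarith), (Real.sq_sqrt (by linarith)).symm⟩
  have key : ∀ i, s * (3 * b ^ 2 * π i - π i ^ 2) ≤ b ^ 3 * (p i + r i) := by
    intro i
    obtain ⟨u, hu, hu2⟩ : ∃ u, 0 ≤ u ∧ π i = u ^ 2 :=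
      ⟨√(π i), Real.sqrt_nonneg _, (Real.sq_sqrt (hπ.1 i)).symm⟩
    have h1 : 2 * (s * u) ≤ p i + r i := by
      have := hp.1 i
      have := hr.1 i
      refine abs_le_of_sq_le_sq' ?_ (by positivity) |>.2
      have h := e i
      rw [hu2] at h
      nlinarith [sq_nonneg (p i - r i)]
    have h2 : 3 * b ^ 2 * u ^ 2 - u ^ 4 ≤ 2 * b ^ 3 * u := by
      nlinarith [mul_nonneg (mul_nonneg hu (sq_nonneg (u - b))) (by positivity : 0 ≤ u + 2 * b)]
    rw [hu2]
    calc s * (3 * b ^ 2 * u ^ 2 - (u ^ 2) ^ 2) ≤ s * (2 * b ^ 3 * u) :=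
          mul_le_mul_of_nonneg_left (by nlinarith) hs
      _ = b ^ 3 * (2 * (s * u)) := by ring
      _ ≤ _ := mul_le_mul_of_nonneg_left h1 (by positivity)
  have h := avg_mono key
  have e1 : (avg fun i => s * (3 * b ^ 2 * π i - π i ^ 2)) = s * (2 * b ^ 2) := by
    rw [avg_mul_left]
    have : (avg fun i => 3 * b ^ 2 * π i - π i ^ 2)
        = avg fun i => 3 * b ^ 2 * π i + (-1) * π i ^ 2 := by congr 1; funext i; ring
    rw [this, avg_add, avg_mul_left, avg_mul_left, hπ.2, ← ha, hab]; ring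
  rw [e1, avg_mul_left, avg_add, hp.2, hr.2] at h
  have : s ≤ b := by
    by_contra hc
    push Not at hc
    nlinarith [mul_pos (mul_pos hb hb) (sub_pos.2 hc)]
  rw [hab]; gcongr

lemma GM_smul {g : List (ℤ × List ℕ)} {j : ℕ} (hg : ∀ t ∈ g, t.2.length = q ∧ t.2.sum = j) (W : ℝ)
    (p : Fin q → ℝ) : GM g (fun i => W * p i) = GM g p * W ^ j := by
  unfold GM
  rw [← List.sum_map_mul_right]
  congr 1
  exact List.map_congr_left fun t ht => by rw [Ms_smul (hg t ht).1, (hg t ht).2]; ring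

/-- the conclusion of the majorant checks -/
def MajOk (q n : ℕ) (gs : GS) (cs : PE) : Prop :=
  ∀ p : Fin q → ℝ, Simp p → ∀ W : ℝ, 0 ≤ W → W ≤ 1 + chi p →
    W * peR q n cs (ext p) ≤ (q : ℝ) ^ n * ∑ j ∈ range (n + 3), GM (nth [] gs j) p * W ^ j

theorem majOk (ht : PermTbl q tbl) {B B1 B2 n cc nw nt : ℕ} (hn : 2 ≤ n) (hcc : 0 < cc)
    (hnw : 0 < nw) (hnt : 0 < nt) {gs : GS} {cs : PE} (hcs : okF q n (Sum.inr cs) = true)
    (hg : okGS q (n + 2) gs = true) {cells cells' : List Cell} (hc : Covers q cells)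
    (hc' : Covers q cells') (hz : zeroChk B q (n + 2) tbl gs cs cells' = true)
    (h : ∀ c ∈ cells, majChk B1 B2 q n tbl gs cs cc nw nt [c] = true) : MajOk q n gs cs := by
  intro p hp W h0 h1
  simp only [okF, List.all_eq_true, decide_eq_true_eq] at hcs
  obtain ⟨z1, z2⟩ := zeroChk_sound ht hcs hg hc' hz hp
  have h2 := majChk_sound ht hn hcc hnw hnt hcs hg hc h hp h0 h1
  have h3 := div_twice _ W n z1 z2
  have h4 : 0 ≤ ∑ j ∈ range (n + 3), eps n gs cs p j * W ^ j := by rw [h3]; positivity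
  simp only [eps, sub_mul, sum_sub_distrib, ite_mul, zero_mul, sum_ite_eq', mem_range] at h4
  rw [if_pos (by omega), pow_one] at h4
  rw [mul_sum]
  simp only [← mul_assoc]
  linarith

noncomputable def GG (n : ℕ) (gs : GS) (p r : Fin q → ℝ) : ℝ :=
  ∑ j ∈ range (n + 3), ((nth [] gs j).map fun t => (t.1 : ℝ) * (Ms t.2 p * Ms t.2 r)).sum

theorem kop_le_GG {n : ℕ} {gs : GS} {cs : PE} (hg : okGS q (n + 2) gs = true) (hm : MajOk q n gs cs)
    {φ : (Fin q → ℝ) → ℝ} {cφ : ℝ} (hφ : ∀ p, Simp p → peR q n cs (ext p) = cφ * φ p)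
    {p r : Fin q → ℝ} (hp : Simp p) (hr : Simp r) :
    cφ * q.factorial * Kop φ p r ≤ (q : ℝ) ^ n * GG n gs p r := by
  have h1 : ∀ τ : Equiv.Perm (Fin q), cφ * hom φ (fun i => p i * r (τ i)) ≤
      (q : ℝ) ^ n * ∑ j ∈ range (n + 3), GM (nth [] gs j) (fun i => p i * r (τ i)) := by
    intro τ
    have hr' : Simp fun i => r (τ i) := ⟨fun i => hr.1 _, by rw [avg_perm, hr.2]⟩
    have hy : ∀ i, 0 ≤ p i * r (τ i) := fun i => mul_nonneg (hp.1 i) (hr.1 _)
    obtain ⟨π, hπ, W, hW, e, e'⟩ : ∃ π, Simp π ∧ ∃ W, 0 ≤ W ∧ (∀ i, p i * r (τ i) = W * π i) ∧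
        hom φ (fun i => p i * r (τ i)) = W * φ π := by
      by_cases h : avg (fun i => p i * r (τ i)) = 0
      · exact ⟨fun _ => 1, simp_one hp.pos, 0, le_rfl, fun i => by
          rw [eq_zero_of_avg hy h i]; simp, by rw [hom_eq, h]; simp⟩
      · exact ⟨_, simp_nrm hy h, _, avg_nonneg hy, fun i => (avg_mul_nrm hy i).symm, hom_eq _ _⟩
    have := hm π hπ W hW (W_le hp hr' hπ hW e)
    rw [hφ π hπ] at this
    rw [e', funext e, sum_congr rfl fun j hj =>
      GM_smul (okGS_spec hg (by have := mem_range.1 hj; omega)) W π]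
    linarith
  have h2 := sum_le_sum fun τ (_ : τ ∈ univ) => h1 τ
  have hf : (0 : ℝ) < q.factorial := by exact_mod_cast q.factorial_pos
  unfold Kop GG
  rw [mul_assoc, mul_div_cancel₀ _ hf.ne', mul_sum]
  refine h2.trans_eq ?_
  rw [← mul_sum, sum_comm]
  congr 1
  refine sum_congr rfl fun j _ => ?_
  unfold GM
  induction nth [] gs j with
  | nil => simp
  | cons t l ih => simp only [List.map_cons, List.sum_cons, sum_add_distrib, ih, ← mul_sum, Ms_avg]

noncomputable def gTerms (κ : ℤ) (q D : ℕ) (gs : GS) : List Trm :=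
  (List.range (D + 1)).flatMap fun j => (nth [] gs j).map fun t =>
    (-(κ * t.1 * (q : ℤ) ^ (2 * j)), Sum.inl t.2, Sum.inl t.2)

noncomputable def trmSum (q : ℕ) (tbl : List (List ℕ)) (D : ℕ) (terms : List Trm) (f g : ℕ → ℝ) : ℝ :=
  (terms.map fun t => (t.1 : ℝ) * evF q tbl D f t.2.1 * evF q tbl D g t.2.2).sum

lemma gTerms_sum (ht : PermTbl q tbl) (κ : ℤ) {n : ℕ} {gs : GS} (hg : okGS q (n + 2) gs = true)
    {p r : Fin q → ℝ} (hp : Simp p) (hr : Simp r) :
    trmSum q tbl (n + 2) (gTerms κ q (n + 2) gs) (ext p) (ext r)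
      = -(κ * (q : ℝ) ^ (2 * (n + 2)) * GG n gs p r) := by
  unfold trmSum gTerms GG
  rw [List.map_flatMap, List.flatMap_def, List.sum_flatten, List.map_map,
    ← List.sum_toFinset _ List.nodup_range, List.toFinset_range, mul_sum, ← sum_neg_distrib]
  refine sum_congr rfl fun j hj => ?_
  have hj := mem_range.1 hj
  have hs := okGS_spec hg (j := j) (by omega)
  simp only [Function.comp, List.map_map]
  rw [← List.sum_map_mul_left, ← neg_one_mul, ← List.sum_map_mul_left]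
  congr 1
  refine List.map_congr_left fun t htt => ?_
  simp only [Function.comp, evF, hp.sumR, hr.sumR, (hs t htt).2,
    msR_eq ht (hs t htt).1 (f := ext p) (p := p) (by simp),
    msR_eq ht (hs t htt).1 (f := ext r) (p := r) (by simp)]
  have : (q : ℝ) ^ (2 * (n + 2)) = q ^ (2 * j) * q ^ (n + 2 - j) * q ^ (n + 2 - j) := by
    rw [← pow_add, ← pow_add]; congr 1; omega
  rw [this]; push_cast; ring

/-- the bilinear form is nonnegative on all pairs of nonnegative vectors -/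
def PairAll (q D : ℕ) (tbl : List (List ℕ)) (terms : List Trm) : Prop :=
  ∀ p r : Fin q → ℝ, (∀ i, 0 ≤ p i) → (∀ i, 0 ≤ r i) → 0 ≤ trmSum q tbl D terms (ext p) (ext r)

def scaleT (N : ℤ) (terms : List Trm) : List Trm := terms.map fun t => (N * t.1, t.2.1, t.2.2)

lemma trmSum_scale (D : ℕ) (N : ℤ) (terms : List Trm) (f g : ℕ → ℝ) :
    trmSum q tbl D (scaleT N terms) f g = N * trmSum q tbl D terms f g := by
  unfold trmSum scaleT
  rw [List.map_map, ← List.sum_map_mul_left]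
  congr 1
  exact List.map_congr_left fun t _ => by simp only [Function.comp]; push_cast; ring

theorem pairAll_red (ht : PermTbl q tbl) {D : ℕ} {terms terms' : List Trm} {a b : ℕ} (ha : 0 < a)
    (hok : okTerms q D (scaleT a terms ++ scaleT (-(b : ℤ)) terms') = true)
    (hok' : okTerms q D terms' = true) {cells cells' : List Cell} (hc : Covers q cells)
    (hc' : Covers q cells')
    (h : PairOk q D tbl (scaleT a terms ++ scaleT (-(b : ℤ)) terms') cells cells)
    (h' : PairOk q D tbl terms' cells' cells') : PairAll q D tbl terms := by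
  intro p r hp hr
  have h1 := pair_nonneg ht hok hc h hp hr
  have h2 := pair_nonneg ht hok' hc' h' hp hr
  rw [List.map_append, List.sum_append] at h1
  have e1 := trmSum_scale (q := q) (tbl := tbl) D a terms (ext p) (ext r)
  have e2 := trmSum_scale (q := q) (tbl := tbl) D (-(b : ℤ)) terms' (ext p) (ext r)
  unfold trmSum at *
  rw [e1, e2] at h1
  have ha' : (0 : ℝ) < a := by exact_mod_cast ha
  have hb : (0 : ℝ) ≤ b := by positivity
  push_cast at h1
  have := mul_nonneg hb h2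
  exact (mul_nonneg_iff_of_pos_left ha').1 (by linarith)

theorem kop_le (ht : PermTbl q tbl) {n : ℕ} {gs : GS} {cs : PE} (hg : okGS q (n + 2) gs = true)
    (hm : MajOk q n gs cs) {φ : (Fin q → ℝ) → ℝ} {cφ : ℝ}
    (hφ : ∀ p, Simp p → peR q n cs (ext p) = cφ * φ p) {κ : ℕ} {A : List Trm}
    (h : PairAll q (n + 2) tbl (A ++ gTerms κ q (n + 2) gs))
    {p r : Fin q → ℝ} (hp : Simp p) (hr : Simp r) :
    κ * (q : ℝ) ^ (n + 4) * cφ * q.factorial * Kop φ p r ≤ trmSum q tbl (n + 2) A (ext p) (ext r) := by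
  have h1 := h p r hp.1 hr.1
  unfold trmSum at h1
  rw [List.map_append, List.sum_append] at h1
  have h2 := gTerms_sum ht κ hg hp hr
  have h3 := kop_le_GG hg hm hφ hp hr
  unfold trmSum at *
  rw [h2] at h1
  have h4 := mul_le_mul_of_nonneg_left h3 (show 0 ≤ (κ : ℝ) * (q : ℝ) ^ (n + 4) by positivity)
  have : (q : ℝ) ^ (2 * (n + 2)) = q ^ (n + 4) * q ^ n := by rw [← pow_add]; congr 1; omega
  rw [this] at h1
  push_cast at h1
  nlinarith

lemma bdd_pow {φ : (Fin q → ℝ) → ℝ} (h : Bdd φ) (k : ℕ) : Bdd fun p => φ p ^ k := by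
  induction k with
  | zero => simpa using bdd_const (q := q) 1
  | succ k ih => simpa [pow_succ] using ih.mul h

lemma bdd_psum (k : ℕ) : Bdd fun p : Fin q → ℝ => psum q k (ext p) := by
  refine ⟨q * (q * q + q) ^ k, fun p hp => ?_⟩
  beta_reduce
  rw [psum_eq (p := p) 1 (by simp), hp.sum]
  refine (abs_sum_le_sum_abs _ _).trans ?_
  have : ∀ i, |(q * p i - q) ^ k| ≤ ((q : ℝ) * q + q) ^ k := by
    intro i
    rw [abs_pow]
    refine pow_le_pow_left₀ (abs_nonneg _) ?_ k
    have h1 := hp.1 i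
    have h2 := hp.le i
    have hq : (0 : ℝ) ≤ q := by positivity
    rw [abs_le]; constructor <;> nlinarith
  simpa using sum_le_sum fun i (_ : i ∈ univ) => this i

lemma bdd_peR (D : ℕ) (cs : PE) : Bdd fun p : Fin q → ℝ => peR q D cs (ext p) := by
  have hS : Bdd fun p : Fin q → ℝ => sumR q (ext p) := ⟨q, fun p hp => by simp [hp.sumR]⟩
  unfold peR
  induction cs with
  | nil => simpa using bdd_const (q := q) 0
  | cons t l ih =>
    simp only [List.map_cons, List.sum_cons]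
    exact (((((bdd_pow (bdd_psum 2) _).mul (bdd_pow (bdd_psum 3) _)).mul
      (bdd_pow (bdd_psum 4) _)).mul (bdd_pow hS _)).const_mul _).add ih

end Vale.Agent.P154
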