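import Vale.Agent.P154.Cover

/-! The three checkers and their soundness. -/

namespace Vale.Agent.P154

open Finset

abbrev Trm := ℤ × Feat × Feat

noncomputable def pairChk (B1 B2 q D : ℕ) (tbl : List (List ℕ)) (terms : List Trm)
    (cu cv : List Cell) : Bool :=
  fN (off B2 (D * ((D + 1) * (D + 1)) + 1)) fun o2 =>
  mapL (fun c k => mkCtx (B2 + 1) (D + 1) q D c fun X =>
    mapK (fun t : Trm => featK X tbl D t.2.2) terms k) cv fun vss =>
  allL cu fun c => mkCtx (B1 + 1) (D + 1) q D c fun X =>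
    mapK (fun t : Trm => ksm t.1 (featK X tbl D t.2.1)) terms fun us =>
      bil B1 (D + 1) D us B2 o2 vss

def okTerms (q D : ℕ) (terms : List Trm) : Bool :=
  terms.all fun t => okF q D t.2.1 && okF q D t.2.2

lemma forall₂_map {α β γ : Type} (R : β → γ → Prop) (f : α → β) (g : α → γ) (l : List α)
    (h : ∀ a ∈ l, R (f a) (g a)) : List.Forall₂ R (l.map f) (l.map g) := by
  induction l with
  | nil => exact .nil
  | cons a l ih =>
    exact .cons (h a List.mem_cons_self) (ih fun b hb => h b (List.mem_cons_of_mem _ hb))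

lemma dotF_map {α : Type} (f g : α → Fn) (l : List α) (x y : Fin 4 → ℝ) :
    dotF (l.map f) (l.map g) x y = (l.map fun a => f a x * g a y).sum := by
  simp [dotF, List.zipWith_map, List.zipWith_self]

variable {q : ℕ} {tbl : List (List ℕ)}

/-- the bilinear form is nonnegative on pairs of cells -/
def PairOk (q D : ℕ) (tbl : List (List ℕ)) (terms : List Trm) (cu cv : List Cell) : Prop :=
  ∀ c ∈ cu, ∀ c' ∈ cv, ∀ x y : Fin 4 → ℝ, (∀ i, 0 ≤ x i) → (∀ i, 0 ≤ y i) →
    0 ≤ (terms.map fun t => (t.1 : ℝ) * evF q tbl D (pt c x) t.2.1 * evF q tbl D (pt c' y) t.2.2).sum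

theorem pairChk_sound {B1 B2 D : ℕ} (ht : OkTbl q tbl) {terms : List Trm}
    (hok : okTerms q D terms = true) {cu cv : List Cell}
    (h : pairChk B1 B2 q D tbl terms cu cv = true) : PairOk q D tbl terms cu cv := by
  intro c hc c' hc' x y hx hy
  simp only [okTerms, List.all_eq_true, Bool.and_eq_true] at hok
  unfold pairChk at h
  rw [fN_eq, mapL_eq _ (fun c => terms.map fun t : Trm =>
    featK (ctxP (B2 + 1) (D + 1) q D c) tbl D t.2.2) (fun a k => by rw [mkCtx_eq, mapK_eq])] at h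
  have h1 := allL_true h c hc
  rw [mkCtx_eq, mapK_eq] at h1
  have hu := forall₂_map (Rep (B1 + 1) (D + 1) D)
    (fun t : Trm => ksm t.1 (featK (ctxP (B1 + 1) (D + 1) q D c) tbl D t.2.1))
    (fun t x => (t.1 : ℝ) * evF q tbl D (pt c x) t.2.1) terms fun t htt =>
      (rep_featK (good_ctxP _ _ _ _ c) ht le_rfl _ (hok t htt).1).sm t.1
  have hv := forall₂_map (Rep (B2 + 1) (D + 1) D)
    (fun t : Trm => featK (ctxP (B2 + 1) (D + 1) q D c') tbl D t.2.2)
    (fun t x => evF q tbl D (pt c' x) t.2.2) terms fun t htt =>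
      rep_featK (good_ctxP _ _ _ _ c') ht le_rfl _ (hok t htt).2
  have := bil_sound hu (Nat.lt_succ_self D) (Nat.lt_succ_self D) h1
    (List.mem_map.2 ⟨c', hc', rfl⟩) hv hx hy
  rwa [dotF_map] at this

lemma PairOk.append {D : ℕ} {terms : List Trm} {cu cu' cv : List Cell}
    (h : PairOk q D tbl terms cu cv) (h' : PairOk q D tbl terms cu' cv) :
    PairOk q D tbl terms (cu ++ cu') cv := fun c hc =>
  (List.mem_append.1 hc).elim (h c) (h' c)

theorem pair_nonneg {D : ℕ} (ht : PermTbl q tbl) {terms : List Trm} (hok : okTerms q D terms = true)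
    {cells : List Cell} (hc : Covers q cells) (h : PairOk q D tbl terms cells cells)
    {p r : Fin q → ℝ} (hp : ∀ i, 0 ≤ p i) (hr : ∀ i, 0 ≤ r i) :
    0 ≤ (terms.map fun t =>
      (t.1 : ℝ) * evF q tbl D (ext p) t.2.1 * evF q tbl D (ext r) t.2.2).sum := by
  obtain ⟨σ, c, h1, x, hx, e⟩ := hc p hp
  obtain ⟨τ, c', h2, y, hy, e'⟩ := hc r hr
  simp only [okTerms, List.all_eq_true, Bool.and_eq_true] at hok
  refine (h c h1 c' h2 x y hx hy).trans_eq ?_
  congr 1
  refine List.map_congr_left fun t htt => ?_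
  rw [evF_perm ht σ e _ (hok t htt).1, evF_perm ht τ e' _ (hok t htt).2]

noncomputable def unChk (B q D : ℕ) (cs : PE) (cells : List Cell) : Bool :=
  Bool.and (okF q D (Sum.inr cs)) (fN (off B (D * ((D + 1) * (D + 1)) + 1)) fun o =>
    allL cells fun c => mkCtx (B + 1) (D + 1) q D c fun X => nnB B o (peK X D cs))

theorem unChk_sound {B D : ℕ} {cs : PE} {cells : List Cell} (hc : Covers q cells)
    (h : unChk B q D cs cells = true) {p : Fin q → ℝ} (hp : ∀ i, 0 ≤ p i) :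
    0 ≤ peR q D cs (ext p) := by
  obtain ⟨σ, c, h1, x, hx, e⟩ := hc p hp
  simp only [unChk, Bool.and_eq_true, fN_eq, okF, List.all_eq_true, decide_eq_true_eq] at h
  have h2 := allL_true h.2 c h1
  rw [mkCtx_eq] at h2
  have := (rep_peK (good_ctxP _ _ _ _ c) le_rfl cs h.1).nonneg (Nat.lt_succ_self D) h2 hx
  rwa [peR_perm σ e] at this

/-! ### the majorant -/

abbrev GS := List (List (ℤ × List ℕ))

noncomputable def gK (X : Ctx) (tbl : List (List ℕ)) (g : List (ℤ × List ℕ)) : K :=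
  sumK (fun t => ksm t.1 (msK X tbl t.2)) g kzero

noncomputable def eK (X : Ctx) (tbl : List (List ℕ)) (q d : ℕ) (gs : GS) (cs : PE) (j : ℕ) : K :=
  kadd (ksm ((q : ℤ) ^ j) (mulP X.S (d - j) (gK X tbl (nth [] gs j))))
    (Bool.rec kzero (ksm (-1) (peK X d cs)) (Nat.beq j 1))

noncomputable def GM (g : List (ℤ × List ℕ)) (p : Fin q → ℝ) : ℝ :=
  (g.map fun t => (t.1 : ℝ) * Ms t.2 p).sum

noncomputable def eR (q : ℕ) (tbl : List (List ℕ)) (d : ℕ) (gs : GS) (cs : PE) (j : ℕ)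
    (f : ℕ → ℝ) : ℝ :=
  (q : ℝ) ^ j * (((nth [] gs j).map fun t => (t.1 : ℝ) * msR tbl t.2 f).sum * sumR q f ^ (d - j))
    - if j = 1 then peR q d cs f else 0

noncomputable def okGS (q D : ℕ) (gs : GS) : Bool :=
  allN (D + 1) fun j => (nth [] gs j).all fun t => t.2.length == q && t.2.sum == j

lemma okGS_spec {D : ℕ} {gs : GS} (h : okGS q D gs = true) {j : ℕ} (hj : j ≤ D) :
    ∀ t ∈ nth [] gs j, t.2.length = q ∧ t.2.sum = j := by
  have := allN_true h j (by omega)
  simpa using this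

lemma rep_eK {B E Dc : ℕ} {X : Ctx} {f : (Fin 4 → ℝ) → ℕ → ℝ} (hX : GoodCtx B E q Dc X f)
    (ht : OkTbl q tbl) {d : ℕ} (hd : d ≤ Dc) {gs : GS} {cs : PE} (hcs : ∀ t ∈ cs, pdeg t ≤ d)
    {j : ℕ} (hj : j ≤ d) (hg : ∀ t ∈ nth [] gs j, t.2.length = q ∧ t.2.sum = j) :
    Rep B E d (eK X tbl q d gs cs j) fun x => eR q tbl d gs cs j (f x) := by
  have h1 : Rep B E j (gK X tbl (nth [] gs j)) fun x =>
      ((nth [] gs j).map fun t => (t.1 : ℝ) * msR tbl t.2 (f x)).sum :=
    (rep_sumK _ (fun t x => (t.1 : ℝ) * msR tbl t.2 (f x)) _ (fun t htt =>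
      ((rep_msK hX ht t.2 (hg t htt).1 (by rw [(hg t htt).2]; omega)).deg (hg t htt).2).sm t.1)
      rep_zero).congr fun x => by simp
  have h2 := ((rep_mulP (d' := 1) h1 ((hX.hS (d - j) (by omega)).deg (by simp))).deg
    (d' := d) (by omega)).sm ((q : ℤ) ^ j)
  unfold eK eR
  cases hb : Nat.beq j 1 with
  | false =>
    have : j ≠ 1 := Nat.ne_of_beq_eq_false hb
    exact (h2.add rep_zero).congr fun x => by simp [this]
  | true =>
    have : j = 1 := by simpa using hb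
    exact (h2.add ((rep_peK hX hd cs hcs).sm (-1))).congr fun x => by simp [this, sub_eq_add_neg]

lemma peR_lift {n d : ℕ} (hnd : n ≤ d) {cs : PE} (hcs : ∀ t ∈ cs, pdeg t ≤ n) (f : ℕ → ℝ) :
    peR q d cs f = peR q n cs f * sumR q f ^ (d - n) := by
  unfold peR
  rw [← List.sum_map_mul_right]
  congr 1
  refine List.map_congr_left fun t ht => ?_
  have := hcs t ht
  rw [show d - pdeg t = n - pdeg t + (d - n) by omega, pow_add]; ring

noncomputable def eps (n : ℕ) (gs : GS) (cs : PE) (p : Fin q → ℝ) (j : ℕ) : ℝ :=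
  (q : ℝ) ^ n * GM (nth [] gs j) p - if j = 1 then peR q n cs (ext p) else 0

lemma eR_eq (ht : PermTbl q tbl) {n d : ℕ} (hnd : n ≤ d) {gs : GS} {cs : PE}
    (hcs : ∀ t ∈ cs, pdeg t ≤ n) {j : ℕ} (hj : j ≤ d)
    (hg : ∀ t ∈ nth [] gs j, t.2.length = q ∧ t.2.sum = j) {p : Fin q → ℝ} (hp : Simp p)
    {f : ℕ → ℝ} (σ : Equiv.Perm (Fin q)) (e : ∀ i : Fin q, f i = p (σ i)) :
    eR q tbl d gs cs j f = (q : ℝ) ^ (d - n) * eps n gs cs p j := by
  unfold eR eps GM
  have h1 : ((nth [] gs j).map fun t => (t.1 : ℝ) * msR tbl t.2 f)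
      = (nth [] gs j).map fun t => (t.1 : ℝ) * Ms t.2 p :=
    List.map_congr_left fun t htt => by rw [msR_eq ht (hg t htt).1 e, Ms_perm]
  rw [h1, sumR_eq σ e, hp.sum, peR_perm σ e, peR_lift hnd hcs, hp.sumR]
  have : (q : ℝ) ^ j * (q : ℝ) ^ (d - j) = (q : ℝ) ^ (d - n) * (q : ℝ) ^ n := by
    rw [← pow_add, ← pow_add]; congr 1; omega
  split_ifs
  · linear_combination (List.map (fun t => (t.1 : ℝ) * Ms t.2 p) (nth [] gs j)).sum * this
  · linear_combination (List.map (fun t => (t.1 : ℝ) * Ms t.2 p) (nth [] gs j)).sum * this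

/-- prefix sums -/
noncomputable def preK {α : Type} (l : List K) (m : ℕ) (k : List K → α) : α :=
  mapK (fun i => sumK (nth kzero l) (List.range (i + 1)) kzero) (List.range m) k

lemma nth_map_range {α : Type} (d : α) (g : ℕ → α) {m i : ℕ} (hi : i < m) :
    nth d ((List.range m).map g) i = g i := by
  rw [nth_eq]; simp [List.getD_eq_getElem?_getD, hi]

lemma rep_range {B E d : ℕ} (m : ℕ) (g : ℕ → K) (F : ℕ → Fn) (h : ∀ i < m, Rep B E d (g i) (F i)) :
    Rep B E d (sumK g (List.range m) kzero) fun x => ∑ i ∈ range m, F i x := by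
  have := rep_sumK_range m id g F h
  rwa [List.map_id] at this

lemma rep_pre {B E d m : ℕ} {l : List K} {F : ℕ → Fn} (h : ∀ i < m, Rep B E d (nth kzero l i) (F i)) :
    ∀ i < m, Rep B E d (nth kzero ((List.range m).map fun i =>
      sumK (nth kzero l) (List.range (i + 1)) kzero) i) fun x => ∑ j ∈ range (i + 1), F j x := by
  intro i hi
  rw [nth_map_range _ _ hi]
  exact rep_range _ _ _ fun j hj => h j (by omega)

noncomputable def zeroChk (B q D : ℕ) (tbl : List (List ℕ)) (gs : GS) (cs : PE)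
    (cells : List Cell) : Bool :=
  fN (off B (D * ((D + 1) * (D + 1)) + 1)) fun o =>
  allL cells fun c => mkCtx (B + 1) (D + 1) q D c fun X =>
    mapK (eK X tbl q D gs cs) (List.range (D + 1)) fun Es =>
    preK Es (D + 1) fun Ss =>
    fK (sumK (nth kzero Ss) (List.range D) kzero) fun r =>
      Bool.and (Bool.and (nnB B o (nth kzero Ss D)) (nnB B o (ksm (-1) (nth kzero Ss D))))
        (Bool.and (nnB B o r) (nnB B o (ksm (-1) r)))

lemma zeroChk_sound (ht : PermTbl q tbl) {B n : ℕ} {gs : GS} {cs : PE}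
    (hcs : ∀ t ∈ cs, pdeg t ≤ n) (hg : okGS q (n + 2) gs = true) {cells : List Cell}
    (hc : Covers q cells) (h : zeroChk B q (n + 2) tbl gs cs cells = true) {p : Fin q → ℝ}
    (hp : Simp p) : ∑ j ∈ range (n + 3), eps n gs cs p j = 0 ∧
      ∑ i ∈ range (n + 2), ∑ j ∈ range (i + 1), eps n gs cs p j = 0 := by
  obtain ⟨σ, c, h1, x, hx, e⟩ := hc p hp.1
  simp only [zeroChk, fN_eq] at h
  have h2 := allL_true h c h1
  simp only [mkCtx_eq, mapK_eq, preK, fK_eq, Bool.and_eq_true] at h2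
  have hE : ∀ j < n + 2 + 1, Rep (B + 1) (n + 2 + 1) (n + 2) (nth kzero ((List.range (n + 2 + 1)).map
      (eK (ctxP (B + 1) (n + 2 + 1) q (n + 2) c) tbl q (n + 2) gs cs)) j)
      fun x => eR q tbl (n + 2) gs cs j (pt c x) := by
    intro j hj
    rw [nth_map_range _ _ hj]
    exact rep_eK (good_ctxP _ _ _ _ c) ht.ok le_rfl (fun t htt => (hcs t htt).trans (by omega))
      (by omega) (okGS_spec hg (by omega))
  have hS := rep_pre hE
  have hr := rep_range (n + 2) _ _ fun i hi => hS i (by omega)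
  have a1 := (hS (n + 2) (by omega)).nonneg (by omega) h2.1.1 hx
  have a2 := ((hS (n + 2) (by omega)).sm (-1)).nonneg (by omega) h2.1.2 hx
  have a3 := hr.nonneg (by omega) h2.2.1 hx
  have a4 := (hr.sm (-1)).nonneg (by omega) h2.2.2 hx
  have hq : (0 : ℝ) < q := by exact_mod_cast hp.pos
  have e1 : ∀ m ≤ n + 3, ∑ j ∈ range m, eR q tbl (n + 2) gs cs j (pt c x)
      = (q : ℝ) ^ 2 * ∑ j ∈ range m, eps n gs cs p j := by
    intro m hm
    rw [mul_sum]
    refine sum_congr rfl fun j hj => ?_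
    have hj := mem_range.1 hj
    rw [eR_eq ht (n := n) (by omega) hcs (by omega) (okGS_spec hg (by omega)) hp σ e]
    simp
  have e2 : ∑ i ∈ range (n + 2), ∑ j ∈ range (i + 1), eR q tbl (n + 2) gs cs j (pt c x)
      = (q : ℝ) ^ 2 * ∑ i ∈ range (n + 2), ∑ j ∈ range (i + 1), eps n gs cs p j := by
    rw [mul_sum]
    exact sum_congr rfl fun i hi => e1 _ (by have := mem_range.1 hi; omega)
  simp only [e1 (n + 2 + 1) le_rfl, e2] at a1 a2 a3 a4
  have hq2 : (0 : ℝ) < (q : ℝ) ^ 2 := by positivity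
  constructor
  · exact (mul_eq_zero.1 (le_antisymm (by push_cast at a2; linarith) a1)).resolve_left hq2.ne'
  · exact (mul_eq_zero.1 (le_antisymm (by push_cast at a4; linarith) a3)).resolve_left hq2.ne'

lemma div_once (a : ℕ → ℝ) (W : ℝ) (m : ℕ) : ∑ j ∈ range (m + 1), a j * W ^ j
    = (1 - W) * ∑ k ∈ range m, (∑ j ∈ range (k + 1), a j) * W ^ k
      + (∑ j ∈ range (m + 1), a j) * W ^ m := by
  induction m with
  | zero => simp
  | succ m ih =>
    rw [sum_range_succ, ih, sum_range_succ (fun k => (∑ j ∈ range (k + 1), a j) * W ^ k) m,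
      sum_range_succ a (m + 1)]
    ring

lemma div_twice (a : ℕ → ℝ) (W : ℝ) (n : ℕ) (h1 : ∑ j ∈ range (n + 3), a j = 0)
    (h2 : ∑ i ∈ range (n + 2), ∑ j ∈ range (i + 1), a j = 0) :
    ∑ j ∈ range (n + 3), a j * W ^ j = (1 - W) ^ 2 *
      ∑ k ∈ range (n + 1), (∑ i ∈ range (k + 1), ∑ j ∈ range (i + 1), a j) * W ^ k := by
  rw [div_once a W (n + 2), h1, div_once (fun i => ∑ j ∈ range (i + 1), a j) W (n + 1), h2]
  ring

lemma taylor_shift (r : ℕ → ℝ) (z : ℝ) (n : ℕ) : ∑ k ∈ range (n + 1), r k * (1 + z) ^ k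
    = ∑ i ∈ range (n + 1), z ^ i * ∑ k ∈ range (n + 1), (k.choose i : ℝ) * r k := by
  simp only [mul_sum]
  rw [sum_comm]
  refine sum_congr rfl fun k hk => ?_
  have hk := mem_range.1 hk
  rw [add_comm 1 z, add_pow, mul_sum]
  rw [← sum_subset (s₁ := range (k + 1)) (s₂ := range (n + 1)) (range_subset_range.2 (by omega))]
  · exact sum_congr rfl fun i _ => by ring
  · intro i _ hi
    rw [Nat.choose_eq_zero_of_lt (by simpa using hi)]; simp

noncomputable def uList {α : Type} (B E n a m : ℕ) (k : List K → α) : α :=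
  fK (lin4 B E a (a + 1) 0 0) fun u => fK (lin4 B E m m 0 0) fun v =>
  pows u n kone fun up => pows v n kone fun vp =>
  mapK (fun i => kmul (nth kzero up i) (nth kzero vp (n - i))) (List.range (n + 1)) k

lemma intervals_sound {B1 B2 E2 n d2 m : ℕ} (hm : 0 < m) (hE : d2 < E2) {vs : List K} {V : ℕ → Fn}
    (hv : List.Forall₂ (Rep (B2 + 1) E2 d2) vs ((List.range (n + 1)).map V))
    (h : allN m (fun a => uList (B1 + 1) (n + 1) n a m fun us =>
      bil B1 (n + 1) n us B2 (off B2 (d2 * (E2 * E2) + 1)) [vs]) = true)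
    {θ : ℝ} (h0 : 0 ≤ θ) (h1 : θ ≤ 1) {y : Fin 4 → ℝ} (hy : ∀ i, 0 ≤ y i) :
    0 ≤ ∑ i ∈ range (n + 1), θ ^ i * V i y := by
  have hm' : (0 : ℝ) < m := by exact_mod_cast hm
  obtain ⟨a, ha, l1, l2⟩ : ∃ a : ℕ, a < m ∧ (a : ℝ) ≤ m * θ ∧ m * θ ≤ a + 1 := by
    by_cases h : θ = 1
    · refine ⟨m - 1, by omega, ?_, ?_⟩ <;> rw [h, Nat.cast_sub hm] <;> simp
    · have hlt : m * θ < m := by
        have := lt_of_le_of_ne h1 h
        nlinarith
      exact ⟨⌊m * θ⌋₊, (Nat.floor_lt (by positivity)).2 hlt, Nat.floor_le (by positivity),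
        (Nat.lt_floor_add_one _).le⟩
  have h2 := allN_true h a ha
  simp only [uList, fK_eq, pows_eq, mapK_eq] at h2
  have hu := forall₂_map (Rep (B1 + 1) (n + 1) n)
    (fun i => kmul (nth kzero (powsP (lin4 (B1 + 1) (n + 1) a (a + 1) 0 0) n kone) i)
      (nth kzero (powsP (lin4 (B1 + 1) (n + 1) m m 0 0) n kone) (n - i)))
    (fun i x => (a * x 0 + (a + 1) * x 1) ^ i * (m * x 0 + m * x 1) ^ (n - i)) (List.range (n + 1))
    fun i hi => by
      have hi := List.mem_range.1 hi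
      exact (((rep_pow1 (rep_lin4 _ _ _ _ _ _) n i (by omega)).mul
        (rep_pow1 (rep_lin4 _ _ _ _ _ _) n (n - i) (by omega))).deg (by omega)).congr
          fun x => by simp
  have := bil_sound hu (Nat.lt_succ_self n) hE h2 (List.mem_singleton.2 rfl) hv
    (x := ![a + 1 - m * θ, m * θ - a, 0, 0]) (by intro i; fin_cases i <;> simp [l1, l2]) hy
  rw [dotF_map, ← List.sum_toFinset _ List.nodup_range, List.toFinset_range] at this
  have e : ∀ i ∈ range (n + 1), ((a : ℝ) * (a + 1 - m * θ) + (a + 1) * (m * θ - a)) ^ i *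
      ((m : ℝ) * (a + 1 - m * θ) + m * (m * θ - a)) ^ (n - i) * V i y = (m : ℝ) ^ n * (θ ^ i * V i y) := by
    intro i hi
    have hi := mem_range.1 hi
    rw [show (a : ℝ) * (a + 1 - m * θ) + (a + 1) * (m * θ - a) = m * θ by ring,
      show (m : ℝ) * (a + 1 - m * θ) + m * (m * θ - a) = m by ring, mul_pow,
      show (m : ℝ) ^ n = m ^ i * m ^ (n - i) by rw [← pow_add]; congr 1; omega]
    ring
  simp only [Matrix.cons_val_zero, Matrix.cons_val_one] at this
  rw [sum_congr rfl e, ← mul_sum] at this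
  exact (mul_nonneg_iff_of_pos_left (by positivity)).1 this

noncomputable def lamV (q cc : ℕ) (c : Cell) (v : ℕ) : ℕ :=
  fN (((List.range q).map fun i => vtx c v i).sum) fun S =>
    (cc * ((List.range q).map fun i => Int.natAbs ((q * vtx c v i : ℕ) - (S : ℤ)) ^ 2).sum
      + q * S - 1) / (q * S)

noncomputable def majChk (B1 B2 q n : ℕ) (tbl : List (List ℕ)) (gs : GS) (cs : PE)
    (cc nw nt : ℕ) (cells : List Cell) : Bool :=
  fN (off B2 (2 * ((2 * n + 1) * (2 * n + 1)) + 1)) fun oc =>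
  fN (off B2 (n * ((2 * n + 1) * (2 * n + 1)) + 1)) fun oa =>
  fN (off B2 (2 * n * ((2 * n + 1) * (2 * n + 1)) + 1)) fun ob =>
  allL cells fun c => mkCtx (B2 + 1) (2 * n + 1) q n c fun X =>
    mapK (eK X tbl q n gs cs) (List.range (n + 1)) fun Es =>
    preK Es (n + 1) fun Ss => preK Ss (n + 1) fun Rs =>
    fK (lin4 (B2 + 1) (2 * n + 1) (lamV q cc c 0) (lamV q cc c 1) (lamV q cc c 2) (lamV q cc c 3))
      fun L =>
    pows L n kone fun Lp =>
    mapK (fun i => ksm ((cc : ℤ) ^ (n - i)) (mulP Lp i (mulP X.S (n - i)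
      (sumK (fun k => ksm (Nat.choose k i) (nth kzero Rs k)) (List.range (n + 1)) kzero))))
      (List.range (n + 1)) fun Vs =>
    Bool.and (nnB B2 oc (kadd (ksm q (kmul (nth kzero X.S 1) L)) (ksm (-(cc : ℤ)) (nth kzero X.P2 1))))
      (Bool.and
        (allN nw fun a => uList (B1 + 1) (n + 1) n a nw fun us => bil B1 (n + 1) n us B2 oa [Rs])
        (allN nt fun a => uList (B1 + 1) (n + 1) n a nt fun us => bil B1 (n + 1) n us B2 ob [Vs]))

lemma forall₂_of_nth {R : K → Fn → Prop} {m : ℕ} {g : ℕ → K} {F : ℕ → Fn}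
    (h : ∀ i < m, R (nth kzero ((List.range m).map g) i) (F i)) :
    List.Forall₂ R ((List.range m).map g) ((List.range m).map F) :=
  forall₂_map R g F _ fun i hi => by
    have := h i (List.mem_range.1 hi)
    rwa [nth_map_range _ _ (List.mem_range.1 hi)] at this

lemma majChk_sound (ht : PermTbl q tbl) {B1 B2 n cc nw nt : ℕ} (hn : 2 ≤ n) (hcc : 0 < cc)
    (hnw : 0 < nw) (hnt : 0 < nt) {gs : GS} {cs : PE} (hcs : ∀ t ∈ cs, pdeg t ≤ n)
    (hg : okGS q (n + 2) gs = true) {cells : List Cell} (hc : Covers q cells)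
    (h : ∀ c ∈ cells, majChk B1 B2 q n tbl gs cs cc nw nt [c] = true) {p : Fin q → ℝ}
    (hp : Simp p) {W : ℝ} (h0 : 0 ≤ W) (h1 : W ≤ 1 + chi p) :
    0 ≤ ∑ k ∈ range (n + 1), (∑ i ∈ range (k + 1), ∑ j ∈ range (i + 1), eps n gs cs p j) * W ^ k := by
  obtain ⟨σ, c, hc1, x, hx, e⟩ := hc p hp.1
  have h := h c hc1
  simp only [majChk, fN_eq] at h
  have h2 := allL_true h c (List.mem_singleton.2 rfl)
  simp only [mkCtx_eq, mapK_eq, preK, fK_eq, pows_eq, Bool.and_eq_true] at h2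
  have hX := good_ctxP (B2 + 1) (2 * n + 1) q n c
  set X := ctxP (B2 + 1) (2 * n + 1) q n c
  have hE : ∀ j < n + 1, Rep (B2 + 1) (2 * n + 1) n (nth kzero ((List.range (n + 1)).map
      (eK X tbl q n gs cs)) j) fun x => eR q tbl n gs cs j (pt c x) := by
    intro j hj
    rw [nth_map_range _ _ hj]
    exact rep_eK hX ht.ok le_rfl hcs (by omega) (okGS_spec hg (by omega))
  have hR := rep_pre (rep_pre hE)
  have hL := rep_lin4 (B2 + 1) (2 * n + 1) (lamV q cc c 0) (lamV q cc c 1) (lamV q cc c 2)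
    (lamV q cc c 3)
  obtain ⟨k1, k2, k3⟩ := h2
  have hq : (0 : ℝ) < q := by exact_mod_cast hp.pos
  have hc' : (0 : ℝ) < cc := by exact_mod_cast hcc
  have eR : ∀ k < n + 1, ∑ i ∈ range (k + 1), ∑ j ∈ range (i + 1), eR q tbl n gs cs j (pt c x)
      = ∑ i ∈ range (k + 1), ∑ j ∈ range (i + 1), eps n gs cs p j := by
    intro k hk
    refine sum_congr rfl fun i hi => sum_congr rfl fun j hj => ?_
    have hi := mem_range.1 hi
    have hj := mem_range.1 hj
    rw [eR_eq ht le_rfl hcs (by omega) (okGS_spec hg (by omega)) hp σ e]; simp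
  have eS : sumR q (pt c x) = q := by rw [sumR_eq σ e, hp.sum]
  rcases le_total W 1 with hW | hW
  · have := intervals_sound hnw (by omega) (forall₂_of_nth hR) k2 h0 hW hx
    refine this.trans_eq (sum_congr rfl fun k hk => ?_)
    rw [eR k (mem_range.1 hk), mul_comm]
  · set Lx : ℝ := ((lamV q cc c 0 : ℤ) : ℝ) * x 0 + ((lamV q cc c 1 : ℤ) : ℝ) * x 1
      + ((lamV q cc c 2 : ℤ) : ℝ) * x 2 + ((lamV q cc c 3 : ℤ) : ℝ) * x 3 with hLx
    have b1 := ((((hX.hS 1 (by omega)).mul hL).sm q).add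
      ((hX.h2 1 (by omega)).sm (-(cc : ℤ)))).nonneg (by omega) k1 hx
    have eP : psum q 2 (pt c x) = (q : ℝ) ^ 3 * chi p := by
      rw [psum_eq σ e, ← psum_eq (f := ext p) (p := p) 1 (by simp), hp.psum]; rfl
    simp only [eS, eP, pow_one, ← hLx] at b1
    push_cast at b1
    have b2 : cc * q * (W - 1) ≤ Lx := by
      have : cc * q * chi p ≤ Lx := by
        have : (q : ℝ) ^ 2 * (cc * q * chi p) ≤ (q : ℝ) ^ 2 * Lx := by nlinarith
        exact le_of_mul_le_mul_left this (by positivity)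
      have h3 : cc * q * (W - 1) ≤ cc * q * chi p :=
        mul_le_mul_of_nonneg_left (by linarith) (by positivity)
      linarith
    have b3 : 0 ≤ cc * q * (W - 1) := mul_nonneg (by positivity) (by linarith)
    obtain ⟨θ, t0, t1, t2⟩ : ∃ θ : ℝ, 0 ≤ θ ∧ θ ≤ 1 ∧ θ * Lx = cc * q * (W - 1) := by
      rcases (b3.trans b2).eq_or_lt with h | h
      · exact ⟨0, le_rfl, zero_le_one, by linarith⟩
      · exact ⟨cc * q * (W - 1) / Lx, div_nonneg b3 h.le, (div_le_one h).2 b2, by field_simp⟩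
    have hV := forall₂_map (Rep (B2 + 1) (2 * n + 1) (2 * n)) _
      (fun i x => (((cc : ℤ) ^ (n - i) : ℤ) : ℝ) * (((∑ k ∈ range (n + 1), ((k.choose i : ℤ) : ℝ) *
        ∑ i ∈ range (k + 1), ∑ j ∈ range (i + 1), Vale.Agent.P154.eR q tbl n gs cs j (pt c x))
        * sumR q (pt c x) ^ (n - i)) * (((lamV q cc c 0 : ℤ) : ℝ) * x 0 + ((lamV q cc c 1 : ℤ) : ℝ) * x 1
      + ((lamV q cc c 2 : ℤ) : ℝ) * x 2 + ((lamV q cc c 3 : ℤ) : ℝ) * x 3) ^ i))
      (List.range (n + 1)) fun i hi => by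
        have hi := List.mem_range.1 hi
        have a1 := rep_range (n + 1) _ _ fun k hk => (hR k hk).sm (k.choose i)
        have a2 := rep_mulP (d' := 1) a1 ((hX.hS (n - i) (by omega)).deg (by simp))
        have a3 := rep_mulP a2 (rep_pow1 hL n i (by omega))
        exact (a3.deg (d' := 2 * n) (by omega)).sm ((cc : ℤ) ^ (n - i))
    have := intervals_sound hnt (by omega) hV k3 t0 t1 hx
    simp only [eS, ← hLx] at this
    have hW' : W = 1 + (W - 1) := by ring
    rw [hW', taylor_shift]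
    have hpos : (0 : ℝ) < (cc * q) ^ n := by positivity
    refine (mul_nonneg_iff_of_pos_left hpos).1 (this.trans_eq ?_)
    rw [mul_sum]
    refine sum_congr rfl fun i hi => ?_
    have hi := mem_range.1 hi
    rw [sum_congr rfl fun k hk => by rw [eR k (mem_range.1 hk)]]
    have e1 : ((cc : ℝ) * q) ^ n = (cc * q) ^ i * (cc ^ (n - i) * q ^ (n - i)) := by
      rw [← mul_pow, ← pow_add]; congr 1; omega
    have e2 : θ ^ i * Lx ^ i = (cc * q) ^ i * (W - 1) ^ i := by rw [← mul_pow, t2, mul_pow]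
    push_cast
    rw [e1]
    linear_combination ((cc : ℝ) ^ (n - i) * q ^ (n - i) * ∑ k ∈ range (n + 1), (k.choose i : ℝ) *
      ∑ i ∈ range (k + 1), ∑ j ∈ range (i + 1), eps n gs cs p j) * e2

end Vale.Agent.P154
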