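import Vale.Agent.P154.Basic

/-!
Core lemmas on symmetric experiments.
-/

namespace Vale.Agent.P154

open Finset

variable {q : ℕ}

lemma hasSum_of_eq {Y : Type} {f g : Y → ℝ} {a : ℝ} (h : HasSum f a) (e : ∀ x, g x = f x) :
    HasSum g a := by rwa [funext e]

/-- normalisation of a likelihood vector -/
noncomputable def nrm (l : Fin q → ℝ) : Fin q → ℝ := fun i => l i / avg l

lemma hom_eq (φ : (Fin q → ℝ) → ℝ) (l : Fin q → ℝ) : hom φ l = avg l * φ (nrm l) := rfl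

lemma avg_nonneg {l : Fin q → ℝ} (hl : ∀ i, 0 ≤ l i) : 0 ≤ avg l :=
  div_nonneg (sum_nonneg fun i _ => hl i) (Nat.cast_nonneg _)

lemma avg_mul_left (c : ℝ) (l : Fin q → ℝ) : avg (fun i => c * l i) = c * avg l := by
  simp only [avg, ← mul_sum, mul_div_assoc]

lemma avg_div (l : Fin q → ℝ) (c : ℝ) : avg (fun i => l i / c) = avg l / c := by
  simp only [avg, ← sum_div]
  ring

lemma avg_add (l l' : Fin q → ℝ) : avg (fun i => l i + l' i) = avg l + avg l' := by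
  simp only [avg, sum_add_distrib, add_div]

lemma avg_const (hq : 0 < q) (c : ℝ) : avg (fun _ : Fin q => c) = c := by
  have : (q : ℝ) ≠ 0 := by exact_mod_cast hq.ne'
  simp only [avg, sum_const, card_univ, Fintype.card_fin, nsmul_eq_mul]
  field_simp

lemma avg_mono {l l' : Fin q → ℝ} (h : ∀ i, l i ≤ l' i) : avg l ≤ avg l' :=
  div_le_div_of_nonneg_right (sum_le_sum fun i _ => h i) (Nat.cast_nonneg _)

lemma avg_perm (l : Fin q → ℝ) (σ : Equiv.Perm (Fin q)) : avg (fun i => l (σ i)) = avg l := by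
  simp only [avg, Equiv.sum_comp σ l]

lemma eq_zero_of_avg {l : Fin q → ℝ} (hl : ∀ i, 0 ≤ l i) (h : avg l = 0) (i : Fin q) : l i = 0 := by
  have hq : (q : ℝ) ≠ 0 := by exact_mod_cast (Fin.pos i).ne'
  rw [avg, div_eq_zero_iff] at h
  exact (sum_eq_zero_iff_of_nonneg fun i _ => hl i).1 (h.resolve_right hq) i (mem_univ i)

lemma simp_nrm {l : Fin q → ℝ} (hl : ∀ i, 0 ≤ l i) (h : avg l ≠ 0) : Simp (nrm l) :=
  ⟨fun i => div_nonneg (hl i) (avg_nonneg hl), by unfold nrm; rw [avg_div, div_self h]⟩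

lemma avg_mul_nrm {l : Fin q → ℝ} (hl : ∀ i, 0 ≤ l i) (i : Fin q) : avg l * nrm l i = l i := by
  by_cases h : avg l = 0
  · rw [h, zero_mul, eq_zero_of_avg hl h]
  · unfold nrm; field_simp

lemma nrm_simp {p : Fin q → ℝ} (hp : Simp p) : nrm p = p := by
  funext i; simp [nrm, hp.2]

lemma hom_simp (φ : (Fin q → ℝ) → ℝ) {p : Fin q → ℝ} (hp : Simp p) : hom φ p = φ p := by
  rw [hom_eq, nrm_simp hp, hp.2, one_mul]

/-- homogeneity (valid for every real `c`) -/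
lemma hom_smul (φ : (Fin q → ℝ) → ℝ) (c : ℝ) (l : Fin q → ℝ) :
    hom φ (fun i => c * l i) = c * hom φ l := by
  by_cases hc : c = 0
  · simp [hom, hc, avg]
  · unfold hom
    rw [avg_mul_left, mul_assoc]
    congr 3
    funext i
    exact mul_div_mul_left _ _ hc

lemma hom_le {φ φ' : (Fin q → ℝ) → ℝ} (h : ∀ p, Simp p → φ p ≤ φ' p) {l : Fin q → ℝ}
    (hl : ∀ i, 0 ≤ l i) : hom φ l ≤ hom φ' l := by
  rw [hom_eq, hom_eq]
  by_cases h0 : avg l = 0
  · simp [h0]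
  · exact mul_le_mul_of_nonneg_left (h _ (simp_nrm hl h0)) (avg_nonneg hl)

lemma abs_hom_le {φ : (Fin q → ℝ) → ℝ} {C : ℝ} (h : ∀ p, Simp p → |φ p| ≤ C) {l : Fin q → ℝ}
    (hl : ∀ i, 0 ≤ l i) : |hom φ l| ≤ C * avg l := by
  rw [hom_eq]
  by_cases h0 : avg l = 0
  · simp [h0]
  · rw [abs_mul, abs_of_nonneg (avg_nonneg hl), mul_comm]
    exact mul_le_mul_of_nonneg_right (h _ (simp_nrm hl h0)) (avg_nonneg hl)

lemma Simp.pos {p : Fin q → ℝ} (hp : Simp p) : 0 < q := by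
  rcases Nat.eq_zero_or_pos q with rfl | h
  · have := hp.2; simp [avg] at this
  · exact h

lemma Simp.le {p : Fin q → ℝ} (hp : Simp p) (i : Fin q) : p i ≤ q := by
  have hq : (0 : ℝ) < q := by exact_mod_cast hp.pos
  have h := hp.2
  rw [avg, div_eq_one_iff_eq hq.ne'] at h
  rw [← h]
  exact single_le_sum (fun i _ => hp.1 i) (mem_univ i)

lemma simp_one (hq : 0 < q) : Simp (fun _ : Fin q => (1 : ℝ)) :=
  ⟨fun _ => zero_le_one, avg_const hq 1⟩

lemma simp_vert (j : Fin q) : Simp (vert j) := by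
  have hq : (q : ℝ) ≠ 0 := by exact_mod_cast (Fin.pos j).ne'
  refine ⟨fun i => ?_, ?_⟩
  · unfold vert; split_ifs <;> positivity
  · simp [avg, vert, hq]

lemma chi_nonneg (p : Fin q → ℝ) : 0 ≤ chi p := avg_nonneg fun _ => sq_nonneg _

lemma abs_sub_one_le (hq : 2 ≤ q) {p : Fin q → ℝ} (hp : Simp p) (i : Fin q) :
    |p i - 1| ≤ (q : ℝ) - 1 := by
  have h1 := hp.1 i
  have h2 := hp.le i
  have h3 : (2 : ℝ) ≤ q := by exact_mod_cast hq
  rw [abs_le]; constructor <;> linarith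

lemma chi_le {p : Fin q → ℝ} (hp : Simp p) : chi p ≤ (q : ℝ) ^ 2 := by
  have h3 : (1 : ℝ) ≤ q := by exact_mod_cast hp.pos
  rw [← avg_const hp.pos ((q : ℝ) ^ 2)]
  refine avg_mono fun i => ?_
  have h1 := hp.1 i
  have h2 := hp.le i
  nlinarith

lemma chi_one : chi (fun _ : Fin q => (1 : ℝ)) = 0 := by simp [chi, avg]

lemma bdd_chi : Bdd (chi (q := q)) :=
  ⟨(q : ℝ) ^ 2, fun p hp => by rw [abs_of_nonneg (chi_nonneg p)]; exact chi_le hp⟩

lemma bdd_const (c : ℝ) : Bdd (fun _ : Fin q → ℝ => c) := ⟨|c|, fun _ _ => le_rfl⟩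

lemma Bdd.add {φ φ' : (Fin q → ℝ) → ℝ} (h : Bdd φ) (h' : Bdd φ') : Bdd fun p => φ p + φ' p := by
  obtain ⟨C, hC⟩ := h
  obtain ⟨C', hC'⟩ := h'
  exact ⟨C + C', fun p hp => (abs_add_le _ _).trans (add_le_add (hC p hp) (hC' p hp))⟩

lemma Bdd.mul {φ φ' : (Fin q → ℝ) → ℝ} (h : Bdd φ) (h' : Bdd φ') : Bdd fun p => φ p * φ' p := by
  obtain ⟨C, hC⟩ := h
  obtain ⟨C', hC'⟩ := h'
  refine ⟨C * C', fun p hp => ?_⟩
  rw [abs_mul]
  exact mul_le_mul (hC p hp) (hC' p hp) (abs_nonneg _) ((abs_nonneg _).trans (hC p hp))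

lemma Bdd.const_mul {φ : (Fin q → ℝ) → ℝ} (h : Bdd φ) (c : ℝ) : Bdd fun p => c * φ p :=
  (bdd_const c).mul h

lemma Bdd.neg {φ : (Fin q → ℝ) → ℝ} (h : Bdd φ) : Bdd fun p => -φ p := by
  simpa using h.const_mul (-1)

lemma Bdd.sub {φ φ' : (Fin q → ℝ) → ℝ} (h : Bdd φ) (h' : Bdd φ') : Bdd fun p => φ p - φ' p := by
  simpa [sub_eq_add_neg] using h.add h'.neg

lemma Bdd.sq {φ : (Fin q → ℝ) → ℝ} (h : Bdd φ) : Bdd fun p => φ p ^ 2 := by
  simpa [pow_two] using h.mul h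

section Exp

variable {Y Y' : Type} {L : Y → Fin q → ℝ} {L' : Y' → Fin q → ℝ}

lemma SymExp.hasSum_avg (hq : 0 < q) (hL : SymExp L) : HasSum (fun y => avg (L y)) 1 := by
  have h := (hasSum_sum (s := univ) fun i _ => hL.sum_one i).div_const (q : ℝ)
  have hq' : (q : ℝ) ≠ 0 := by exact_mod_cast hq.ne'
  simpa [avg, hq'] using h

lemma SymExp.summable_avg (hL : SymExp L) : Summable fun y => avg (L y) :=
  ((hasSum_sum (s := univ) fun i _ => hL.sum_one i).div_const (q : ℝ)).summable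

lemma SymExp.summable_hom (hL : SymExp L) {φ : (Fin q → ℝ) → ℝ} (hφ : Bdd φ) :
    Summable fun y => hom φ (L y) := by
  obtain ⟨C, hC⟩ := hφ
  exact Summable.of_norm_bounded (hL.summable_avg.mul_left C) fun y => abs_hom_le hC (hL.nonneg y)

lemma SymExp.hasSum_Ex (hL : SymExp L) {φ : (Fin q → ℝ) → ℝ} (hφ : Bdd φ) :
    HasSum (fun y => hom φ (L y)) (Ex φ L) := (hL.summable_hom hφ).hasSum

lemma SymExp.Ex_mono (hL : SymExp L) {φ φ' : (Fin q → ℝ) → ℝ} (hφ : Bdd φ) (hφ' : Bdd φ')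
    (h : ∀ p, Simp p → φ p ≤ φ' p) : Ex φ L ≤ Ex φ' L :=
  hasSum_le (fun y => hom_le h (hL.nonneg y)) (hL.hasSum_Ex hφ) (hL.hasSum_Ex hφ')

lemma SymExp.Ex_congr (hL : SymExp L) {φ φ' : (Fin q → ℝ) → ℝ}
    (h : ∀ p, Simp p → φ p = φ' p) : Ex φ L = Ex φ' L :=
  tsum_congr fun y => le_antisymm (hom_le (fun p hp => (h p hp).le) (hL.nonneg y))
    (hom_le (fun p hp => (h p hp).ge) (hL.nonneg y))

lemma Ex_const_mul (c : ℝ) (φ : (Fin q → ℝ) → ℝ) (L : Y → Fin q → ℝ) :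
    Ex (fun p => c * φ p) L = c * Ex φ L := by
  unfold Ex
  rw [← tsum_mul_left]
  exact tsum_congr fun y => by unfold hom; ring

lemma Ex_neg (φ : (Fin q → ℝ) → ℝ) (L : Y → Fin q → ℝ) : Ex (fun p => -φ p) L = -Ex φ L := by
  simpa using Ex_const_mul (-1) φ L

lemma SymExp.Ex_add (hL : SymExp L) {φ φ' : (Fin q → ℝ) → ℝ} (hφ : Bdd φ) (hφ' : Bdd φ') :
    Ex (fun p => φ p + φ' p) L = Ex φ L + Ex φ' L := by
  refine (hasSum_of_eq ((hL.hasSum_Ex hφ).add (hL.hasSum_Ex hφ')) fun y => ?_).tsum_eq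
  unfold hom; ring

lemma SymExp.Ex_sub (hL : SymExp L) {φ φ' : (Fin q → ℝ) → ℝ} (hφ : Bdd φ) (hφ' : Bdd φ') :
    Ex (fun p => φ p - φ' p) L = Ex φ L - Ex φ' L := by
  refine (hasSum_of_eq ((hL.hasSum_Ex hφ).sub (hL.hasSum_Ex hφ')) fun y => ?_).tsum_eq
  unfold hom; ring

lemma SymExp.Ex_const (hq : 0 < q) (hL : SymExp L) (c : ℝ) : Ex (fun _ => c) L = c := by
  refine HasSum.tsum_eq ?_
  simpa [hom] using (hL.hasSum_avg hq).mul_right c

lemma Ex_zero (L : Y → Fin q → ℝ) : Ex (fun _ => 0) L = 0 := by simp [Ex, hom]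

lemma SymExp.Ex_nonneg (hL : SymExp L) {φ : (Fin q → ℝ) → ℝ} (hφ : Bdd φ)
    (h : ∀ p, Simp p → 0 ≤ φ p) : 0 ≤ Ex φ L := by
  rw [← Ex_zero L]
  exact hL.Ex_mono (bdd_const 0) hφ h

lemma SymExp.abs_Ex_le (hq : 0 < q) (hL : SymExp L) {φ : (Fin q → ℝ) → ℝ} {C : ℝ}
    (h : ∀ p, Simp p → |φ p| ≤ C) : |Ex φ L| ≤ C := by
  rw [abs_le]
  constructor
  · rw [← hL.Ex_const hq (-C)]
    exact hL.Ex_mono (bdd_const _) ⟨C, h⟩ fun p hp => (abs_le.1 (h p hp)).1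
  · conv_rhs => rw [← hL.Ex_const hq C]
    exact hL.Ex_mono ⟨C, h⟩ (bdd_const _) fun p hp => (abs_le.1 (h p hp)).2

lemma Ex_equiv (e : Y' ≃ Y) (φ : (Fin q → ℝ) → ℝ) (L : Y → Fin q → ℝ) :
    Ex φ (fun y => L (e y)) = Ex φ L := e.tsum_eq fun y => hom φ (L y)

lemma SymExp.equiv (hL : SymExp L) (e : Y' ≃ Y) : SymExp fun y => L (e y) where
  nonneg y := hL.nonneg _
  sum_one i := (e.hasSum_iff (f := fun y => L y i)).2 (hL.sum_one i)
  symm σ := by
    obtain ⟨f, hf⟩ := hL.symm σ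
    exact ⟨e.trans (f.trans e.symm), fun y i => by simp [hf]⟩

/-- two independent observations -/
def star (L : Y → Fin q → ℝ) (L' : Y' → Fin q → ℝ) : Y × Y' → Fin q → ℝ :=
  fun y i => L y.1 i * L' y.2 i

lemma SymExp.star (hL : SymExp L) (hL' : SymExp L') : SymExp (star L L') where
  nonneg y i := mul_nonneg (hL.nonneg _ _) (hL'.nonneg _ _)
  sum_one i := by
    have := (hL.sum_one i).mul (hL'.sum_one i) ((hL.sum_one i).summable.mul_of_nonneg
      (hL'.sum_one i).summable (fun y => hL.nonneg y i) fun y => hL'.nonneg y i)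
    rwa [one_mul] at this
  symm σ := by
    obtain ⟨e, he⟩ := hL.symm σ
    obtain ⟨e', he'⟩ := hL'.symm σ
    exact ⟨e.prodCongr e', fun y i => by simp [P154.star, he, he']⟩

lemma hasSum_star (hL : SymExp L) (hL' : SymExp L') {φ : (Fin q → ℝ) → ℝ} (hφ : Bdd φ) :
    HasSum (fun y : Y × Y' => avg (L y.1) * avg (L' y.2) * Kop φ (nrm (L y.1)) (nrm (L' y.2)))
      (Ex φ (star L L')) := by
  have h1 : ∀ τ : Equiv.Perm (Fin q),
      HasSum (fun y : Y × Y' => hom φ fun i => L y.1 i * L' y.2 (τ i)) (Ex φ (star L L')) := by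
    intro τ
    obtain ⟨e, he⟩ := hL'.symm τ
    have := (((Equiv.refl Y).prodCongr e).hasSum_iff
      (f := fun y => hom φ (star L L' y))).2 ((hL.star hL').hasSum_Ex hφ)
    refine hasSum_of_eq this fun y => ?_
    simp only [Function.comp_apply, ← he]
    rfl
  have h2 := (hasSum_sum (s := univ) fun τ _ => h1 τ).div_const (q.factorial : ℝ)
  have hf : (q.factorial : ℝ) ≠ 0 := by positivity
  simp only [sum_const, card_univ, Fintype.card_perm, Fintype.card_fin, nsmul_eq_mul,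
    mul_div_cancel_left₀ _ hf] at h2
  refine hasSum_of_eq h2 fun y => ?_
  unfold Kop
  rw [← mul_div_assoc, mul_sum]
  congr 1
  refine sum_congr rfl fun τ _ => ?_
  rw [← hom_smul]
  congr 1
  funext i
  rw [← avg_mul_nrm (hL.nonneg y.1) i, ← avg_mul_nrm (hL'.nonneg y.2) (τ i)]
  generalize nrm (L y.1) i = a
  generalize nrm (L' y.2) (τ i) = b
  ring

lemma hasSum_hom_mul (hL : SymExp L) (hL' : SymExp L') {u v : (Fin q → ℝ) → ℝ} (hu : Bdd u)
    (hv : Bdd v) :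
    HasSum (fun y : Y × Y' => hom u (L y.1) * hom v (L' y.2)) (Ex u L * Ex v L') :=
  (hL.hasSum_Ex hu).mul (hL'.hasSum_Ex hv)
    (summable_mul_of_summable_norm (hL.summable_hom hu).norm (hL'.summable_hom hv).norm)

/-- STAR lemma, upper bound -/
lemma Ex_star_le (hL : SymExp L) (hL' : SymExp L') {φ : (Fin q → ℝ) → ℝ} (hφ : Bdd φ)
    {ι : Type} (s : Finset ι) (u v : ι → (Fin q → ℝ) → ℝ) (hu : ∀ l ∈ s, Bdd (u l))
    (hv : ∀ l ∈ s, Bdd (v l))
    (h : ∀ p r, Simp p → Simp r → Kop φ p r ≤ ∑ l ∈ s, u l p * v l r) :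
    Ex φ (star L L') ≤ ∑ l ∈ s, Ex (u l) L * Ex (v l) L' := by
  refine hasSum_le (fun y => ?_) (hasSum_star hL hL' hφ)
    (hasSum_sum fun l hl => hasSum_hom_mul hL hL' (hu l hl) (hv l hl))
  have e : ∑ l ∈ s, hom (u l) (L y.1) * hom (v l) (L' y.2) =
      avg (L y.1) * avg (L' y.2) * ∑ l ∈ s, u l (nrm (L y.1)) * v l (nrm (L' y.2)) := by
    rw [mul_sum]
    exact sum_congr rfl fun l _ => by rw [hom_eq, hom_eq]; ring
  rw [e]
  by_cases h1 : avg (L y.1) = 0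
  · simp [h1]
  by_cases h2 : avg (L' y.2) = 0
  · simp [h2]
  exact mul_le_mul_of_nonneg_left (h _ _ (simp_nrm (hL.nonneg _) h1) (simp_nrm (hL'.nonneg _) h2))
    (mul_nonneg (avg_nonneg (hL.nonneg _)) (avg_nonneg (hL'.nonneg _)))

/-- STAR lemma, lower bound -/
lemma Ex_star_ge (hL : SymExp L) (hL' : SymExp L') {φ : (Fin q → ℝ) → ℝ} (hφ : Bdd φ)
    {ι : Type} (s : Finset ι) (u v : ι → (Fin q → ℝ) → ℝ) (hu : ∀ l ∈ s, Bdd (u l))
    (hv : ∀ l ∈ s, Bdd (v l))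
    (h : ∀ p r, Simp p → Simp r → ∑ l ∈ s, u l p * v l r ≤ Kop φ p r) :
    ∑ l ∈ s, Ex (u l) L * Ex (v l) L' ≤ Ex φ (star L L') := by
  refine hasSum_le (fun y => ?_)
    (hasSum_sum fun l hl => hasSum_hom_mul hL hL' (hu l hl) (hv l hl)) (hasSum_star hL hL' hφ)
  have e : ∑ l ∈ s, hom (u l) (L y.1) * hom (v l) (L' y.2) =
      avg (L y.1) * avg (L' y.2) * ∑ l ∈ s, u l (nrm (L y.1)) * v l (nrm (L' y.2)) := by
    rw [mul_sum]
    exact sum_congr rfl fun l _ => by rw [hom_eq, hom_eq]; ring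
  rw [e]
  by_cases h1 : avg (L y.1) = 0
  · simp [h1]
  by_cases h2 : avg (L' y.2) = 0
  · simp [h2]
  exact mul_le_mul_of_nonneg_left (h _ _ (simp_nrm (hL.nonneg _) h1) (simp_nrm (hL'.nonneg _) h2))
    (mul_nonneg (avg_nonneg (hL.nonneg _)) (avg_nonneg (hL'.nonneg _)))

/-- the experiment seen through one Potts edge -/
noncomputable def chanExp (lam : ℝ) (L : Y → Fin q → ℝ) : Y → Fin q → ℝ :=
  fun y i => ∑ j, potts q lam i j * L y j

lemma sum_potts_mul (lam : ℝ) (l : Fin q → ℝ) (i : Fin q) :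
    ∑ j, potts q lam i j * l j = lam * l i + (1 - lam) * avg l := by
  simp only [potts, add_mul, sum_add_distrib, ite_mul, zero_mul, sum_ite_eq, mem_univ, if_true,
    ← mul_sum, avg]
  ring

lemma chanExp_eq (lam : ℝ) (L : Y → Fin q → ℝ) (y : Y) (i : Fin q) :
    chanExp lam L y i = lam * L y i + (1 - lam) * avg (L y) := sum_potts_mul lam (L y) i

lemma potts_nonneg (hq : 2 ≤ q) {lam : ℝ} (h0 : -1 / ((q : ℝ) - 1) ≤ lam) (h1 : lam ≤ 1)
    (i j : Fin q) : 0 ≤ potts q lam i j := by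
  have h2 : (2 : ℝ) ≤ q := by exact_mod_cast hq
  unfold potts
  split_ifs
  · rw [div_le_iff₀ (by linarith)] at h0
    rw [add_div' _ _ _ (by linarith)]
    exact div_nonneg (by linarith) (by linarith)
  · rw [zero_add]
    exact div_nonneg (by linarith) (by linarith)

lemma avg_chanExp (hq : 0 < q) (lam : ℝ) (L : Y → Fin q → ℝ) (y : Y) :
    avg (chanExp lam L y) = avg (L y) := by
  have : chanExp lam L y = fun i => lam * L y i + (1 - lam) * avg (L y) :=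
    funext (chanExp_eq lam L y)
  rw [this, avg_add, avg_mul_left, avg_const hq]
  ring

lemma SymExp.chanExp (hq : 2 ≤ q) {lam : ℝ} (h0 : -1 / ((q : ℝ) - 1) ≤ lam) (h1 : lam ≤ 1)
    (hL : SymExp L) : SymExp (chanExp lam L) where
  nonneg y i := sum_nonneg fun j _ => mul_nonneg (potts_nonneg hq h0 h1 i j) (hL.nonneg y j)
  sum_one i := by
    simp only [chanExp_eq]
    have := ((hL.sum_one i).mul_left lam).add ((hL.hasSum_avg (by omega)).mul_left (1 - lam))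
    rwa [show lam * 1 + (1 - lam) * 1 = 1 by ring] at this
  symm σ := by
    obtain ⟨e, he⟩ := hL.symm σ
    refine ⟨e, fun y i => ?_⟩
    have : L (e y) = fun i => L y (σ i) := funext (he y)
    rw [chanExp_eq, chanExp_eq, this, avg_perm]

lemma simp_chan (hq : 2 ≤ q) {lam : ℝ} (h0 : -1 / ((q : ℝ) - 1) ≤ lam) (h1 : lam ≤ 1)
    {p : Fin q → ℝ} (hp : Simp p) : Simp (chan lam p) := by
  constructor
  · intro i
    have := sum_potts_mul lam p i
    rw [hp.2, mul_one] at this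
    unfold chan
    rw [← this]
    exact sum_nonneg fun j _ => mul_nonneg (potts_nonneg hq h0 h1 i j) (hp.1 j)
  · unfold chan
    rw [avg_add, avg_mul_left, avg_const hp.pos, hp.2]
    ring

lemma Bdd.chan (hq : 2 ≤ q) {lam : ℝ} (h0 : -1 / ((q : ℝ) - 1) ≤ lam) (h1 : lam ≤ 1)
    {φ : (Fin q → ℝ) → ℝ} (hφ : Bdd φ) : Bdd fun p => φ (chan lam p) := by
  obtain ⟨C, hC⟩ := hφ
  exact ⟨C, fun p hp => hC _ (simp_chan hq h0 h1 hp)⟩

lemma Ex_chanExp (hq : 0 < q) (lam : ℝ) (φ : (Fin q → ℝ) → ℝ) (L : Y → Fin q → ℝ) :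
    Ex φ (chanExp lam L) = Ex (fun p => φ (chan lam p)) L := by
  refine tsum_congr fun y => ?_
  unfold hom
  rw [avg_chanExp hq]
  by_cases h : avg (L y) = 0
  · simp [h]
  congr 2
  funext i
  rw [chanExp_eq]
  unfold chan
  field_simp

lemma chi_chan (lam : ℝ) (p : Fin q → ℝ) : chi (chan lam p) = lam ^ 2 * chi p := by
  unfold chi chan
  rw [← avg_mul_left]
  congr 1
  funext i
  ring

lemma Ex_chi_chanExp (hq : 0 < q) (lam : ℝ) (L : Y → Fin q → ℝ) :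
    Ex chi (chanExp lam L) = lam ^ 2 * Ex chi L := by
  rw [Ex_chanExp hq, ← Ex_const_mul]
  simp only [chi_chan]

/-- `k` independent observations -/
def pw (L : Y → Fin q → ℝ) (k : ℕ) : (Fin k → Y) → Fin q → ℝ := fun ys i => ∏ a, L (ys a) i

lemma Ex_pw_zero (hq : 0 < q) (φ : (Fin q → ℝ) → ℝ) (L : Y → Fin q → ℝ) :
    Ex φ (pw L 0) = φ fun _ => 1 := by
  unfold Ex
  rw [tsum_fintype, Fintype.sum_unique]
  exact hom_simp φ (p := fun _ => 1) (simp_one hq)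

lemma pw_succ (L : Y → Fin q → ℝ) (k : ℕ) :
    pw L (k + 1) = fun ys => star (pw L k) L
      ((((Fin.consEquiv fun _ => Y).symm).trans (Equiv.prodComm _ _)) ys) := by
  funext ys i
  simp [pw, star, Fin.prod_univ_succ, Fin.tail, mul_comm]

lemma Ex_pw_succ (φ : (Fin q → ℝ) → ℝ) (L : Y → Fin q → ℝ) (k : ℕ) :
    Ex φ (pw L (k + 1)) = Ex φ (star (pw L k) L) := by
  rw [pw_succ, Ex_equiv]

lemma Ex_pw_one (φ : (Fin q → ℝ) → ℝ) (L : Y → Fin q → ℝ) : Ex φ (pw L 1) = Ex φ L := by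
  rw [← Ex_equiv (Equiv.funUnique (Fin 1) Y) φ L]
  congr 1
  funext ys i
  simp [pw]

lemma SymExp.pw (hL : SymExp L) (k : ℕ) : SymExp (pw L k) := by
  induction k with
  | zero =>
    refine ⟨fun _ _ => by simp [P154.pw], fun i => ?_, fun σ => ⟨Equiv.refl _, fun _ _ => rfl⟩⟩
    simp [P154.pw]
  | succ k ih =>
    rw [pw_succ]
    exact (ih.star hL).equiv _

/-- mixture over the number of children -/
def mix (ν : ℕ → ℝ) (L : Y → Fin q → ℝ) : (Σ k, Fin k → Y) → Fin q → ℝ :=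
  fun x i => ν x.1 * pw L x.1 x.2 i

lemma SymExp.mix {ν : ℕ → ℝ} (hν : ∀ k, 0 ≤ ν k) (hν1 : HasSum ν 1) (hL : SymExp L) :
    SymExp (mix ν L) where
  nonneg x i := mul_nonneg (hν _) ((hL.pw _).nonneg _ _)
  sum_one i := by
    have h1 : ∀ k, HasSum (fun ys => P154.mix ν L ⟨k, ys⟩ i) (ν k) := fun k => by
      simpa [P154.mix] using ((hL.pw k).sum_one i).mul_left (ν k)
    refine HasSum.sigma_of_hasSum hν1 h1 ((summable_sigma_of_nonneg fun x =>
      mul_nonneg (hν _) ((hL.pw _).nonneg _ _)).2 ⟨fun k => (h1 k).summable, ?_⟩)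
    exact hν1.summable.congr fun k => (h1 k).tsum_eq.symm
  symm σ := by
    choose e he using fun k => (hL.pw k).symm σ
    exact ⟨Equiv.sigmaCongrRight e, fun x i => congrArg (ν x.1 * ·) (he x.1 x.2 i)⟩

lemma hasSum_mix {ν : ℕ → ℝ} (hν : ∀ k, 0 ≤ ν k) (hν1 : HasSum ν 1) (hL : SymExp L)
    {φ : (Fin q → ℝ) → ℝ} (hφ : Bdd φ) :
    HasSum (fun k => ν k * Ex φ (pw L k)) (Ex φ (mix ν L)) := by
  refine ((hL.mix hν hν1).hasSum_Ex hφ).sigma fun k => ?_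
  exact hasSum_of_eq (((hL.pw k).hasSum_Ex hφ).mul_left (ν k)) fun ys => hom_smul φ _ _

end Exp

lemma lik_succ (ν : ℕ → ℝ) (lam : ℝ) (n : ℕ) :
    lik q ν lam (n + 1) = fun ys : List (Obs q n) =>
      mix ν (chanExp lam (lik q ν lam n)) (List.equivSigmaTuple ys) := by
  funext ys i
  change List (Obs q n) at ys
  obtain ⟨⟨k, f⟩, rfl⟩ := List.equivSigmaTuple.symm.surjective ys
  rw [Equiv.apply_symm_apply]
  simp only [lik, mix, pw, chanExp, List.equivSigmaTuple_symm_apply, List.length_ofFn,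
    List.map_ofFn, List.prod_ofFn, Function.comp_apply]

lemma symExp_lik_zero (ν : ℕ → ℝ) (lam : ℝ) : SymExp (lik q ν lam 0) where
  nonneg y i := by unfold lik; split_ifs <;> norm_num
  sum_one i := hasSum_ite_eq (β := Fin q) i (1 : ℝ)
  symm σ := ⟨σ.symm, fun (y : Fin q) i => if_congr (Equiv.symm_apply_eq σ) rfl rfl⟩

lemma symExp_lik (hq : 2 ≤ q) {lam : ℝ} (h0 : -1 / ((q : ℝ) - 1) ≤ lam) (h1 : lam ≤ 1)
    {ν : ℕ → ℝ} (hν : ∀ k, 0 ≤ ν k) (hν1 : HasSum ν 1) (n : ℕ) : SymExp (lik q ν lam n) := by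
  induction n with
  | zero => exact symExp_lik_zero ν lam
  | succ n ih =>
    rw [lik_succ]
    exact ((ih.chanExp hq h0 h1).mix hν hν1).equiv _

/-- TREE STEP -/
lemma hasSum_tree_step (hq : 2 ≤ q) {lam : ℝ} (h0 : -1 / ((q : ℝ) - 1) ≤ lam) (h1 : lam ≤ 1)
    {ν : ℕ → ℝ} (hν : ∀ k, 0 ≤ ν k) (hν1 : HasSum ν 1) (n : ℕ) {φ : (Fin q → ℝ) → ℝ}
    (hφ : Bdd φ) :
    HasSum (fun k => ν k * Ex φ (pw (chanExp lam (lik q ν lam n)) k))
      (Ex φ (lik q ν lam (n + 1))) := by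
  have h := hasSum_mix hν hν1 ((symExp_lik hq h0 h1 hν hν1 n).chanExp hq h0 h1) hφ
  rw [← Ex_equiv List.equivSigmaTuple] at h
  rw [lik_succ]
  exact h

lemma Ex_lik_zero (ν : ℕ → ℝ) (lam : ℝ) (φ : (Fin q → ℝ) → ℝ) :
    Ex φ (lik q ν lam 0) = avg fun j => φ (vert j) := by
  change ∑' y : Fin q, hom φ (lik q ν lam 0 y) = _
  rw [tsum_fintype, avg, sum_div]
  refine sum_congr rfl fun j _ => ?_
  have hq : (q : ℝ) ≠ 0 := by exact_mod_cast (Fin.pos j).ne'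
  have : lik q ν lam 0 j = fun i => (1 / q : ℝ) * vert j i := by
    funext i
    simp only [lik, vert]
    split_ifs <;> simp [hq]
  rw [this, hom_smul, hom_simp φ (simp_vert j)]
  ring

/-- total variation distance to the uniform law -/
noncomputable def tv (p : Fin q → ℝ) : ℝ := (1 / 2) * avg fun i => |p i - 1|

lemma bdd_tv (hq : 2 ≤ q) : Bdd (tv (q := q)) := by
  refine ⟨(1 / 2) * ((q : ℝ) - 1), fun p hp => ?_⟩
  have h1 : 0 ≤ avg fun i => |p i - 1| := avg_nonneg fun _ => abs_nonneg _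
  have h2 : (avg fun i => |p i - 1|) ≤ (q : ℝ) - 1 := by
    rw [← avg_const hp.pos ((q : ℝ) - 1)]
    exact avg_mono (abs_sub_one_le hq hp)
  unfold tv
  rw [abs_of_nonneg (by positivity)]
  linarith

lemma adv_eq (hq : 0 < q) (ν : ℕ → ℝ) (lam : ℝ) (n : ℕ) :
    adv q ν lam n = Ex tv (lik q ν lam n) := by
  have hq' : (0 : ℝ) < q := by exact_mod_cast hq
  refine tsum_congr fun y => ?_
  have h1 : marg q ν lam n y = avg (lik q ν lam n y) := by
    simp only [marg, avg, ← mul_sum]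
    ring
  simp only [post, h1, hom, tv]
  congr 2
  generalize avg (lik q ν lam n y) = A
  rw [avg, sum_div]
  refine sum_congr rfl fun i _ => ?_
  rw [show 1 / (q : ℝ) * lik q ν lam n y i / A - 1 / q = (lik q ν lam n y i / A - 1) / q by ring,
    abs_div, abs_of_pos hq']

lemma adv_eq' (hq : 0 < q) (ν : ℕ → ℝ) (lam : ℝ) (n : ℕ) :
    adv q ν lam n = Ex (fun p => (1 / 2) * avg fun i => |p i - 1|) (lik q ν lam n) :=
  adv_eq hq ν lam n

section

variable (hq : 2 ≤ q) {lam : ℝ} (h0 : -1 / ((q : ℝ) - 1) ≤ lam) (h1 : lam ≤ 1)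
  {ν : ℕ → ℝ} (hν : ∀ k, 0 ≤ ν k) (hν1 : HasSum ν 1) (n : ℕ)
include hq h0 h1 hν hν1

lemma adv_nonneg : 0 ≤ adv q ν lam n := by
  rw [adv_eq (by omega)]
  exact (symExp_lik hq h0 h1 hν hν1 n).Ex_nonneg (bdd_tv hq) fun p _ =>
    mul_nonneg (by norm_num) (avg_nonneg fun _ => abs_nonneg _)

lemma adv_le {ε : ℝ} (hε : 0 < ε) :
    adv q ν lam n ≤ (ε + Ex chi (lik q ν lam n) / ε) / 4 := by
  have hL := symExp_lik hq h0 h1 hν hν1 n
  have e : (ε + Ex chi (lik q ν lam n) / ε) / 4 =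
      Ex (fun p => ε / 4 + (1 / (4 * ε)) * chi p) (lik q ν lam n) := by
    rw [hL.Ex_add (bdd_const _) (bdd_chi.const_mul _), hL.Ex_const (by omega), Ex_const_mul]
    field_simp
  rw [adv_eq (by omega), e]
  refine hL.Ex_mono (bdd_tv hq) ((bdd_const _).add (bdd_chi.const_mul _)) fun p hp => ?_
  unfold tv chi
  rw [← avg_mul_left, ← avg_mul_left, ← avg_const hp.pos (ε / 4), ← avg_add]
  refine avg_mono fun i => ?_
  have h2 : 0 ≤ (|p i - 1| - ε) ^ 2 / (4 * ε) := by positivity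
  have h3 : (|p i - 1| - ε) ^ 2 / (4 * ε) =
      ε / 4 + 1 / (4 * ε) * (p i - 1) ^ 2 - 1 / 2 * |p i - 1| := by
    rw [← sq_abs (p i - 1)]
    field_simp
    ring
  linarith

lemma adv_ge : Ex chi (lik q ν lam n) / (2 * ((q : ℝ) - 1)) ≤ adv q ν lam n := by
  have hL := symExp_lik hq h0 h1 hν hν1 n
  have h2 : (2 : ℝ) ≤ q := by exact_mod_cast hq
  rw [adv_eq (by omega), div_le_iff₀' (by linarith), ← Ex_const_mul]
  refine hL.Ex_mono bdd_chi ((bdd_tv hq).const_mul _) fun p hp => ?_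
  unfold tv chi
  rw [← avg_mul_left, ← avg_mul_left]
  refine avg_mono fun i => ?_
  have h3 := abs_sub_one_le hq hp i
  rw [← sq_abs]
  nlinarith [abs_nonneg (p i - 1)]

end

end Vale.Agent.P154
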