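import Vale.Agent.P154.Feat
import Vale.Agent.P154.Core

/-! Covering the positive orthant by cells, symmetry of the features. -/

namespace Vale.Agent.P154

open Finset

inductive Tr where
  | leaf : Tr
  | node (i j a b : ℕ) (l r : Tr) : Tr

noncomputable def newV (q : ℕ) (c : Cell) (i j a b : ℕ) : List ℕ :=
  (List.range q).map fun t => a * vtx c i t + b * vtx c j t

noncomputable def cellsOf (q : ℕ) : Tr → Cell → List Cell
  | .leaf, c => [c]
  | .node i j a b l r, c =>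
      cellsOf q l (c.set j (newV q c i j a b)) ++ cellsOf q r (c.set i (newV q c i j a b))

def okTr : Tr → Bool
  | .leaf => true
  | .node i j a b l r => decide (i < 4) && decide (j < 4) && decide (i ≠ j) && decide (0 < a)
      && decide (0 < b) && okTr l && okTr r

lemma vtx_set {q : ℕ} {c : Cell} (hc : c.length = 4) {j : ℕ} (hj : j < 4) (i i' a b v t : ℕ)
    (ht : t < q) : vtx (c.set j (newV q c i i' a b)) v t
      = if v = j then a * vtx c i t + b * vtx c i' t else vtx c v t := by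
  unfold vtx
  rw [nth_eq [] (c.set j _)]
  split_ifs with h
  · subst h
    have : (c.set v (newV q c i i' a b)).getD v [] = newV q c i i' a b := by
      simp [List.getD_eq_getElem?_getD, hc, hj]
    rw [this, nth_eq]
    simp [newV, List.getD_eq_getElem?_getD, ht, vtx]
  · rw [nth_eq [] c]
    congr 1
    simp [List.getD_eq_getElem?_getD, List.getElem?_set_ne (Ne.symm h)]

lemma pt_eq (c : Cell) (x : Fin 4 → ℝ) (t : ℕ) : pt c x t = ∑ v : Fin 4, (vtx c v t : ℝ) * x v := by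
  simp [pt, Fin.sum_univ_four]

lemma split_step {q : ℕ} {c : Cell} (hc : c.length = 4) (i j : Fin 4) (hij : i ≠ j) (a b : ℕ)
    (hb : 0 < b) {x : Fin 4 → ℝ} (hx : ∀ v, 0 ≤ x v) (h : a * x j ≤ b * x i) (N : List ℕ)
    (hN : ∀ v t, t < q → vtx (c.set j N) v t
      = if v = j then a * vtx c i t + b * vtx c j t else vtx c v t) :
    ∃ y : Fin 4 → ℝ, (∀ v, 0 ≤ y v) ∧ ∀ t < q, pt (c.set j N) y t = pt c x t := by
  have hb' : (0 : ℝ) < b := by exact_mod_cast hb
  refine ⟨fun v => if v = j then x j / b else if v = i then x i - a * x j / b else x v, ?_, ?_⟩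
  · intro v
    beta_reduce
    split_ifs
    · exact div_nonneg (hx _) hb'.le
    · rw [sub_nonneg, div_le_iff₀ hb']; linarith
    · exact hx _
  · intro t ht
    simp only [pt_eq, hN _ t ht]
    have e : ∀ v : Fin 4, ((if (v : ℕ) = j then a * vtx c i t + b * vtx c j t else vtx c v t : ℕ) : ℝ)
        * (if v = j then x j / b else if v = i then x i - a * x j / b else x v)
        = (vtx c v t : ℝ) * x v + (if v = j then a * vtx c i t * (x j / b) else 0)
          - (if v = i then a * vtx c i t * (x j / b) else 0) := by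
      intro v
      by_cases h1 : v = j
      · subst h1
        simp only [if_true, if_neg (Ne.symm hij)]
        push_cast; field_simp; ring
      · have : (v : ℕ) ≠ j := fun h => h1 (Fin.ext h)
        simp only [if_neg h1, if_neg this]
        by_cases h2 : v = i
        · subst h2; simp only [if_true]; ring
        · simp only [if_neg h2]; ring
    simp only [e, sum_sub_distrib, sum_add_distrib, sum_ite_eq', mem_univ, if_true]
    ring

lemma cover (q : ℕ) (tr : Tr) (h : okTr tr = true) (c : Cell) (hc : c.length = 4)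
    (x : Fin 4 → ℝ) (hx : ∀ v, 0 ≤ x v) :
    ∃ c' ∈ cellsOf q tr c, ∃ y : Fin 4 → ℝ, (∀ v, 0 ≤ y v) ∧ ∀ t < q, pt c' y t = pt c x t := by
  induction tr generalizing c x with
  | leaf => exact ⟨c, by simp [cellsOf], x, hx, fun _ _ => rfl⟩
  | node i j a b l r ihl ihr =>
    simp only [okTr, Bool.and_eq_true, decide_eq_true_eq] at h
    obtain ⟨⟨⟨⟨⟨⟨hi, hj⟩, hij⟩, ha⟩, hb⟩, hl⟩, hr⟩ := h
    rcases le_total (a * x ⟨j, hj⟩) (b * x ⟨i, hi⟩) with h | h
    · obtain ⟨y, hy, e⟩ := split_step (q := q) hc ⟨i, hi⟩ ⟨j, hj⟩ (by simpa using hij) a b hb hx h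
        (newV q c i j a b) fun v t ht => vtx_set hc hj i j a b v t ht
      obtain ⟨c', hc', z, hz, e'⟩ := ihl hl (c.set j (newV q c i j a b)) (by simpa using hc) y hy
      exact ⟨c', by simp [cellsOf, hc'], z, hz, fun t ht => (e' t ht).trans (e t ht)⟩
    · obtain ⟨y, hy, e⟩ := split_step (q := q) hc ⟨j, hj⟩ ⟨i, hi⟩ (by simpa using hij.symm) b a ha hx h
        (newV q c i j a b) fun v t ht => by rw [vtx_set hc hi i j a b v t ht, add_comm]
      obtain ⟨c', hc', z, hz, e'⟩ := ihr hr (c.set i (newV q c i j a b)) (by simpa using hc) y hy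
      exact ⟨c', by simp [cellsOf, hc'], z, hz, fun t ht => (e' t ht).trans (e t ht)⟩

variable {q : ℕ}

def ext (p : Fin q → ℝ) (i : ℕ) : ℝ := if h : i < q then p ⟨i, h⟩ else 0

@[simp] lemma ext_val (p : Fin q → ℝ) (i : Fin q) : ext p i = p i := by simp [ext]

/-- every nonnegative vector lies, after a permutation, in one of the cells -/
def Covers (q : ℕ) (cells : List Cell) : Prop :=
  ∀ p : Fin q → ℝ, (∀ i, 0 ≤ p i) → ∃ σ : Equiv.Perm (Fin q), ∃ c ∈ cells, ∃ x : Fin 4 → ℝ,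
    (∀ v, 0 ≤ x v) ∧ ∀ i : Fin q, pt c x i = p (σ i)

def root4 : Cell := [[1, 1, 1, 1], [0, 1, 1, 1], [0, 0, 1, 1], [0, 0, 0, 1]]
def root3 : Cell := [[1, 1, 1], [0, 1, 1], [0, 0, 1], [0, 0, 0]]

lemma covers_of_root {root : Cell} (h0 : Covers q [root]) (hl : root.length = 4) (tr : Tr)
    (h : okTr tr = true) : Covers q (cellsOf q tr root) := by
  intro p hp
  obtain ⟨σ, c, hc, x, hx, e⟩ := h0 p hp
  obtain rfl : c = root := by simpa using hc
  obtain ⟨c', hc', y, hy, e'⟩ := cover q tr h c hl x hx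
  exact ⟨σ, c', hc', y, hy, fun i => (e' i i.2).trans (e i)⟩

lemma covers_root4 : Covers 4 [root4] := by
  intro p hp
  have hm := Tuple.monotone_sort p
  set σ := Tuple.sort p
  have h01 : p (σ 0) ≤ p (σ 1) := hm (by decide)
  have h12 : p (σ 1) ≤ p (σ 2) := hm (by decide)
  have h23 : p (σ 2) ≤ p (σ 3) := hm (by decide)
  refine ⟨σ, root4, by simp, ![p (σ 0), p (σ 1) - p (σ 0), p (σ 2) - p (σ 1), p (σ 3) - p (σ 2)],
    ?_, ?_⟩
  · intro v; fin_cases v <;> simp [hp, *]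
  · intro i; fin_cases i <;> simp [pt, vtx, nth_eq, root4]

lemma covers_root3 : Covers 3 [root3] := by
  intro p hp
  have hm := Tuple.monotone_sort p
  set σ := Tuple.sort p
  have h01 : p (σ 0) ≤ p (σ 1) := hm (by decide)
  have h12 : p (σ 1) ≤ p (σ 2) := hm (by decide)
  refine ⟨σ, root3, by simp, ![p (σ 0), p (σ 1) - p (σ 0), p (σ 2) - p (σ 1), 0], ?_, ?_⟩
  · intro v; fin_cases v <;> simp [hp, *]
  · intro i; fin_cases i <;> simp [pt, vtx, nth_eq, root3]

/-! ### permutation tables -/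

def PermTbl (q : ℕ) (tbl : List (List ℕ)) : Prop :=
  (univ : Finset (Equiv.Perm (Fin q))).val.map (fun σ => List.ofFn fun i => (σ i : ℕ))
    = (tbl : Multiset (List ℕ))

def tbl3 : List (List ℕ) := [[0, 1, 2], [0, 2, 1], [1, 0, 2], [1, 2, 0], [2, 0, 1], [2, 1, 0]]
def tbl4 : List (List ℕ) :=
  [[0, 1, 2, 3], [0, 1, 3, 2], [0, 2, 1, 3], [0, 2, 3, 1], [0, 3, 1, 2], [0, 3, 2, 1],
   [1, 0, 2, 3], [1, 0, 3, 2], [1, 2, 0, 3], [1, 2, 3, 0], [1, 3, 0, 2], [1, 3, 2, 0],
   [2, 0, 1, 3], [2, 0, 3, 1], [2, 1, 0, 3], [2, 1, 3, 0], [2, 3, 0, 1], [2, 3, 1, 0],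
   [3, 0, 1, 2], [3, 0, 2, 1], [3, 1, 0, 2], [3, 1, 2, 0], [3, 2, 0, 1], [3, 2, 1, 0]]

lemma permTbl3 : PermTbl 3 tbl3 := by unfold PermTbl; decide +kernel
lemma permTbl4 : PermTbl 4 tbl4 := by unfold PermTbl; decide +kernel

lemma PermTbl.ok {tbl : List (List ℕ)} (h : PermTbl q tbl) : OkTbl q tbl := by
  intro s hs
  have : s ∈ (tbl : Multiset (List ℕ)) := by simpa using hs
  rw [← h, Multiset.mem_map] at this
  obtain ⟨σ, -, rfl⟩ := this
  refine ⟨by simp, fun i hi => ?_⟩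
  obtain ⟨j, rfl⟩ := List.mem_ofFn.1 hi
  exact (σ j).2

lemma PermTbl.sum {tbl : List (List ℕ)} (h : PermTbl q tbl) (g : List ℕ → ℝ) :
    (tbl.map g).sum = ∑ σ : Equiv.Perm (Fin q), g (List.ofFn fun i => (σ i : ℕ)) := by
  have := congrArg (fun m : Multiset (List ℕ) => (m.map g).sum) h
  simp only [Multiset.map_map, Multiset.map_coe, Multiset.sum_coe] at this
  rw [← this]; rfl

noncomputable def Ms (ν : List ℕ) (p : Fin q → ℝ) : ℝ :=
  ∑ σ : Equiv.Perm (Fin q), ∏ i : Fin q, p (σ i) ^ ν.getD i 0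

lemma msR_eq {tbl : List (List ℕ)} (h : PermTbl q tbl) {ν : List ℕ} (hν : ν.length = q)
    {f : ℕ → ℝ} {p : Fin q → ℝ} (e : ∀ i : Fin q, f i = p i) : msR tbl ν f = Ms ν p := by
  unfold msR Ms
  rw [h.sum]
  refine sum_congr rfl fun σ _ => ?_
  rw [← List.prod_ofFn]
  congr 1
  apply List.ext_getElem
  · simp [hν]
  · intro i h1 h2
    have hi : i < ν.length := by simp at h2; omega
    simp [e, List.getD_eq_getElem?_getD, hi]

lemma Ms_perm (ν : List ℕ) (p : Fin q → ℝ) (τ : Equiv.Perm (Fin q)) :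
    Ms ν (fun i => p (τ i)) = Ms ν p := by
  unfold Ms
  exact Equiv.sum_comp (Equiv.mulLeft τ) fun σ => ∏ i : Fin q, p (σ i) ^ ν.getD i 0

lemma Ms_smul {ν : List ℕ} (hν : ν.length = q) (W : ℝ) (p : Fin q → ℝ) :
    Ms ν (fun i => W * p i) = W ^ ν.sum * Ms ν p := by
  unfold Ms
  rw [mul_sum]
  refine sum_congr rfl fun σ _ => ?_
  simp only [mul_pow, prod_mul_distrib, prod_pow_eq_pow_sum]
  congr 2
  subst hν
  rw [← List.sum_ofFn]
  congr 1
  apply List.ext_getElem <;> simp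

lemma Ms_avg (ν : List ℕ) (p r : Fin q → ℝ) :
    ∑ τ : Equiv.Perm (Fin q), Ms ν (fun i => p i * r (τ i)) = Ms ν p * Ms ν r := by
  unfold Ms
  rw [sum_comm, sum_mul]
  refine sum_congr rfl fun σ _ => ?_
  simp only [mul_pow, prod_mul_distrib]
  rw [← mul_sum]
  congr 1
  exact Equiv.sum_comp (Equiv.mulRight σ) fun τ => ∏ i : Fin q, r (τ i) ^ ν.getD i 0

lemma sumR_eq {f : ℕ → ℝ} {p : Fin q → ℝ} (σ : Equiv.Perm (Fin q)) (e : ∀ i : Fin q, f i = p (σ i)) :
    sumR q f = ∑ i, p i := by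
  unfold sumR
  rw [← Fin.sum_univ_eq_sum_range]
  simp only [e]
  exact Equiv.sum_comp σ p

lemma psum_eq {f : ℕ → ℝ} {p : Fin q → ℝ} (σ : Equiv.Perm (Fin q)) (e : ∀ i : Fin q, f i = p (σ i))
    (k : ℕ) : psum q k f = ∑ i, (q * p i - ∑ j, p j) ^ k := by
  unfold psum
  rw [sumR_eq σ e, ← Fin.sum_univ_eq_sum_range (fun i => (q * f i - ∑ j, p j) ^ k)]
  simp only [e]
  exact Equiv.sum_comp σ fun i => (q * p i - ∑ j, p j) ^ k

lemma peR_perm {f : ℕ → ℝ} {p : Fin q → ℝ} (σ : Equiv.Perm (Fin q))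
    (e : ∀ i : Fin q, f i = p (σ i)) (D : ℕ) (cs : PE) : peR q D cs f = peR q D cs (ext p) := by
  unfold peR
  simp only [psum_eq σ e, sumR_eq σ e, psum_eq (f := ext p) (p := p) 1 (by simp),
    sumR_eq (f := ext p) (p := p) 1 (by simp)]

lemma evF_perm {tbl : List (List ℕ)} (h : PermTbl q tbl) {f : ℕ → ℝ} {p : Fin q → ℝ}
    (σ : Equiv.Perm (Fin q)) (e : ∀ i : Fin q, f i = p (σ i)) {D : ℕ} (g : Feat)
    (hg : okF q D g = true) : evF q tbl D f g = evF q tbl D (ext p) g := by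
  cases g with
  | inl ν =>
    simp only [okF, Bool.and_eq_true, beq_iff_eq, decide_eq_true_eq] at hg
    simp only [evF, msR_eq h hg.1 e, msR_eq h hg.1 (f := ext p) (p := p) (by simp), Ms_perm,
      sumR_eq σ e, sumR_eq (f := ext p) (p := p) 1 (by simp)]
  | inr cs => exact peR_perm σ e D cs

lemma Simp.sum {p : Fin q → ℝ} (hp : Simp p) : ∑ i, p i = q := by
  have h := hp.2
  have : (0 : ℝ) < q := by exact_mod_cast hp.pos
  unfold avg at h
  field_simp at h
  exact h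

lemma Simp.sumR {p : Fin q → ℝ} (hp : Simp p) : sumR q (ext p) = q := by
  rw [sumR_eq (p := p) 1 (by simp), hp.sum]

lemma Simp.psum {p : Fin q → ℝ} (hp : Simp p) (k : ℕ) :
    psum q k (ext p) = (q : ℝ) ^ (k + 1) * avg fun i => (p i - 1) ^ k := by
  have : (0 : ℝ) < q := by exact_mod_cast hp.pos
  rw [psum_eq (p := p) 1 (by simp), hp.sum]
  unfold avg
  rw [pow_succ, mul_assoc, mul_div_cancel₀ _ this.ne', mul_sum]
  exact sum_congr rfl fun i _ => by rw [← mul_pow]; ring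

end Vale.Agent.P154
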