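import Mathlib

namespace Vale.Agent.P154

/-- What the observer sees at depth `n`: the rooted tree cut at depth `n`
(a vertex is the list of its subtrees) with the spins of level `n`. -/
def Obs (q : ℕ) : ℕ → Type
  | 0 => Fin q
  | n + 1 => List (Obs q n)

/-- The Potts channel `P(j | i)`. -/
noncomputable def potts (q : ℕ) (lam : ℝ) (i j : Fin q) : ℝ :=
  (if i = j then lam else 0) + (1 - lam) / q

/-- Probability of the observation `y` given that the root spin is `i`;
`ν k` is the probability of `k` children. -/
noncomputable def lik (q : ℕ) (ν : ℕ → ℝ) (lam : ℝ) : (n : ℕ) → Obs q n → Fin q → ℝ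
  | 0, y, i => if (show Fin q from y) = i then 1 else 0
  | n + 1, ys, i =>
      ν (List.length ys) * (List.map (fun y => ∑ j, potts q lam i j * lik q ν lam n y j) ys).prod

/-- Probability of the observation `y` (root spin uniform). -/
noncomputable def marg (q : ℕ) (ν : ℕ → ℝ) (lam : ℝ) (n : ℕ) (y : Obs q n) : ℝ :=
  ∑ j, (1 / (q : ℝ)) * lik q ν lam n y j

/-- Posterior probability that the root spin is `i`, given the observation `y`. -/
noncomputable def post (q : ℕ) (ν : ℕ → ℝ) (lam : ℝ) (n : ℕ) (y : Obs q n) (i : Fin q) : ℝ :=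
  (1 / (q : ℝ)) * lik q ν lam n y i / marg q ν lam n y

/-- The expected total variation distance `a_n` between the posterior and the uniform law. -/
noncomputable def adv (q : ℕ) (ν : ℕ → ℝ) (lam : ℝ) (n : ℕ) : ℝ :=
  ∑' y : Obs q n, marg q ν lam n y * ((1 / 2) * ∑ i, |post q ν lam n y i - 1 / (q : ℝ)|)

/-- Offspring law of the `d`-ary tree. -/
noncomputable def dary (d : ℕ) (k : ℕ) : ℝ := if k = d then 1 else 0

/-- Poisson offspring law with mean `d`. -/
noncomputable def pois (d : ℝ) (k : ℕ) : ℝ := Real.exp (-d) * d ^ k / (k.factorial : ℝ)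

end Vale.Agent.P154
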