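import Vale.Agent.P154.Core

/-!
Data processing (Blackwell domination) for symmetric experiments.
-/

namespace Vale.Agent.P154

open Finset

variable {q : ℕ}

/-- sublinear, permutation invariant functionals on the nonnegative orthant -/
structure GoodF (F : (Fin q → ℝ) → ℝ) : Prop where
  smul : ∀ (c : ℝ) (l : Fin q → ℝ), 0 ≤ c → (∀ i, 0 ≤ l i) → F (fun i => c * l i) = c * F l
  add : ∀ l l' : Fin q → ℝ, (∀ i, 0 ≤ l i) → (∀ i, 0 ≤ l' i) →
    F (fun i => l i + l' i) ≤ F l + F l'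
  perm : ∀ (σ : Equiv.Perm (Fin q)) (l : Fin q → ℝ), (∀ i, 0 ≤ l i) → F (fun i => l (σ i)) = F l
  bound : ∃ C : ℝ, ∀ l : Fin q → ℝ, (∀ i, 0 ≤ l i) → |F l| ≤ C * avg l

/-- `L` is dominated by (less informative than) `R` -/
def Dom {Y Y' : Type} (L : Y → Fin q → ℝ) (R : Y' → Fin q → ℝ) : Prop :=
  ∀ F, GoodF F → ∑' y, F (L y) ≤ ∑' y, F (R y)

variable {Y Y' Z Z' : Type} {L : Y → Fin q → ℝ} {R : Y' → Fin q → ℝ} {L' : Z → Fin q → ℝ}
  {R' : Z' → Fin q → ℝ} {F : (Fin q → ℝ) → ℝ}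

lemma SymExp.summable_good (hL : SymExp L) (hF : GoodF F) : Summable fun y => F (L y) := by
  obtain ⟨C, hC⟩ := hF.bound
  exact Summable.of_norm_bounded (hL.summable_avg.mul_left C) fun y => hC _ (hL.nonneg y)

lemma Dom.refl (L : Y → Fin q → ℝ) : Dom L L := fun _ _ => le_rfl

lemma Dom.trans (h : Dom L R) (h' : Dom R L') : Dom L L' := fun F hF => (h F hF).trans (h' F hF)

lemma dom_equiv_left (e : Z ≃ Y) (L : Y → Fin q → ℝ) : Dom (fun y => L (e y)) L :=
  fun F _ => (e.tsum_eq fun y => F (L y)).le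

lemma dom_equiv_right (e : Z ≃ Y) (L : Y → Fin q → ℝ) : Dom L fun y => L (e y) :=
  fun F _ => (e.tsum_eq fun y => F (L y)).ge

lemma Dom.equiv (h : Dom L R) (e : Z ≃ Y) (e' : Z' ≃ Y') :
    Dom (fun y => L (e y)) fun y => R (e' y) :=
  ((dom_equiv_left e L).trans h).trans (dom_equiv_right e' R)

lemma GoodF.chan (hq : 2 ≤ q) {lam : ℝ} (h0 : -1 / ((q : ℝ) - 1) ≤ lam) (h1 : lam ≤ 1)
    (hF : GoodF F) : GoodF fun l => F fun i => ∑ j, potts q lam i j * l j := by
  have hnn : ∀ l : Fin q → ℝ, (∀ i, 0 ≤ l i) → ∀ i, 0 ≤ ∑ j, potts q lam i j * l j :=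
    fun l hl i => sum_nonneg fun j _ => mul_nonneg (potts_nonneg hq h0 h1 i j) (hl j)
  refine ⟨fun c l hc hl => ?_, fun l l' hl hl' => ?_, fun σ l hl => ?_, ?_⟩
  · rw [← hF.smul c _ hc (hnn l hl)]
    congr 1
    funext i
    rw [mul_sum]
    exact sum_congr rfl fun j _ => by ring
  · refine le_trans (le_of_eq ?_) (hF.add _ _ (hnn l hl) (hnn l' hl'))
    congr 1
    funext i
    rw [← sum_add_distrib]
    exact sum_congr rfl fun j _ => by ring
  · rw [← hF.perm σ _ (hnn l hl)]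
    congr 1
    funext i
    rw [sum_potts_mul, sum_potts_mul, avg_perm]
  · obtain ⟨C, hC⟩ := hF.bound
    refine ⟨C, fun l hl => (hC _ (hnn l hl)).trans (le_of_eq ?_)⟩
    rw [← avg_chanExp (by omega) lam (fun _ : Unit => l) ()]
    rfl

lemma Dom.chanExp (hq : 2 ≤ q) {lam : ℝ} (h0 : -1 / ((q : ℝ) - 1) ≤ lam) (h1 : lam ≤ 1)
    (h : Dom L R) : Dom (chanExp lam L) (chanExp lam R) :=
  fun _ hF => h _ (hF.chan hq h0 h1)

lemma SymExp.hasSum_avg_mul (hL : SymExp L) (l : Fin q → ℝ) :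
    HasSum (fun y => avg fun i => l i * L y i) (avg l) := by
  have := (hasSum_sum (s := univ) fun i _ => (hL.sum_one i).mul_left (l i)).div_const (q : ℝ)
  simpa [avg] using this

lemma SymExp.summable_good_mul (hL : SymExp L) (hF : GoodF F) {l : Fin q → ℝ}
    (hl : ∀ i, 0 ≤ l i) : Summable fun y => F fun i => l i * L y i := by
  obtain ⟨C, hC⟩ := hF.bound
  exact Summable.of_norm_bounded ((hL.hasSum_avg_mul l).summable.mul_left C) fun y =>
    hC _ fun i => mul_nonneg (hl i) (hL.nonneg y i)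

lemma GoodF.star (hF : GoodF F) (hL : SymExp L) :
    GoodF fun l => ∑' y, F fun i => l i * L y i := by
  refine ⟨fun c l hc hl => ?_, fun l l' hl hl' => ?_, fun σ l hl => ?_, ?_⟩
  · rw [← tsum_mul_left]
    refine tsum_congr fun y => ?_
    rw [← hF.smul c _ hc fun i => mul_nonneg (hl i) (hL.nonneg y i)]
    simp only [mul_assoc]
  · refine hasSum_le (fun y => ?_)
      (hL.summable_good_mul hF fun i => add_nonneg (hl i) (hl' i)).hasSum
      ((hL.summable_good_mul hF hl).hasSum.add (hL.summable_good_mul hF hl').hasSum)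
    simp only [add_mul]
    exact hF.add _ _ (fun i => mul_nonneg (hl i) (hL.nonneg y i))
      fun i => mul_nonneg (hl' i) (hL.nonneg y i)
  · obtain ⟨e, he⟩ := hL.symm σ
    rw [← e.tsum_eq fun y => F fun i => l (σ i) * L y i]
    refine tsum_congr fun y => ?_
    simp only [he]
    exact hF.perm σ (fun i => l i * L y i) fun i => mul_nonneg (hl i) (hL.nonneg y i)
  · obtain ⟨C, hC⟩ := hF.bound
    refine ⟨C, fun l hl => ?_⟩
    exact tsum_of_norm_bounded (f := fun y => F fun i => l i * L y i)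
      ((hL.hasSum_avg_mul l).mul_left C) fun y => hC _ fun i => mul_nonneg (hl i) (hL.nonneg y i)

lemma Dom.star_left (h : Dom L R) (hL : SymExp L) (hR : SymExp R) (hL' : SymExp L') :
    Dom (star L L') (star R L') := by
  intro F hF
  rw [((hL.star hL').summable_good hF).tsum_prod, ((hR.star hL').summable_good hF).tsum_prod]
  exact h _ (hF.star hL')

lemma star_comm (L : Y → Fin q → ℝ) (L' : Z → Fin q → ℝ) :
    star L L' = fun y => star L' L (Equiv.prodComm _ _ y) := by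
  funext y i
  simp [star, mul_comm]

lemma Dom.star_right (h : Dom L R) (hL : SymExp L) (hR : SymExp R) (hL' : SymExp L') :
    Dom (star L' L) (star L' R) := by
  rw [star_comm L' L, star_comm L' R]
  exact (h.star_left hL hR hL').equiv _ _

lemma Dom.star (h : Dom L R) (h' : Dom L' R') (hL : SymExp L) (hR : SymExp R) (hL' : SymExp L')
    (hR' : SymExp R') : Dom (star L L') (star R R') :=
  (h.star_left hL hR hL').trans (h'.star_right hL' hR' hR)

lemma Dom.pw (h : Dom L R) (hL : SymExp L) (hR : SymExp R) (k : ℕ) : Dom (pw L k) (pw R k) := by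
  induction k with
  | zero =>
    intro F _
    rw [tsum_fintype, tsum_fintype, Fintype.sum_unique, Fintype.sum_unique]
    exact le_rfl
  | succ k ih =>
    rw [pw_succ, pw_succ]
    exact (ih.star h (hL.pw k) (hR.pw k) hL hR).equiv _ _

lemma hasSum_mix_good {ν : ℕ → ℝ} (hν : ∀ k, 0 ≤ ν k) (hν1 : HasSum ν 1) (hL : SymExp L)
    (hF : GoodF F) : HasSum (fun k => ν k * ∑' ys, F (pw L k ys)) (∑' x, F (mix ν L x)) :=
  ((hL.mix hν hν1).summable_good hF).hasSum.sigma fun k =>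
    hasSum_of_eq (((hL.pw k).summable_good hF).hasSum.mul_left (ν k)) fun ys =>
      hF.smul _ _ (hν k) ((hL.pw k).nonneg ys)

lemma Dom.mix (h : Dom L R) (hL : SymExp L) (hR : SymExp R) {ν : ℕ → ℝ} (hν : ∀ k, 0 ≤ ν k)
    (hν1 : HasSum ν 1) : Dom (mix ν L) (mix ν R) := fun F hF =>
  hasSum_le (fun k => mul_le_mul_of_nonneg_left (h.pw hL hR k F hF) (hν k))
    (hasSum_mix_good hν hν1 hL hF) (hasSum_mix_good hν hν1 hR hF)

lemma GoodF.zero (hF : GoodF F) : F (fun _ => 0) = 0 := by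
  simpa using hF.smul 0 (fun _ => 0) le_rfl fun _ => le_rfl

lemma GoodF.sum_le (hF : GoodF F) {ι : Type} (s : Finset ι) (l : ι → Fin q → ℝ)
    (hl : ∀ a i, 0 ≤ l a i) : F (fun i => ∑ a ∈ s, l a i) ≤ ∑ a ∈ s, F (l a) := by
  classical
  induction s using Finset.induction_on with
  | empty => simp [hF.zero]
  | insert a s ha ih =>
    simp only [sum_insert ha]
    exact (hF.add _ _ (hl a) fun i => sum_nonneg fun b _ => hl b i).trans (by linarith)

/-- every symmetric experiment is dominated by the identity experiment -/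
lemma SymExp.dom_lik_zero (hL : SymExp L) (ν : ℕ → ℝ) (lam : ℝ) : Dom L (lik q ν lam 0) := by
  intro F hF
  have h0 := symExp_lik_zero (q := q) ν lam
  change _ ≤ ∑' j : Fin q, F (lik q ν lam 0 j)
  rw [tsum_fintype (fun j : Fin q => F (lik q ν lam 0 j))]
  have h1 := hasSum_sum (s := univ) fun (j : Fin q) _ =>
    (hL.sum_one j).mul_right (F (lik q ν lam 0 j))
  simp only [one_mul] at h1
  refine hasSum_le (fun y => ?_) (hL.summable_good hF).hasSum h1
  have h2 := hF.sum_le univ (fun (j : Fin q) i => L y j * lik q ν lam 0 j i)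
    fun j i => mul_nonneg (hL.nonneg y j) (h0.nonneg j i)
  have h3 : (fun i => ∑ j : Fin q, L y j * lik q ν lam 0 j i) = L y := by
    funext i
    change ∑ j : Fin q, L y j * (if j = i then 1 else 0) = _
    simp
  rw [h3] at h2
  refine h2.trans (le_of_eq (sum_congr rfl fun j _ => ?_))
  exact hF.smul _ _ (hL.nonneg y j) (h0.nonneg j)

/-- one level of the tree recursion preserves domination -/
lemma Dom.lik_step (hq : 2 ≤ q) {lam : ℝ} (h0 : -1 / ((q : ℝ) - 1) ≤ lam) (h1 : lam ≤ 1)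
    {ν : ℕ → ℝ} (hν : ∀ k, 0 ≤ ν k) (hν1 : HasSum ν 1) {m n : ℕ}
    (h : Dom (lik q ν lam m) (lik q ν lam n)) :
    Dom (lik q ν lam (m + 1)) (lik q ν lam (n + 1)) := by
  rw [lik_succ, lik_succ]
  exact ((h.chanExp hq h0 h1).mix ((symExp_lik hq h0 h1 hν hν1 m).chanExp hq h0 h1)
    ((symExp_lik hq h0 h1 hν hν1 n).chanExp hq h0 h1) hν hν1).equiv _ _

lemma dom_lik_succ (hq : 2 ≤ q) {lam : ℝ} (h0 : -1 / ((q : ℝ) - 1) ≤ lam) (h1 : lam ≤ 1)
    {ν : ℕ → ℝ} (hν : ∀ k, 0 ≤ ν k) (hν1 : HasSum ν 1) (n : ℕ) :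
    Dom (lik q ν lam (n + 1)) (lik q ν lam n) := by
  induction n with
  | zero => exact (symExp_lik hq h0 h1 hν hν1 1).dom_lik_zero ν lam
  | succ n ih => exact ih.lik_step hq h0 h1 hν hν1

/-- the homogeneous form of the total variation distance -/
noncomputable def tvF (l : Fin q → ℝ) : ℝ := (1 / 2) * avg fun i => |l i - avg l|

lemma hom_tv {l : Fin q → ℝ} (hl : ∀ i, 0 ≤ l i) : hom tv l = tvF l := by
  rw [hom_eq, tv, tvF, mul_left_comm, ← avg_mul_left]
  congr 2
  funext i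
  conv_rhs => rw [← avg_mul_nrm hl i]
  rw [← abs_of_nonneg (avg_nonneg hl), ← abs_mul, abs_of_nonneg (avg_nonneg hl)]
  congr 1
  ring

lemma goodF_tvF (hq : 2 ≤ q) : GoodF (tvF (q := q)) := by
  refine ⟨fun c l hc _ => ?_, fun l l' _ _ => ?_, fun σ l _ => ?_, ?_⟩
  · unfold tvF
    simp only [avg_mul_left, ← mul_sub, abs_mul, abs_of_nonneg hc]
    ring
  · unfold tvF
    rw [← mul_add, ← avg_add, avg_add l l']
    refine mul_le_mul_of_nonneg_left (avg_mono fun i => ?_) (by norm_num)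
    rw [show l i + l' i - (avg l + avg l') = (l i - avg l) + (l' i - avg l') by ring]
    exact abs_add_le _ _
  · unfold tvF
    rw [avg_perm, avg_perm (fun i => |l i - avg l|)]
  · obtain ⟨C, hC⟩ := bdd_tv hq
    exact ⟨C, fun l hl => hom_tv hl ▸ abs_hom_le hC hl⟩

lemma Dom.Ex_tv_le (hq : 2 ≤ q) (h : Dom L R) (hL : SymExp L) (hR : SymExp R) :
    Ex tv L ≤ Ex tv R := by
  unfold Ex
  simp only [hom_tv (hL.nonneg _), hom_tv (hR.nonneg _)]
  exact h _ (goodF_tvF hq)

end Vale.Agent.P154
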