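import Vale.Agent.P154.Bil

/-! Features (symmetric polynomials) on cells, real side and Kronecker side. -/

namespace Vale.Agent.P154

open Finset

noncomputable def nth {α : Type} (d : α) (l : List α) : ℕ → α :=
  List.rec (fun _ => d) (fun a _ ih n => Nat.rec a (fun m _ => ih m) n) l

lemma nth_eq {α : Type} (d : α) (l : List α) (i : ℕ) : nth d l i = l.getD i d := by
  induction l generalizing i with
  | nil => simp [nth]
  | cons a l ih =>
    cases i with
    | zero => rfl
    | succ i => exact (ih i).trans (by simp)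

noncomputable def sumR (q : ℕ) (f : ℕ → ℝ) : ℝ := ∑ i ∈ range q, f i
noncomputable def psum (q k : ℕ) (f : ℕ → ℝ) : ℝ := ∑ i ∈ range q, (q * f i - sumR q f) ^ k
noncomputable def msR (tbl : List (List ℕ)) (ν : List ℕ) (f : ℕ → ℝ) : ℝ :=
  (tbl.map fun s => (List.zipWith (fun i e => f i ^ e) s ν).prod).sum

abbrev PE := List (ℤ × ℕ × ℕ × ℕ)
def pdeg (t : ℤ × ℕ × ℕ × ℕ) : ℕ := 2 * t.2.1 + 3 * t.2.2.1 + 4 * t.2.2.2

noncomputable def peR (q D : ℕ) (cs : PE) (f : ℕ → ℝ) : ℝ :=
  (cs.map fun t => (t.1 : ℝ) * (psum q 2 f ^ t.2.1 * psum q 3 f ^ t.2.2.1 * psum q 4 f ^ t.2.2.2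
    * sumR q f ^ (D - pdeg t))).sum

abbrev Feat := List ℕ ⊕ PE

noncomputable def evF (q : ℕ) (tbl : List (List ℕ)) (D : ℕ) (f : ℕ → ℝ) : Feat → ℝ
  | Sum.inl ν => msR tbl ν f * sumR q f ^ (D - ν.sum)
  | Sum.inr cs => peR q D cs f

def okF (q D : ℕ) : Feat → Bool
  | Sum.inl ν => ν.length == q && decide (ν.sum ≤ D)
  | Sum.inr cs => cs.all fun t => decide (pdeg t ≤ D)

abbrev Cell := List (List ℕ)

noncomputable def vtx (c : Cell) (v i : ℕ) : ℕ := nth 0 (nth [] c v) i

noncomputable def pt (c : Cell) (x : Fin 4 → ℝ) (i : ℕ) : ℝ :=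
  vtx c 0 i * x 0 + vtx c 1 i * x 1 + vtx c 2 i * x 2 + vtx c 3 i * x 3

noncomputable def lin4 (B E : ℕ) (a b c d : ℤ) : K :=
  lin [a, b, c, d] [kvar B E 0, kvar B E 1, kvar B E 2, kvar B E 3] kzero

lemma rep_lin4 (B E : ℕ) (a b c d : ℤ) :
    Rep B E 1 (lin4 B E a b c d) fun x => a * x 0 + b * x 1 + c * x 2 + d * x 3 := by
  have h : List.Forall₂ (Rep B E 1) [kvar B E 0, kvar B E 1, kvar B E 2, kvar B E 3]
      [fun x => x 0, fun x => x 1, fun x => x 2, fun x => x 3] :=
    .cons (rep_var 0) (.cons (rep_var 1) (.cons (rep_var 2) (.cons (rep_var 3) .nil)))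
  exact (rep_lin [a, b, c, d] h rep_zero).congr fun x => by simp; ring

noncomputable def pK (B E : ℕ) (c : Cell) (i : ℕ) : K :=
  lin4 B E (vtx c 0 i) (vtx c 1 i) (vtx c 2 i) (vtx c 3 i)

lemma rep_pK (B E : ℕ) (c : Cell) (i : ℕ) : Rep B E 1 (pK B E c i) fun x => pt c x i :=
  (rep_lin4 _ _ _ _ _ _).congr fun x => by simp [pt]

/-- sum of `f a` over a list -/
noncomputable def sumK {β : Type} (f : β → K) (l : List β) : K → K :=
  List.rec (fun acc => acc) (fun a _ ih acc => fK (kadd acc (f a)) ih) l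

lemma rep_sumK {B E d : ℕ} {β : Type} (f : β → K) (F : β → Fn) (l : List β)
    (h : ∀ a ∈ l, Rep B E d (f a) (F a)) {acc : K} {G : Fn} (ha : Rep B E d acc G) :
    Rep B E d (sumK f l acc) fun x => G x + (l.map fun a => F a x).sum := by
  induction l generalizing acc G with
  | nil => exact ha.congr fun x => by simp
  | cons a l ih =>
    have e : sumK f (a :: l) acc = fK (kadd acc (f a)) (sumK f l) := rfl
    rw [e, fK_eq]
    exact (ih (fun b hb => h b (List.mem_cons_of_mem _ hb))
      (ha.add (h a List.mem_cons_self))).congr fun x => by simp [add_assoc]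

noncomputable def pows {α : Type} (a : K) (n : ℕ) : K → (List K → α) → α :=
  Nat.rec (fun cur k => k [cur])
    (fun _ ih cur k => fK (kmul cur a) fun nxt => ih nxt fun l => k (cur :: l)) n

noncomputable def powsP (a : K) : ℕ → K → List K
  | 0, cur => [cur]
  | n + 1, cur => cur :: powsP a n (kmul cur a)

@[simp] lemma pows_eq {α : Type} (a : K) (n : ℕ) (cur : K) (k : List K → α) :
    pows a n cur k = k (powsP a n cur) := by
  induction n generalizing cur k with
  | zero => rfl
  | succ n ih => exact (fK_eq (kmul cur a) fun nxt => pows a n nxt fun l => k (cur :: l)).trans (ih _ _)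

lemma rep_powsP {B E d d0 : ℕ} {a cur : K} {F G : Fn} (h : Rep B E d a F) (n : ℕ)
    (hc : Rep B E d0 cur G) (e : ℕ) (he : e ≤ n) :
    Rep B E (d0 + d * e) (nth kzero (powsP a n cur) e) fun x => G x * F x ^ e := by
  induction n generalizing cur G d0 e with
  | zero =>
    obtain rfl : e = 0 := by omega
    exact hc.congr fun x => by simp
  | succ n ih =>
    cases e with
    | zero => exact hc.congr fun x => by simp
    | succ e =>
      have := ih (hc.mul h) e (by omega)
      exact (this.deg (by ring)).congr fun x => by ring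

lemma rep_pow1 {B E d : ℕ} {a : K} {F : Fn} (h : Rep B E d a F) (n e : ℕ) (he : e ≤ n) :
    Rep B E (d * e) (nth kzero (powsP a n kone) e) fun x => F x ^ e :=
  ((rep_powsP h n rep_one e he).deg (by simp)).congr fun x => by simp

structure Ctx where
  T : List (List K)
  S : List K
  P2 : List K
  P3 : List K
  P4 : List K

noncomputable def mkCtx {α : Type} (B E q D : ℕ) (c : Cell) (k : Ctx → α) : α :=
  mapK (pK B E c) (List.range q) fun ps =>
  fK (sumK id ps kzero) fun S =>
  mapK (fun p => kadd (ksm q p) (ksm (-1) S)) ps fun ms =>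
  mapL (fun m => pows m 4 kone) ms fun mT =>
  fK (sumK (fun l => nth kzero l 2) mT kzero) fun P2 =>
  fK (sumK (fun l => nth kzero l 3) mT kzero) fun P3 =>
  fK (sumK (fun l => nth kzero l 4) mT kzero) fun P4 =>
  mapL (fun p => pows p D kone) ps fun T =>
  pows S D kone fun Sp =>
  pows P2 (D / 2) kone fun A =>
  pows P3 (D / 3) kone fun C =>
  pows P4 (D / 4) kone fun Q => k ⟨T, Sp, A, C, Q⟩

noncomputable def ctxP (B E q D : ℕ) (c : Cell) : Ctx := mkCtx B E q D c id

lemma mkCtx_eq {α : Type} (B E q D : ℕ) (c : Cell) (k : Ctx → α) :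
    mkCtx B E q D c k = k (ctxP B E q D c) := by
  simp only [ctxP, mkCtx, mapK_eq, fK_eq, pows_eq,
    mapL_eq (fun m => pows m 4 kone) (fun m => powsP m 4 kone) (fun a k => pows_eq _ _ _ _),
    mapL_eq (fun m => pows m D kone) (fun m => powsP m D kone) (fun a k => pows_eq _ _ _ _), id]

structure GoodCtx (B E q D : ℕ) (X : Ctx) (f : (Fin 4 → ℝ) → ℕ → ℝ) : Prop where
  hT : ∀ i < q, ∀ e ≤ D, Rep B E e (nth kzero (nth [] X.T i) e) fun x => f x i ^ e
  hS : ∀ e ≤ D, Rep B E e (nth kzero X.S e) fun x => sumR q (f x) ^ e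
  h2 : ∀ e, 2 * e ≤ D → Rep B E (2 * e) (nth kzero X.P2 e) fun x => psum q 2 (f x) ^ e
  h3 : ∀ e, 3 * e ≤ D → Rep B E (3 * e) (nth kzero X.P3 e) fun x => psum q 3 (f x) ^ e
  h4 : ∀ e, 4 * e ≤ D → Rep B E (4 * e) (nth kzero X.P4 e) fun x => psum q 4 (f x) ^ e

lemma rep_sumK_range {B E d : ℕ} (q : ℕ) {β : Type} (g : ℕ → β) (f : β → K) (F : ℕ → Fn)
    (h : ∀ i < q, Rep B E d (f (g i)) (F i)) :
    Rep B E d (sumK f ((List.range q).map g) kzero) fun x => ∑ i ∈ range q, F i x := by
  have : ∀ (l : List ℕ) (acc : K), sumK f (l.map g) acc = sumK (fun i => f (g i)) l acc := by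
    intro l
    induction l with
    | nil => intro acc; rfl
    | cons a l ih =>
      intro acc
      exact (fK_eq (kadd acc (f (g a))) (sumK f (l.map g))).trans ((ih _).trans
        (fK_eq (kadd acc (f (g a))) (sumK (fun i => f (g i)) l)).symm)
  rw [this]
  refine (rep_sumK (fun i => f (g i)) F (List.range q) (fun a ha => h a (List.mem_range.1 ha))
    rep_zero).congr fun x => ?_
  rw [zero_add, ← List.sum_toFinset _ List.nodup_range, List.toFinset_range]

lemma good_ctxP (B E q D : ℕ) (c : Cell) : GoodCtx B E q D (ctxP B E q D c) (pt c) := by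
  have hS : Rep B E 1 (sumK id ((List.range q).map (pK B E c)) kzero) fun x => sumR q (pt c x) :=
    rep_sumK_range q (pK B E c) id (fun i x => pt c x i) fun i _ => rep_pK B E c i
  have hP : ∀ k ≤ 4, Rep B E k (sumK (fun l => nth kzero l k)
      ((((List.range q).map (pK B E c)).map (fun p => kadd (ksm q p)
        (ksm (-1) (sumK id ((List.range q).map (pK B E c)) kzero)))).map
          (fun m => powsP m 4 kone)) kzero) fun x => psum q k (pt c x) := by
    intro k hk
    rw [List.map_map, List.map_map]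
    refine rep_sumK_range q _ _ (fun i x => (q * pt c x i - sumR q (pt c x)) ^ k) fun i _ => ?_
    have := rep_pow1 (((rep_pK B E c i).sm q).add (hS.sm (-1))) 4 k hk
    exact (this.deg (by simp)).congr fun x => by simp [sub_eq_add_neg]
  simp only [ctxP, mkCtx, mapK_eq, fK_eq, pows_eq,
    mapL_eq (fun m => pows m 4 kone) (fun m => powsP m 4 kone) (fun a k => pows_eq _ _ _ _),
    mapL_eq (fun m => pows m D kone) (fun m => powsP m D kone) (fun a k => pows_eq _ _ _ _), id]
  refine ⟨fun i hi e he => ?_, fun e he => ?_, fun e he => ?_, fun e he => ?_, fun e he => ?_⟩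
  · have : nth [] (((List.range q).map (pK B E c)).map fun m => powsP m D kone) i
        = powsP (pK B E c i) D kone := by
      rw [nth_eq]; simp [List.getD_eq_getElem?_getD, hi]
    simp only [this]
    exact (rep_pow1 (rep_pK B E c i) D e he).deg (by simp)
  · exact (rep_pow1 hS D e he).deg (by simp)
  · exact rep_pow1 (hP 2 (by norm_num)) _ e (by omega)
  · exact rep_pow1 (hP 3 (by norm_num)) _ e (by omega)
  · exact rep_pow1 (hP 4 (by norm_num)) _ e (by omega)

/-- multiply `acc` by entry `e` of the power list (nothing to do when `e = 0`) -/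
noncomputable def mulP (l : List K) (e : ℕ) (acc : K) : K :=
  Bool.rec (kmul acc (nth kzero l e)) acc (Nat.beq e 0)

lemma rep_mulP {B E d d' : ℕ} {l : List K} {e : ℕ} {acc : K} {G F : Fn} (ha : Rep B E d acc G)
    (h : Rep B E (d' * e) (nth kzero l e) fun x => F x ^ e) :
    Rep B E (d + d' * e) (mulP l e acc) fun x => G x * F x ^ e := by
  unfold mulP
  cases he : Nat.beq e 0 with
  | false => exact ha.mul h
  | true =>
    obtain rfl : e = 0 := by simpa using he
    exact ha.congr fun x => by simp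

noncomputable def prodK (T : List (List K)) (s : List ℕ) : List ℕ → K → K :=
  List.rec (fun _ acc => acc)
    (fun i _ ih ν acc => List.rec acc (fun e ν' _ => fK (mulP (nth [] T i) e acc) (ih ν')) ν) s

noncomputable def msK (X : Ctx) (tbl : List (List ℕ)) (ν : List ℕ) : K :=
  sumK (fun s => prodK X.T s ν kone) tbl kzero

noncomputable def peK (X : Ctx) (D : ℕ) (cs : PE) : K :=
  sumK (fun t => ksm t.1 (mulP X.S (D - pdeg t) (mulP X.P4 t.2.2.2 (mulP X.P3 t.2.2.1
    (nth kzero X.P2 t.2.1))))) cs kzero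

noncomputable def featK (X : Ctx) (tbl : List (List ℕ)) (D : ℕ) (f : Feat) : K :=
  Sum.rec (fun ν => mulP X.S (D - ν.sum) (msK X tbl ν)) (fun cs => peK X D cs) f

def OkTbl (q : ℕ) (tbl : List (List ℕ)) : Prop := ∀ s ∈ tbl, s.length = q ∧ ∀ i ∈ s, i < q

variable {B E q D : ℕ} {X : Ctx} {f : (Fin 4 → ℝ) → ℕ → ℝ}

lemma rep_prodK (hX : GoodCtx B E q D X f) (s ν : List ℕ) (hs : ∀ i ∈ s, i < q)
    (hl : s.length = ν.length) (hν : ν.sum ≤ D) {d : ℕ} {acc : K} {G : Fn} (ha : Rep B E d acc G) :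
    Rep B E (d + ν.sum) (prodK X.T s ν acc) fun x =>
      G x * (List.zipWith (fun i e => f x i ^ e) s ν).prod := by
  induction s generalizing ν d acc G with
  | nil =>
    obtain rfl : ν = [] := by simpa using hl.symm
    exact ha.congr fun x => by simp
  | cons i s ih =>
    cases ν with
    | nil => simp at hl
    | cons e ν =>
      have e1 : prodK X.T (i :: s) (e :: ν) acc = fK (mulP (nth [] X.T i) e acc) (prodK X.T s ν) := rfl
      rw [e1, fK_eq]
      simp only [List.sum_cons] at hν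
      have h1 := rep_mulP (d' := 1) ha ((hX.hT i (hs i List.mem_cons_self) e (by omega)).deg (by simp))
      have := ih ν (fun j hj => hs j (List.mem_cons_of_mem _ hj)) (by simpa using hl) (by omega) h1
      exact (this.deg (by simp; ring)).congr fun x => by simp [mul_assoc]

lemma rep_msK (hX : GoodCtx B E q D X f) {tbl : List (List ℕ)} (ht : OkTbl q tbl) (ν : List ℕ)
    (hl : ν.length = q) (hν : ν.sum ≤ D) :
    Rep B E ν.sum (msK X tbl ν) fun x => msR tbl ν (f x) := by
  refine (rep_sumK (fun s => prodK X.T s ν kone)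
    (fun s x => (List.zipWith (fun i e => f x i ^ e) s ν).prod) tbl (fun s hs => ?_) rep_zero).congr
    fun x => by simp [msR]
  exact ((rep_prodK hX s ν (ht s hs).2 ((ht s hs).1.trans hl.symm) hν rep_one).deg
    (by simp)).congr fun x => by simp

lemma rep_peK (hX : GoodCtx B E q D X f) {D' : ℕ} (hD : D' ≤ D) (cs : PE)
    (hc : ∀ t ∈ cs, pdeg t ≤ D') : Rep B E D' (peK X D' cs) fun x => peR q D' cs (f x) := by
  refine (rep_sumK _ (fun t x => (t.1 : ℝ) * (psum q 2 (f x) ^ t.2.1 * psum q 3 (f x) ^ t.2.2.1 *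
    psum q 4 (f x) ^ t.2.2.2 * sumR q (f x) ^ (D' - pdeg t))) cs (fun t ht => ?_) rep_zero).congr
    fun x => by simp [peR]
  have h := hc t ht
  have h' := h
  unfold pdeg at h'
  have := rep_mulP (d' := 1) (rep_mulP (rep_mulP (hX.h2 t.2.1 (by omega)) (hX.h3 t.2.2.1 (by omega)))
    (hX.h4 t.2.2.2 (by omega))) ((hX.hS (D' - pdeg t) (by omega)).deg (by simp))
  exact (this.deg (by unfold pdeg; omega)).sm t.1

lemma rep_featK (hX : GoodCtx B E q D X f) {tbl : List (List ℕ)} (ht : OkTbl q tbl) {D' : ℕ}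
    (hD : D' ≤ D) (g : Feat) (hg : okF q D' g = true) :
    Rep B E D' (featK X tbl D' g) fun x => evF q tbl D' (f x) g := by
  cases g with
  | inl ν =>
    simp only [okF, Bool.and_eq_true, beq_iff_eq, decide_eq_true_eq] at hg
    have := rep_mulP (d' := 1) (rep_msK hX ht ν hg.1 (hg.2.trans hD))
      ((hX.hS (D' - ν.sum) (by omega)).deg (by simp))
    exact this.deg (by omega)
  | inr cs =>
    simp only [okF, List.all_eq_true, decide_eq_true_eq] at hg
    exact rep_peK hX hD cs hg

end Vale.Agent.P154
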