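import Vale.Agent.P154.Core

/-!
The abstract nonreconstruction theorem in the ferromagnetic case.
-/

namespace Vale.Agent.P154

open Finset Filter Topology

lemma tendsto_zero_of_cubic {x : ℕ → ℝ} {c : ℝ} (hc : 0 < c) (h0 : ∀ n, 0 ≤ x n)
    (h : ∀ n, x (n + 1) ≤ x n - c * x n ^ 3) : Tendsto x atTop (𝓝 0) := by
  have hanti : Antitone x := antitone_nat_of_succ_le fun n => by
    have := h n
    have : 0 ≤ c * x n ^ 3 := by have := h0 n; positivity
    linarith
  have hb : BddBelow (Set.range x) := ⟨0, by rintro _ ⟨n, rfl⟩; exact h0 n⟩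
  have hl := tendsto_atTop_ciInf hanti hb
  set l := ⨅ n, x n with hldef
  have hl0 : 0 ≤ l := le_ciInf h0
  have h1 : l ≤ l - c * l ^ 3 :=
    le_of_tendsto_of_tendsto' (hl.comp (tendsto_add_atTop_nat 1))
      (hl.sub ((hl.pow 3).const_mul c)) h
  have h2 : l ^ 3 ≤ 0 := by
    by_contra h3
    have := mul_pos hc (not_le.1 h3)
    linarith
  have h3 : l = 0 := pow_eq_zero_iff (by norm_num : 3 ≠ 0) |>.1 (le_antisymm h2 (by positivity))
  rwa [h3] at hl

/-- TASK A (ferromagnetic abstract theorem) -/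
theorem ferro_abstract {q : ℕ} (hq : 2 ≤ q) (lam : ℝ) (h0 : 0 ≤ lam) (h1 : lam ≤ 1)
    (ν : ℕ → ℝ) (hν : ∀ k, 0 ≤ ν k) (hν1 : HasSum ν 1) (d : ℝ)
    (hd : HasSum (fun k : ℕ => (k : ℝ) * ν k) d) (hcrit : d * lam ^ 2 ≤ 1) (h2 : ν 0 + ν 1 < 1)
    (ψ α β : (Fin q → ℝ) → ℝ) (bψ : Bdd ψ) (bα : Bdd α) (bβ : Bdd β)
    (hα : ∀ p, Simp p → 0 ≤ α p) (hβ : ∀ p, Simp p → 0 ≤ β p)
    (hψ1 : ψ (fun _ => 1) ≤ 0) (hψv : ∀ j, ψ (vert j) ≤ 0)
    (γ : ℝ) (hγ : 0 ≤ γ) (hchan : ∀ p, Simp p → ψ (chan lam p) ≤ γ * ψ p)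
    (t : ℝ) (ht : 0 < t)
    (H1 : ∀ p r : Fin q → ℝ, Simp p → Simp r →
      Kop chi p r ≤ chi p + chi r + ψ p * α r + α p * ψ r - t * (chi p ^ 2 * chi r + chi p * chi r ^ 2))
    (H2 : ∀ p r : Fin q → ℝ, Simp p → Simp r → Kop ψ p r ≤ ψ p * β r + β p * ψ r) :
    Tendsto (adv q ν lam) atTop (𝓝 0) := by
  have hq0 : 0 < q := by omega
  have hq2 : (2 : ℝ) ≤ q := by exact_mod_cast hq
  have h0' : -1 / ((q : ℝ) - 1) ≤ lam :=
    le_trans (div_nonpos_of_nonpos_of_nonneg (by norm_num) (by linarith)) h0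
  have hL := symExp_lik hq h0' h1 hν hν1
  have hQ := fun n => (hL n).chanExp hq h0' h1
  -- powers keep the sign of `ψ`
  have hpw : ∀ {Y : Type} {Q : Y → Fin q → ℝ}, SymExp Q → Ex ψ Q ≤ 0 →
      ∀ k, Ex ψ (pw Q k) ≤ 0 := by
    intro Y Q hQ hψ k
    induction k with
    | zero => rwa [Ex_pw_zero hq0]
    | succ k ih =>
      rw [Ex_pw_succ]
      have := Ex_star_le (hQ.pw k) hQ bψ (univ : Finset (Fin 2)) ![ψ, β] ![β, ψ]
        (fun l _ => by fin_cases l <;> assumption) (fun l _ => by fin_cases l <;> assumption)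
        (fun p r hp hr => by simpa [Fin.sum_univ_two] using H2 p r hp hr)
      simp only [Fin.sum_univ_two, Matrix.cons_val_zero, Matrix.cons_val_one] at this
      have h3 := mul_nonpos_of_nonpos_of_nonneg ih (hQ.Ex_nonneg bβ hβ)
      have h4 := mul_nonpos_of_nonneg_of_nonpos ((hQ.pw k).Ex_nonneg bβ hβ) hψ
      linarith
  have hchanψ : ∀ n, Ex ψ (lik q ν lam n) ≤ 0 → Ex ψ (chanExp lam (lik q ν lam n)) ≤ 0 := by
    intro n hn
    rw [Ex_chanExp hq0]
    refine ((hL n).Ex_mono (bψ.chan hq h0' h1) (bψ.const_mul γ) hchan).trans ?_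
    rw [Ex_const_mul]
    exact mul_nonpos_of_nonneg_of_nonpos hγ hn
  have hψ : ∀ n, Ex ψ (lik q ν lam n) ≤ 0 := by
    intro n
    induction n with
    | zero =>
      rw [Ex_lik_zero, ← avg_const hq0 0]
      exact avg_mono hψv
    | succ n ih =>
      refine (hasSum_tree_step hq h0' h1 hν hν1 n bψ).nonpos fun k => ?_
      exact mul_nonpos_of_nonneg_of_nonpos (hν k) (hpw (hQ n) (hchanψ n ih) k)
  -- the recursion for chi over the number of children
  have hstep : ∀ {Y : Type} {Q : Y → Fin q → ℝ}, SymExp Q → Ex ψ Q ≤ 0 → ∀ k,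
      Ex chi (pw Q (k + 1)) ≤ Ex chi (pw Q k) + Ex chi Q -
        t * (Ex (fun p => chi p ^ 2) (pw Q k) * Ex chi Q +
          Ex chi (pw Q k) * Ex (fun p => chi p ^ 2) Q) := by
    intro Y Q hQ hψ k
    rw [Ex_pw_succ]
    have b1 : Bdd fun _ : Fin q → ℝ => (1 : ℝ) := bdd_const 1
    have b2 : Bdd fun p : Fin q → ℝ => chi p ^ 2 := bdd_chi.sq
    have b3 : Bdd fun p : Fin q → ℝ => -t * chi p ^ 2 := b2.const_mul _
    have b4 : Bdd fun p : Fin q → ℝ => -t * chi p := bdd_chi.const_mul _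
    have b5 : Bdd (chi (q := q)) := bdd_chi
    have := Ex_star_le (hQ.pw k) hQ bdd_chi (univ : Finset (Fin 6))
      ![chi, fun _ => 1, ψ, α, fun p => -t * chi p ^ 2, fun p => -t * chi p]
      ![fun _ => 1, chi, α, ψ, chi, fun p => chi p ^ 2]
      (fun l _ => by fin_cases l <;> assumption) (fun l _ => by fin_cases l <;> assumption)
      (fun p r hp hr => by
        have := H1 p r hp hr
        simp only [Fin.sum_univ_succ, Fin.sum_univ_zero, Matrix.cons_val_zero, Matrix.cons_val_succ]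
        linarith)
    simp only [Fin.sum_univ_succ, Fin.sum_univ_zero, Matrix.cons_val_zero, Matrix.cons_val_succ,
      Ex_const_mul, hQ.Ex_const hq0, (hQ.pw k).Ex_const hq0] at this
    have h3 := mul_nonpos_of_nonpos_of_nonneg (hpw hQ hψ k) (hQ.Ex_nonneg bα hα)
    have h4 := mul_nonpos_of_nonneg_of_nonpos ((hQ.pw k).Ex_nonneg bα hα) hψ
    linarith
  have hbound : ∀ {Y : Type} {Q : Y → Fin q → ℝ}, SymExp Q → Ex ψ Q ≤ 0 → ∀ k : ℕ,
      Ex chi (pw Q k) ≤ k * Ex chi Q - 2 * t * Ex chi Q ^ 3 *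
        (1 - (if k = 0 then 1 else 0) - (if k = 1 then 1 else 0)) := by
    intro Y Q hQ hψ k
    have hy := hQ.Ex_nonneg bdd_chi fun p _ => chi_nonneg p
    have hsq : Ex chi Q ^ 2 ≤ Ex (fun p => chi p ^ 2) Q := by
      have := hQ.Ex_mono (φ := fun p => 2 * Ex chi Q * chi p - Ex chi Q ^ 2)
        (φ' := fun p => chi p ^ 2) ((bdd_chi.const_mul _).sub (bdd_const _)) bdd_chi.sq
        fun p _ => by nlinarith [sq_nonneg (chi p - Ex chi Q)]
      rw [hQ.Ex_sub (bdd_chi.const_mul _) (bdd_const _), Ex_const_mul, hQ.Ex_const hq0] at this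
      linarith
    rcases k with _ | _ | k
    · simp [Ex_pw_zero hq0, chi_one]
    · simp [Ex_pw_one]
    · simp only [Nat.add_eq_zero_iff, one_ne_zero, and_false, if_false, Nat.add_eq_right, sub_zero,
        mul_one]
      induction k with
      | zero =>
        have h3 := hstep hQ hψ 1
        rw [Ex_pw_one, Ex_pw_one] at h3
        have h4 : Ex chi Q ^ 2 * Ex chi Q ≤ Ex (fun p => chi p ^ 2) Q * Ex chi Q :=
          mul_le_mul_of_nonneg_right hsq hy
        push_cast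
        nlinarith
      | succ k ih =>
        have h3 := hstep hQ hψ (k + 1 + 1)
        have h4 := (hQ.pw (k + 1 + 1)).Ex_nonneg bdd_chi fun p _ => chi_nonneg p
        have h5 := (hQ.pw (k + 1 + 1)).Ex_nonneg bdd_chi.sq fun p _ => sq_nonneg _
        have h6 := hQ.Ex_nonneg bdd_chi.sq fun p _ => sq_nonneg _
        have h7 : 0 ≤ t * (Ex (fun p => chi p ^ 2) (pw Q (k + 1 + 1)) * Ex chi Q +
          Ex chi (pw Q (k + 1 + 1)) * Ex (fun p => chi p ^ 2) Q) := by positivity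
        push_cast at ih ⊢
        linarith
  have hx0 : ∀ n, 0 ≤ Ex chi (lik q ν lam n) := fun n =>
    (hL n).Ex_nonneg bdd_chi fun p _ => chi_nonneg p
  have hrec : ∀ n, Ex chi (lik q ν lam (n + 1)) ≤ d * lam ^ 2 * Ex chi (lik q ν lam n) -
      2 * t * (1 - ν 0 - ν 1) * lam ^ 6 * Ex chi (lik q ν lam n) ^ 3 := by
    intro n
    set y := Ex chi (chanExp lam (lik q ν lam n)) with hy
    have h3 := (hd.mul_right y).sub ((((hν1.sub (hasSum_ite_eq 0 (ν 0))).sub
      (hasSum_ite_eq 1 (ν 1)))).mul_left (2 * t * y ^ 3))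
    refine (hasSum_le (fun k => ?_) (hasSum_tree_step hq h0' h1 hν hν1 n bdd_chi) h3).trans
      (le_of_eq ?_)
    · refine (mul_le_mul_of_nonneg_left (hbound (hQ n) (hchanψ n (hψ n)) k) (hν k)).trans
        (le_of_eq ?_)
      rw [← hy]
      rcases k with _ | _ | k
      · simp
      · simp [mul_comm]
      · simp only [Nat.add_eq_zero_iff, one_ne_zero, and_false, if_false, Nat.add_eq_right]
        ring
    · rw [hy, Ex_chi_chanExp hq0]
      ring
  have hx : Tendsto (fun n => Ex chi (lik q ν lam n)) atTop (𝓝 0) := by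
    rcases h0.eq_or_lt with rfl | hl
    · rw [← tendsto_add_atTop_iff_nat 1]
      refine tendsto_const_nhds.congr fun n => le_antisymm (hx0 _) ?_
      simpa using hrec n
    · refine tendsto_zero_of_cubic (c := 2 * t * (1 - ν 0 - ν 1) * lam ^ 6)
        (by have : 0 < 1 - ν 0 - ν 1 := by linarith
            positivity) hx0 fun n => (hrec n).trans ?_
      have := mul_le_mul_of_nonneg_right hcrit (hx0 n)
      linarith
  rw [Metric.tendsto_atTop]
  intro ε hε
  obtain ⟨N, hN⟩ := eventually_atTop.1 (hx.eventually (gt_mem_nhds (mul_pos hε hε)))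
  refine ⟨N, fun n hn => ?_⟩
  rw [Real.dist_eq, sub_zero, abs_of_nonneg (adv_nonneg hq h0' h1 hν hν1 n)]
  refine (adv_le hq h0' h1 hν hν1 n hε).trans_lt ?_
  have : Ex chi (lik q ν lam n) / ε < ε := by rw [div_lt_iff₀ hε]; exact hN n hn
  linarith

end Vale.Agent.P154
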