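import Vale.Agent.P154.Dom

/-!
Monotonicity of the advantage and the Kesten-Stigum direction.
-/

namespace Vale.Agent.P154

open Finset Filter Topology

variable {q : ℕ}

theorem adv_antitone {q : ℕ} (hq : 2 ≤ q) (lam : ℝ) (h0 : -1 / ((q : ℝ) - 1) ≤ lam) (h1 : lam ≤ 1)
    (ν : ℕ → ℝ) (hν : ∀ k, 0 ≤ ν k) (hν1 : HasSum ν 1) : Antitone (adv q ν lam) := by
  refine antitone_nat_of_succ_le fun n => ?_
  rw [adv_eq (by omega), adv_eq (by omega)]
  exact (dom_lik_succ hq h0 h1 hν hν1 n).Ex_tv_le hq (symExp_lik hq h0 h1 hν hν1 _)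
    (symExp_lik hq h0 h1 hν hν1 _)

lemma sum_perm_apply (g : Fin q → ℝ) (i : Fin q) :
    ∑ τ : Equiv.Perm (Fin q), g (τ i) = q.factorial * avg g := by
  have hq : (q : ℝ) ≠ 0 := by exact_mod_cast (Fin.pos i).ne'
  have h1 : ∀ j, ∑ τ : Equiv.Perm (Fin q), g (τ j) = ∑ τ : Equiv.Perm (Fin q), g (τ i) := by
    intro j
    rw [← Equiv.sum_comp (Equiv.mulRight (Equiv.swap i j))]
    simp
  have h2 : ∑ j, ∑ τ : Equiv.Perm (Fin q), g (τ j) = q.factorial * ∑ j, g j := by
    rw [sum_comm]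
    simp [Equiv.sum_comp _ g, Fintype.card_perm]
  simp only [h1, sum_const, card_univ, Fintype.card_fin, nsmul_eq_mul] at h2
  rw [avg]
  field_simp
  linarith

lemma sum_perm_avg (f g : Fin q → ℝ) :
    ∑ τ : Equiv.Perm (Fin q), avg (fun i => f i * g (τ i)) = q.factorial * (avg f * avg g) := by
  simp only [avg]
  rw [← sum_div, sum_comm]
  simp only [← mul_sum, sum_perm_apply, avg, ← sum_mul]
  ring

lemma hom_chi_ge {y : Fin q → ℝ} (hy : ∀ i, 0 ≤ y i) (g : Fin q → ℝ) :
    2 * avg (fun i => y i * g i) - avg y * avg (fun i => g i ^ 2) - avg y ≤ hom chi y := by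
  by_cases h : avg y = 0
  · simp [hom, eq_zero_of_avg hy h, avg]
  have hp := simp_nrm hy h
  have e : (fun i => y i * g i) = fun i => avg y * (nrm y i * g i) := by
    funext i; rw [← mul_assoc, avg_mul_nrm hy]
  rw [hom_eq, e, avg_mul_left]
  have h2 : 2 * avg (fun i => nrm y i * g i) - avg (fun i => g i ^ 2) - 1 ≤ chi (nrm y) := by
    have h3 : avg (fun i => 2 * (nrm y i * g i) + ((-1) * g i ^ 2 + ((-2) * nrm y i + 1))) ≤
        chi (nrm y) := avg_mono fun i => by nlinarith [sq_nonneg (nrm y i - g i)]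
    rw [avg_add, avg_add, avg_add, avg_mul_left, avg_mul_left, avg_mul_left, hp.2,
      avg_const hp.pos] at h3
    linarith
  nlinarith [mul_le_mul_of_nonneg_left h2 (avg_nonneg hy)]

lemma avg_sq_eq {r : Fin q → ℝ} (hr : Simp r) : avg (fun i => r i ^ 2) = 1 + chi r := by
  have : chi r = avg fun i => r i ^ 2 + ((-2) * r i + 1) := by
    unfold chi; congr 1; funext i; ring
  rw [this, avg_add, avg_add, avg_mul_left, hr.2, avg_const hr.pos]
  ring

lemma Kop_chi_ge_right {p r : Fin q → ℝ} (hp : Simp p) (hr : Simp r) : chi r ≤ Kop chi p r := by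
  have hf : (0 : ℝ) < q.factorial := by positivity
  rw [Kop, le_div_iff₀ hf]
  refine le_trans (le_of_eq ?_) (sum_le_sum fun τ _ =>
    hom_chi_ge (fun i => mul_nonneg (hp.1 i) (hr.1 (τ i))) fun i => r (τ i))
  have e : ∀ τ : Equiv.Perm (Fin q), (fun i => p i * r (τ i) * r (τ i)) =
      fun i => p i * (fun j => r j ^ 2) (τ i) := fun τ => by funext i; ring
  simp only [sum_sub_distrib, ← mul_sum, e, avg_perm (fun j => r j ^ 2), ← sum_mul]
  rw [sum_perm_avg p fun j => r j ^ 2, sum_perm_avg p r, hp.2, hr.2, avg_sq_eq hr]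
  ring

lemma avg_mul_sq_le (f g : Fin q → ℝ) :
    avg (fun i => f i * g i) ^ 2 ≤ avg (fun i => f i ^ 2) * avg (fun i => g i ^ 2) := by
  simp only [avg]
  rw [div_pow, div_mul_div_comm, ← sq]
  exact div_le_div_of_nonneg_right (sum_mul_sq_le_sq_mul_sq _ _ _) (sq_nonneg _)

lemma Kop_chi_ge {p r : Fin q → ℝ} (hp : Simp p) (hr : Simp r) :
    chi p + chi r - 2 * (chi p * chi r) ≤ Kop chi p r := by
  have hf : (0 : ℝ) < q.factorial := by positivity
  have hq := hp.pos
  have hm : avg (fun i => p i - 1) = 0 := by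
    simp only [sub_eq_add_neg]
    rw [avg_add, hp.2, avg_const hq]; ring
  have hm' : avg (fun i => r i - 1) = 0 := by
    simp only [sub_eq_add_neg]
    rw [avg_add, hr.2, avg_const hq]; ring
  have key : ∀ τ : Equiv.Perm (Fin q),
      chi p + chi r - 2 * (chi p * chi r) +
        (2 - chi p - chi r) * avg (fun i => (p i - 1) * (fun j => r j - 1) (τ i)) +
        2 * avg (fun i => (p i - 1) ^ 2 * (fun j => r j - 1) (τ i)) +
        2 * avg (fun i => (p i - 1) * (fun j => (r j - 1) ^ 2) (τ i)) ≤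
      hom chi fun i => p i * r (τ i) := by
    intro τ
    refine le_trans ?_ (hom_chi_ge (fun i => mul_nonneg (hp.1 i) (hr.1 (τ i)))
      fun i => p i + r (τ i) - 1)
    have h1 := avg_perm (fun j => r j - 1) τ
    have h2 : avg (fun i => (r (τ i) - 1) ^ 2) = chi r := avg_perm (fun j => (r j - 1) ^ 2) τ
    have h3 := avg_mul_sq_le (fun i => p i - 1) fun i => r (τ i) - 1
    rw [hm'] at h1
    rw [h2] at h3
    change _ ≤ chi p * chi r at h3
    have hA : avg (fun i => (p i - 1) ^ 2) = chi p := rfl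
    have e1 : (fun i => p i * r (τ i)) = fun i =>
        1 + ((p i - 1) + ((r (τ i) - 1) + (p i - 1) * (r (τ i) - 1))) := by funext i; ring
    have e2 : (fun i => (p i + r (τ i) - 1) ^ 2) = fun i =>
        1 + (2 * (p i - 1) + (2 * (r (τ i) - 1) + ((p i - 1) ^ 2 + ((r (τ i) - 1) ^ 2 +
          2 * ((p i - 1) * (r (τ i) - 1)))))) := by funext i; ring
    have e3 : (fun i => p i * r (τ i) * (p i + r (τ i) - 1)) = fun i =>
        1 + (2 * (p i - 1) + (2 * (r (τ i) - 1) + ((p i - 1) ^ 2 + ((r (τ i) - 1) ^ 2 +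
          (3 * ((p i - 1) * (r (τ i) - 1)) + ((p i - 1) ^ 2 * (r (τ i) - 1) +
            (p i - 1) * (r (τ i) - 1) ^ 2)))))) := by funext i; ring
    rw [e3, e1, e2]
    simp only [avg_add, avg_mul_left, avg_const hq, hm, h1, h2, hA]
    nlinarith
  rw [Kop, le_div_iff₀ hf]
  refine le_trans (le_of_eq ?_) (sum_le_sum fun τ _ => key τ)
  simp only [sum_add_distrib, ← mul_sum]
  rw [sum_perm_avg (fun i => p i - 1) fun j => r j - 1,
    sum_perm_avg (fun i => (p i - 1) ^ 2) fun j => r j - 1,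
    sum_perm_avg (fun i => p i - 1) fun j => (r j - 1) ^ 2, hm, hm']
  simp only [sum_const, card_univ, Fintype.card_perm, Fintype.card_fin, nsmul_eq_mul]
  ring

theorem ks_abstract {q : ℕ} (hq : 2 ≤ q) (lam : ℝ) (h0 : -1 / ((q : ℝ) - 1) ≤ lam) (h1 : lam ≤ 1)
    (ν : ℕ → ℝ) (hν : ∀ k, 0 ≤ ν k) (hν1 : HasSum ν 1) (d : ℝ)
    (hd : HasSum (fun k : ℕ => (k : ℝ) * ν k) d) (hd2 : Summable (fun k : ℕ => (k : ℝ) ^ 2 * ν k))
    (hsup : 1 < d * lam ^ 2) :
    ∃ c : ℝ, 0 < c ∧ Tendsto (adv q ν lam) atTop (𝓝 c) := by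
  have hq0 : 0 < q := by omega
  have hq2 : (2 : ℝ) ≤ q := by exact_mod_cast hq
  have hL := symExp_lik hq h0 h1 hν hν1
  have hQ := fun n => (hL n).chanExp hq h0 h1
  have b1 : Bdd fun _ : Fin q → ℝ => (1 : ℝ) := bdd_const 1
  have b5 : Bdd (chi (q := q)) := bdd_chi
  have b6 : Bdd fun p : Fin q → ℝ => -2 * chi p := bdd_chi.const_mul _
  have hA : ∀ {Y : Type} {Q : Y → Fin q → ℝ}, SymExp Q → ∀ k : ℕ,
      Ex chi Q * (1 - if k = 0 then 1 else 0) ≤ Ex chi (pw Q k) := by
    intro Y Q hQ k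
    rcases k with _ | k
    · simp [Ex_pw_zero hq0, chi_one]
    · rw [Ex_pw_succ]
      have := Ex_star_ge (hQ.pw k) hQ bdd_chi (univ : Finset Unit) (fun _ _ => 1) (fun _ => chi)
        (fun _ _ => b1) (fun _ _ => b5) (fun p r hp hr => by simpa using Kop_chi_ge_right hp hr)
      simpa [(hQ.pw k).Ex_const hq0] using this
  have hB : ∀ {Y : Type} {Q : Y → Fin q → ℝ}, SymExp Q → 2 * Ex chi Q ≤ 1 → ∀ k : ℕ,
      k * Ex chi Q - k ^ 2 * Ex chi Q ^ 2 ≤ Ex chi (pw Q k) := by
    intro Y Q hQ hy k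
    have hy0 := hQ.Ex_nonneg bdd_chi fun p _ => chi_nonneg p
    induction k with
    | zero => simp [Ex_pw_zero hq0, chi_one]
    | succ k ih =>
      rw [Ex_pw_succ]
      have := Ex_star_ge (hQ.pw k) hQ bdd_chi (univ : Finset (Fin 3))
        ![chi, fun _ => 1, fun p => -2 * chi p] ![fun _ => 1, chi, chi]
        (fun l _ => by fin_cases l <;> assumption) (fun l _ => by fin_cases l <;> assumption)
        (fun p r hp hr => by
          have := Kop_chi_ge hp hr
          simp only [Fin.sum_univ_succ, Fin.sum_univ_zero, Matrix.cons_val_zero,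
            Matrix.cons_val_succ]
          linarith)
      simp only [Fin.sum_univ_succ, Fin.sum_univ_zero, Matrix.cons_val_zero, Matrix.cons_val_succ,
        Ex_const_mul, hQ.Ex_const hq0, (hQ.pw k).Ex_const hq0] at this
      have h3 := mul_le_mul_of_nonneg_left ih (by linarith : 0 ≤ 1 - 2 * Ex chi Q)
      have h4 : 0 ≤ (k : ℝ) ^ 2 * Ex chi Q ^ 3 := by positivity
      have h5 : 0 ≤ Ex chi Q ^ 2 := by positivity
      push_cast
      nlinarith
  set x : ℕ → ℝ := fun n => Ex chi (lik q ν lam n) with hx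
  have hx0 : ∀ n, 0 ≤ x n := fun n => (hL n).Ex_nonneg bdd_chi fun p _ => chi_nonneg p
  set D := ∑' k : ℕ, (k : ℝ) ^ 2 * ν k with hD
  have hD0 : 0 ≤ D := tsum_nonneg fun k => mul_nonneg (sq_nonneg _) (hν k)
  have hrecA : ∀ n, (1 - ν 0) * (lam ^ 2 * x n) ≤ x (n + 1) := by
    intro n
    have h3 := (hν1.sub (hasSum_ite_eq 0 (ν 0))).mul_right (lam ^ 2 * x n)
    refine hasSum_le (fun k => ?_) h3 (hasSum_tree_step hq h0 h1 hν hν1 n bdd_chi)
    refine le_trans (le_of_eq ?_) (mul_le_mul_of_nonneg_left (hA (hQ n) k) (hν k))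
    rw [Ex_chi_chanExp hq0]
    split_ifs with hk
    · simp [hk]
    · simp [hx]
  have hrecB : ∀ n, 2 * (lam ^ 2 * x n) ≤ 1 →
      d * (lam ^ 2 * x n) - D * (lam ^ 2 * x n) ^ 2 ≤ x (n + 1) := by
    intro n hn
    have h3 := (hd.mul_right (lam ^ 2 * x n)).sub (hd2.hasSum.mul_right ((lam ^ 2 * x n) ^ 2))
    refine hasSum_le (fun k => ?_) h3 (hasSum_tree_step hq h0 h1 hν hν1 n bdd_chi)
    refine le_trans (le_of_eq ?_) (mul_le_mul_of_nonneg_left
      (hB (hQ n) (by rw [Ex_chi_chanExp hq0]; exact hn) k) (hν k))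
    rw [Ex_chi_chanExp hq0]
    ring
  have hl : 0 < lam ^ 2 := by
    rcases (sq_nonneg lam).eq_or_lt with h | h
    · rw [← h] at hsup; linarith
    · exact h
  have hν0 : ν 0 < 1 := by
    by_contra h
    have h3 : ∀ k : ℕ, (k : ℝ) * ν k = 0 := by
      intro k
      rcases eq_or_ne k 0 with rfl | hk
      · simp
      · have := sum_le_hasSum {0, k} (fun k _ => hν k) hν1
        rw [sum_pair hk.symm] at this
        have h4 : ν k = 0 := le_antisymm (by linarith) (hν k)
        simp [h4]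
    simp only [h3] at hd
    rw [hd.unique hasSum_zero] at hsup
    linarith
  have hx00 : 1 ≤ x 0 := by
    simp only [hx]
    rw [Ex_lik_zero, ← avg_const hq0 1]
    refine avg_mono fun j => ?_
    rw [← avg_const hq0 1]
    refine avg_mono fun i => ?_
    unfold vert
    split_ifs
    · nlinarith
    · norm_num
  set δ := min (1 / 2) ((d * lam ^ 2 - 1) / (lam ^ 2 * (D + 1))) with hδ
  have hδ0 : 0 < δ := lt_min (by norm_num) (div_pos (by linarith) (by positivity))
  set c := min 1 ((1 - ν 0) * δ) with hc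
  have hc0 : 0 < c := lt_min one_pos (mul_pos (by linarith) hδ0)
  have hxc : ∀ n, c ≤ x n := by
    intro n
    induction n with
    | zero => exact (min_le_left _ _).trans hx00
    | succ n ih =>
      rcases le_total (lam ^ 2 * x n) δ with h | h
      · have h3 : lam ^ 2 * x n ≤ 1 / 2 := h.trans (min_le_left _ _)
        have h4 : lam ^ 2 * x n ≤ (d * lam ^ 2 - 1) / (lam ^ 2 * (D + 1)) :=
          h.trans (min_le_right _ _)
        rw [le_div_iff₀ (by positivity)] at h4
        have h5 := hrecB n (by linarith)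
        have h6 := mul_le_mul_of_nonneg_right h4 (hx0 n)
        have h7 : 0 ≤ (lam ^ 2 * x n) ^ 2 := sq_nonneg _
        nlinarith
      · exact (min_le_right _ _).trans
          ((mul_le_mul_of_nonneg_left h (by linarith)).trans (hrecA n))
  have hlow : ∀ n, c / (2 * ((q : ℝ) - 1)) ≤ adv q ν lam n := fun n =>
    le_trans (div_le_div_of_nonneg_right (hxc n) (by linarith)) (adv_ge hq h0 h1 hν hν1 n)
  have hb : BddBelow (Set.range (adv q ν lam)) := ⟨_, by rintro _ ⟨n, rfl⟩; exact hlow n⟩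
  exact ⟨⨅ n, adv q ν lam n, lt_of_lt_of_le (div_pos hc0 (by linarith)) (le_ciInf hlow),
    tendsto_atTop_ciInf (adv_antitone hq lam h0 h1 ν hν hν1) hb⟩

end Vale.Agent.P154
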