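import Mathlib

/-! Kronecker substitution: homogeneous integer polynomials in four variables are handled
through one big integer and a bound on the sum of the absolute values of the coefficients. -/

namespace Vale.Agent.P154

open Finset

structure K where
  N : ℤ
  n : ℕ

abbrev E4 := ℕ × ℕ × ℕ × ℕ

def dg (e : E4) : ℕ := e.1 + e.2.1 + e.2.2.1 + e.2.2.2
def idx (E : ℕ) (e : E4) : ℕ := e.2.1 + E * e.2.2.1 + E * E * e.2.2.2
def mon (x : Fin 4 → ℝ) (e : E4) : ℝ := x 0 ^ e.1 * x 1 ^ e.2.1 * x 2 ^ e.2.2.1 * x 3 ^ e.2.2.2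

def Rep (B E d : ℕ) (a : K) (F : (Fin 4 → ℝ) → ℝ) : Prop :=
  ∃ L : List (ℤ × E4), (∀ t ∈ L, dg t.2 = d) ∧
    a.N = (L.map fun t => t.1 * 2 ^ (B * idx E t.2)).sum ∧
    (L.map fun t => t.1.natAbs).sum ≤ a.n ∧
    ∀ x, F x = (L.map fun t => (t.1 : ℝ) * mon x t.2).sum

def kzero : K := ⟨0, 0⟩
def kone : K := ⟨1, 1⟩
def kadd (a b : K) : K := ⟨Int.add a.N b.N, Nat.add a.n b.n⟩
def kmul (a b : K) : K := ⟨Int.mul a.N b.N, Nat.mul a.n b.n⟩
def ksm (c : ℤ) (a : K) : K := ⟨Int.mul c a.N, Nat.mul c.natAbs a.n⟩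
def kvar (B E : ℕ) (i : ℕ) : K :=
  ⟨Int.ofNat (Nat.shiftLeft 1 (B * (if i = 0 then 0 else if i = 1 then 1 else if i = 2 then E else E * E))), 1⟩

def comb (s t : ℤ × E4) : ℤ × E4 := (s.1 * t.1, s.2 + t.2)

lemma sum_comb {R : Type} [CommSemiring R] (g : ℤ × E4 → R)
    (hg : ∀ s t, g (comb s t) = g s * g t) (L L' : List (ℤ × E4)) :
    ((L.flatMap fun s => L'.map (comb s)).map g).sum = (L.map g).sum * (L'.map g).sum := by
  induction L with
  | nil => simp
  | cons s L ih =>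
    simp only [List.flatMap_cons, List.map_append, List.sum_append, ih, List.map_cons,
      List.sum_cons, add_mul, List.map_map]
    congr 1
    have : (g ∘ comb s) = fun t => g s * g t := funext fun t => hg s t
    rw [this, List.sum_map_mul_left]

variable {B E d d' : ℕ} {a b : K} {F G : (Fin 4 → ℝ) → ℝ}

lemma Rep.congr (h : Rep B E d a F) (e : ∀ x, G x = F x) : Rep B E d a G := by
  obtain ⟨L, h1, h2, h3, h4⟩ := h
  exact ⟨L, h1, h2, h3, fun x => (e x).trans (h4 x)⟩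

lemma Rep.deg (h : Rep B E d a F) (e : d = d') : Rep B E d' a F := e ▸ h

lemma rep_zero : Rep B E d kzero fun _ => 0 := ⟨[], by simp, by simp [kzero], by simp, by simp⟩

lemma rep_one : Rep B E 0 kone fun _ => 1 :=
  ⟨[(1, (0, 0, 0, 0))], by simp [dg], by simp [kone, idx], by simp [kone], by simp [mon]⟩

lemma Rep.add (h : Rep B E d a F) (h' : Rep B E d b G) :
    Rep B E d (kadd a b) fun x => F x + G x := by
  obtain ⟨L, h1, h2, h3, h4⟩ := h
  obtain ⟨L', g1, g2, g3, g4⟩ := h'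
  refine ⟨L ++ L', ?_, ?_, ?_, ?_⟩
  · intro t ht
    rcases List.mem_append.1 ht with h | h
    exacts [h1 t h, g1 t h]
  · simp only [kadd, List.map_append, List.sum_append, ← h2, ← g2]; rfl
  · simp only [kadd, List.map_append, List.sum_append]
    exact Nat.add_le_add h3 g3
  · intro x; simp only [List.map_append, List.sum_append, h4, g4]

lemma Rep.mul (h : Rep B E d a F) (h' : Rep B E d' b G) :
    Rep B E (d + d') (kmul a b) fun x => F x * G x := by
  obtain ⟨L, h1, h2, h3, h4⟩ := h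
  obtain ⟨L', g1, g2, g3, g4⟩ := h'
  refine ⟨L.flatMap fun s => L'.map (comb s), ?_, ?_, ?_, ?_⟩
  · intro t ht
    obtain ⟨s, hs, ht⟩ := List.mem_flatMap.1 ht
    obtain ⟨u, hu, rfl⟩ := List.mem_map.1 ht
    have := h1 s hs
    have := g1 u hu
    simp only [dg, comb, Prod.fst_add, Prod.snd_add] at *
    omega
  · rw [sum_comb (fun t => t.1 * 2 ^ (B * idx E t.2)), ← h2, ← g2]
    · rfl
    · intro s t
      simp only [comb, idx, Prod.fst_add, Prod.snd_add]
      rw [show B * (s.2.2.1 + t.2.2.1 + E * (s.2.2.2.1 + t.2.2.2.1) + E * E * (s.2.2.2.2 + t.2.2.2.2))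
        = B * (s.2.2.1 + E * s.2.2.2.1 + E * E * s.2.2.2.2)
          + B * (t.2.2.1 + E * t.2.2.2.1 + E * E * t.2.2.2.2) by ring, pow_add]
      ring
  · rw [sum_comb (fun t => t.1.natAbs)]
    · exact Nat.mul_le_mul h3 g3
    · intro s t; simp [comb, Int.natAbs_mul]
  · intro x
    rw [sum_comb (fun t => (t.1 : ℝ) * mon x t.2), ← h4, ← g4]
    intro s t
    simp only [comb, mon, Prod.fst_add, Prod.snd_add, pow_add, Int.cast_mul]
    ring

lemma Rep.sm (c : ℤ) (h : Rep B E d a F) : Rep B E d (ksm c a) fun x => c * F x := by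
  obtain ⟨L, h1, h2, h3, h4⟩ := h
  refine ⟨L.map fun t => (c * t.1, t.2), ?_, ?_, ?_, ?_⟩
  · intro t ht
    obtain ⟨u, hu, rfl⟩ := List.mem_map.1 ht
    exact h1 u hu
  · simp only [ksm, List.map_map, Function.comp_def, h2, mul_assoc, List.sum_map_mul_left]; rfl
  · simp only [ksm, List.map_map, Function.comp_def, Int.natAbs_mul, List.sum_map_mul_left]
    exact Nat.mul_le_mul_left _ h3
  · intro x
    simp only [List.map_map, Function.comp_def, h4, Int.cast_mul, mul_assoc, List.sum_map_mul_left]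

lemma rep_var (i : Fin 4) : Rep B E 1 (kvar B E i) fun x => x i := by
  fin_cases i
  · exact ⟨[(1, (1, 0, 0, 0))], by simp [dg], by simp [kvar, idx, Nat.shiftLeft_eq], by simp [kvar],
      by simp [mon]⟩
  · exact ⟨[(1, (0, 1, 0, 0))], by simp [dg], by simp [kvar, idx, Nat.shiftLeft_eq], by simp [kvar],
      by simp [mon]⟩
  · exact ⟨[(1, (0, 0, 1, 0))], by simp [dg], by simp [kvar, idx, Nat.shiftLeft_eq], by simp [kvar],
      by simp [mon]⟩
  · exact ⟨[(1, (0, 0, 0, 1))], by simp [dg], by simp [kvar, idx, Nat.shiftLeft_eq], by simp [kvar],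
      by simp [mon]⟩

/-! ### collecting coefficients -/

def dsum (E t : ℕ) : ℕ := t % E + t / E % E + t / E / E

def monT (E d : ℕ) (x : Fin 4 → ℝ) (t : ℕ) : ℝ :=
  x 0 ^ (d - dsum E t) * x 1 ^ (t % E) * x 2 ^ (t / E % E) * x 3 ^ (t / E / E)

lemma monT_nonneg {x : Fin 4 → ℝ} (hx : ∀ i, 0 ≤ x i) (t : ℕ) : 0 ≤ monT E d x t := by
  have := hx 0; have := hx 1; have := hx 2; have := hx 3
  unfold monT; positivity

lemma idx_digits {e : E4} (he : dg e = d) (hE : d < E) :
    idx E e % E = e.2.1 ∧ idx E e / E % E = e.2.2.1 ∧ idx E e / E / E = e.2.2.2 := by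
  obtain ⟨e0, e1, e2, e3⟩ := e
  simp only [dg, idx] at *
  have h1 : e1 < E := by omega
  have h2 : e2 < E := by omega
  have hE0 : 0 < E := by omega
  have k1 : (e1 + E * e2 + E * E * e3) / E = e2 + E * e3 := by
    rw [show e1 + E * e2 + E * E * e3 = e1 + E * (e2 + E * e3) by ring, Nat.add_mul_div_left _ _ hE0,
      Nat.div_eq_of_lt h1, zero_add]
  refine ⟨?_, ?_, ?_⟩
  · rw [show e1 + E * e2 + E * E * e3 = e1 + E * (e2 + E * e3) by ring, Nat.add_mul_mod_self_left,
      Nat.mod_eq_of_lt h1]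
  · rw [k1, Nat.add_mul_mod_self_left, Nat.mod_eq_of_lt h2]
  · rw [k1, Nat.add_mul_div_left _ _ hE0, Nat.div_eq_of_lt h2, zero_add]

lemma idx_lt {e : E4} (he : dg e = d) (hE : d < E) : idx E e < d * (E * E) + 1 := by
  obtain ⟨e0, e1, e2, e3⟩ := e
  simp only [dg, idx] at *
  subst he
  have h1 : 1 ≤ E := by omega
  have h2 : E ≤ E * E := Nat.le_mul_self E
  have h3 : e1 ≤ e1 * (E * E) := Nat.le_mul_of_pos_right _ (by positivity)
  have h4 : E * e2 ≤ e2 * (E * E) := by rw [mul_comm]; exact Nat.mul_le_mul_left _ h2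
  nlinarith [Nat.zero_le (e0 * (E * E))]

lemma Rep.collect (h : Rep B E d a F) (hE : d < E) :
    ∃ C : ℕ → ℤ, (∀ t, (C t).natAbs ≤ a.n) ∧ (∀ t, d < dsum E t → C t = 0) ∧
      a.N = ∑ t ∈ range (d * (E * E) + 1), C t * 2 ^ (B * t) ∧
      ∀ x, F x = ∑ t ∈ range (d * (E * E) + 1), (C t : ℝ) * monT E d x t := by
  obtain ⟨L, h1, h2, h3, h4⟩ := h
  have key : ∃ C : ℕ → ℤ, (∀ t, (C t).natAbs ≤ (L.map fun t => t.1.natAbs).sum) ∧
      (∀ t, d < dsum E t → C t = 0) ∧
      (L.map fun t => t.1 * 2 ^ (B * idx E t.2)).sum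
        = ∑ t ∈ range (d * (E * E) + 1), C t * 2 ^ (B * t) ∧
      ∀ x, (L.map fun t => (t.1 : ℝ) * mon x t.2).sum
        = ∑ t ∈ range (d * (E * E) + 1), (C t : ℝ) * monT E d x t := by
    clear h2 h3 h4
    induction L with
    | nil => exact ⟨fun _ => 0, by simp, by simp, by simp, by simp⟩
    | cons s L ih =>
      obtain ⟨C, c1, c2, c3, c4⟩ := ih fun t ht => h1 t (List.mem_cons_of_mem _ ht)
      have hs := h1 s List.mem_cons_self
      obtain ⟨k1, k2, k3⟩ := idx_digits hs hE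
      have hlt := mem_range.2 (idx_lt hs hE)
      have hds : dsum E (idx E s.2) ≤ d := by
        simp only [dsum, k1, k2, k3]; simp only [dg] at hs; omega
      refine ⟨fun t => (if t = idx E s.2 then s.1 else 0) + C t, ?_, ?_, ?_, ?_⟩
      · intro t
        have := c1 t
        simp only [List.map_cons, List.sum_cons]
        refine (Int.natAbs_add_le _ _).trans (Nat.add_le_add ?_ this)
        split_ifs <;> simp
      · intro t ht
        beta_reduce
        rw [c2 t ht, if_neg]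
        · simp
        · rintro rfl; omega
      · simp only [List.map_cons, List.sum_cons, c3, add_mul, sum_add_distrib, ite_mul, zero_mul,
          sum_ite_eq', hlt, if_true]
      · intro x
        simp only [List.map_cons, List.sum_cons, c4, Int.cast_add, add_mul, sum_add_distrib,
          Int.cast_ite, Int.cast_zero, ite_mul, zero_mul, sum_ite_eq', hlt, if_true]
        congr 2
        simp only [mon, monT, dsum, k1, k2, k3]
        congr 4
        simp only [dg] at hs; omega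
  obtain ⟨C, c1, c2, c3, c4⟩ := key
  exact ⟨C, fun t => (c1 t).trans h3, c2, h2.trans c3, fun x => (h4 x).trans (c4 x)⟩

/-! ### digits -/

lemma digit_extract (B : ℕ) (J : ℕ) (c : ℕ → ℕ) (hc : ∀ t, c t < 2 ^ B) (t : ℕ) (ht : t < J) :
    (∑ u ∈ range J, c u * 2 ^ (B * u)) / 2 ^ (B * t) % 2 ^ B = c t := by
  induction J generalizing c t with
  | zero => omega
  | succ J ih =>
    rw [sum_range_succ']
    have e : ∑ u ∈ range J, c (u + 1) * 2 ^ (B * (u + 1))
        = 2 ^ B * ∑ u ∈ range J, c (u + 1) * 2 ^ (B * u) := by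
      rw [mul_sum]; refine sum_congr rfl fun u _ => ?_; rw [mul_add, pow_add]; ring
    rw [e]
    cases t with
    | zero =>
      simp only [mul_zero, pow_zero, mul_one, Nat.div_one]
      rw [Nat.mul_add_mod, Nat.mod_eq_of_lt (hc 0)]
    | succ t =>
      have : 2 ^ (B * (t + 1)) = 2 ^ B * 2 ^ (B * t) := by rw [mul_add, pow_add]; ring
      rw [this, ← Nat.div_div_eq_div_mul, mul_zero, pow_zero, mul_one,
        Nat.mul_add_div (by positivity), Nat.div_eq_of_lt (hc 0), add_zero]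
      exact ih (fun u => c (u + 1)) (fun u => hc _) t (by omega)

/-- the number whose `J` fields of `B + 1` bits all equal `2 ^ B` -/
def off (B J : ℕ) : ℕ :=
  Nat.shiftLeft (Nat.div (Nat.sub (Nat.shiftLeft 1 ((B + 1) * J)) 1)
    (Nat.sub (Nat.shiftLeft 1 (B + 1)) 1)) B

lemma off_eq (B J : ℕ) : off B J = ∑ u ∈ range J, 2 ^ B * 2 ^ ((B + 1) * u) := by
  have h2 : 2 ≤ 2 ^ (B + 1) := by
    calc 2 = 2 ^ 1 := rfl
      _ ≤ _ := Nat.pow_le_pow_right (by norm_num) (by omega)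
  rw [← mul_sum]
  simp_rw [pow_mul]
  rw [Nat.geomSum_eq h2]
  simp only [off, Nat.shiftLeft_eq', Nat.shiftLeft_eq, one_mul, Nat.sub_eq, pow_mul]
  rw [mul_comm]; rfl

/-- shifted value -/
def shf (o : ℕ) (N : ℤ) : ℕ := Int.toNat (Int.add N (Int.ofNat o))

def dec (B : ℕ) (M t : ℕ) : ℤ :=
  Int.subNatNat (Nat.mod (Nat.shiftRight M ((B + 1) * t)) (Nat.shiftLeft 1 (B + 1))) (Nat.shiftLeft 1 B)

lemma shf_eq {J : ℕ} {C : ℕ → ℤ} (hC : ∀ t, (C t).natAbs < 2 ^ B) :
    shf (off B J) (∑ t ∈ range J, C t * 2 ^ ((B + 1) * t))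
      = ∑ t ∈ range J, (C t + 2 ^ B).toNat * 2 ^ ((B + 1) * t) := by
  unfold shf
  have : Int.add (∑ t ∈ range J, C t * 2 ^ ((B + 1) * t)) (Int.ofNat (off B J))
      = ((∑ t ∈ range J, (C t + 2 ^ B).toNat * 2 ^ ((B + 1) * t) : ℕ) : ℤ) := by
    rw [off_eq]
    simp only [Int.add_def, Int.ofNat_eq_natCast, Nat.cast_sum, Nat.cast_mul, Nat.cast_pow,
      Nat.cast_ofNat, ← sum_add_distrib]
    refine sum_congr rfl fun t _ => ?_
    have h := hC t
    have h' : ((C t).natAbs : ℤ) < 2 ^ B := by exact_mod_cast h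
    rw [Int.toNat_of_nonneg (by omega)]; ring
  rw [this, Int.toNat_natCast]

lemma field_lt {C : ℕ → ℤ} (hC : ∀ t, (C t).natAbs < 2 ^ B) (t : ℕ) :
    (C t + 2 ^ B).toNat < 2 ^ (B + 1) := by
  have h := hC t
  have h' : ((C t).natAbs : ℤ) < 2 ^ B := by exact_mod_cast h
  have : (((C t + 2 ^ B).toNat : ℕ) : ℤ) < ((2 ^ (B + 1) : ℕ) : ℤ) := by
    rw [Int.toNat_of_nonneg (by omega)]; push_cast; rw [pow_succ]; omega
  exact_mod_cast this

lemma dec_eq {J : ℕ} {C : ℕ → ℤ} (hC : ∀ t, (C t).natAbs < 2 ^ B) {t : ℕ} (ht : t < J) :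
    dec B (shf (off B J) (∑ t ∈ range J, C t * 2 ^ ((B + 1) * t))) t = C t := by
  rw [shf_eq hC]
  have := digit_extract (B + 1) J (fun t => (C t + 2 ^ B).toNat) (field_lt hC) t ht
  simp only [dec, Nat.shiftLeft_eq', Nat.shiftLeft_eq, one_mul, Nat.shiftRight_eq,
    Nat.shiftRight_eq_div_pow, Int.subNatNat_eq_coe]
  rw [show ∀ u v : ℕ, u.mod v = u % v from fun _ _ => rfl, this]
  have h := hC t
  have h' : ((C t).natAbs : ℤ) < 2 ^ B := by exact_mod_cast h
  rw [Int.toNat_of_nonneg (by omega)]; push_cast; ring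

def nnB (B o : ℕ) (a : K) : Bool :=
  Bool.and (Nat.blt a.n (Nat.shiftLeft 1 B)) (Nat.beq (Nat.land (shf o a.N) o) o)

lemma nn_fields {J : ℕ} {C : ℕ → ℤ} (hC : ∀ t, (C t).natAbs < 2 ^ B)
    (h : Nat.land (shf (off B J) (∑ t ∈ range J, C t * 2 ^ ((B + 1) * t))) (off B J) = off B J)
    {t : ℕ} (ht : t < J) : 0 ≤ C t := by
  rw [shf_eq hC] at h
  have h1 := digit_extract (B + 1) J (fun t => (C t + 2 ^ B).toNat) (field_lt hC) t ht
  have h2 := digit_extract (B + 1) J (fun _ => 2 ^ B)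
    (fun _ => Nat.pow_lt_pow_right (by norm_num) (by omega)) t ht
  rw [← off_eq] at h2
  have b2 : (off B J).testBit (B + (B + 1) * t) = true := by
    have := congrArg (fun z => Nat.testBit z B) h2
    simpa [Nat.testBit_mod_two_pow, Nat.testBit_div_two_pow] using this
  have b1 : (∑ t ∈ range J, (C t + 2 ^ B).toNat * 2 ^ ((B + 1) * t)).testBit (B + (B + 1) * t)
      = true := by
    have := congrArg (fun z => Nat.testBit z (B + (B + 1) * t)) h
    simp only [Nat.land_eq, Nat.testBit_and, b2, Bool.and_true] at this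
    exact this
  have b3 : ((C t + 2 ^ B).toNat).testBit B = true := by
    rw [← h1, Nat.testBit_mod_two_pow, Nat.testBit_div_two_pow, b1]; simp
  have := Nat.ge_two_pow_of_testBit b3
  have h' : ((2 ^ B : ℕ) : ℤ) ≤ ((C t + 2 ^ B).toNat : ℤ) := by exact_mod_cast this
  push_cast at h'
  have hp : (0 : ℤ) < 2 ^ B := by positivity
  omega

theorem Rep.nonneg (h : Rep (B + 1) E d a F) (hE : d < E)
    (hc : nnB B (off B (d * (E * E) + 1)) a = true) {x : Fin 4 → ℝ} (hx : ∀ i, 0 ≤ x i) :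
    0 ≤ F x := by
  obtain ⟨C, c1, -, c3, c4⟩ := h.collect hE
  simp only [nnB, Bool.and_eq_true, Nat.blt_eq, Nat.beq_eq, Nat.shiftLeft_eq', Nat.shiftLeft_eq,
    one_mul] at hc
  have hC : ∀ t, (C t).natAbs < 2 ^ B := fun t => (c1 t).trans_lt hc.1
  rw [c4]
  refine sum_nonneg fun t ht => mul_nonneg ?_ (monT_nonneg hx t)
  have := nn_fields hC (c3 ▸ hc.2) (mem_range.1 ht)
  exact_mod_cast this

end Vale.Agent.P154
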