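import Vale.Agent.P154.LatCode

/-! Kernel runs of the lattice computation, part 1. -/

namespace Vale.Agent.P154.Lat

theorem chk_tb1 : chkAll 1 tb1 0 = true := by decide +kernel

theorem chk_tb2 : chkAll 0 tb2 0 = true := by decide +kernel

theorem run_st0 : run 13 st0 = st1 :=
  Nat.eq_of_beq_eq_true (by decide +kernel)

theorem run_st1 : run 13 st1 = st2 :=
  Nat.eq_of_beq_eq_true (by decide +kernel)

theorem run_st2 : run 13 st2 = st3 :=
  Nat.eq_of_beq_eq_true (by decide +kernel)

theorem run_st3 : run 13 st3 = st4 :=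
  Nat.eq_of_beq_eq_true (by decide +kernel)

end Vale.Agent.P154.Lat
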