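import Vale.Agent.P154.LatCode
import Vale.Agent.P154.LatRun1

/-! Kernel runs of the lattice computation, part 2. -/

namespace Vale.Agent.P154.Lat

theorem fin_st8 : fin st8 = true := by decide +kernel

theorem run_st4 : run 13 st4 = st5 :=
  Nat.eq_of_beq_eq_true (by decide +kernel)

theorem run_st5 : run 13 st5 = st6 :=
  Nat.eq_of_beq_eq_true (by decide +kernel)

theorem run_st6 : run 13 st6 = st7 :=
  Nat.eq_of_beq_eq_true (by decide +kernel)

theorem run_st7 : run 13 st7 = st8 :=
  Nat.eq_of_beq_eq_true (by decide +kernel)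

end Vale.Agent.P154.Lat
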