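import Vale.Agent.P154.LatStep
import Vale.Agent.P154.LatRun1
import Vale.Agent.P154.LatRun2

/-! Proper three-colourings of the four-ary tree: the chi-square information drops below 1/2. -/

namespace Vale.Agent.P154

open Finset

namespace Lat

lemma sym_lik (n : ℕ) : SymExp (lik 3 (dary 4) (-1 / 2) n) :=
  symExp_lik (by norm_num) (by norm_num) (by norm_num) (law_dary (by norm_num)).nonneg
    (law_dary (by norm_num)).one n

lemma inv_succ {n acc : ℕ}
    (h : Inv (P154.pw (chanExp (-1 / 2) (lik 3 (dary 4) (-1 / 2) n)) 4) acc) :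
    Inv (lik 3 (dary 4) (-1 / 2) (n + 1)) acc := fun D hD => by
  have hC : SymExp (chanExp (-1 / 2) (lik 3 (dary 4) (-1 / 2) n)) :=
    (sym_lik n).chanExp (by norm_num) (by norm_num) (by norm_num)
  have h1 := hasSum_mix_good (law_dary (d := 4) (by norm_num)).nonneg (law_dary (by norm_num)).one
    hC (good_Gc hD.good)
  have h2 := h1.unique (hasSum_single 4 fun k hk => by simp [dary, hk])
  have h3 : ∑' y, Gc D (lik 3 (dary 4) (-1 / 2) (n + 1) y) =
      ∑' x, Gc D (mix (dary 4) (chanExp (-1 / 2) (lik 3 (dary 4) (-1 / 2) n)) x) := by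
    rw [lik_succ]
    exact List.equivSigmaTuple.tsum_eq
      fun x => Gc D (mix (dary 4) (chanExp (-1 / 2) (lik 3 (dary 4) (-1 / 2) n)) x)
  rw [h3, h2, dary, if_pos rfl, one_mul]
  exact h D hD

lemma iter_succ (f : ℕ → ℕ) (k a : ℕ) : iter f (k + 1) a = iter f k (f a) := rfl

lemma mkT_eq {α : Type} (T : List (ℕ × List ℕ)) (k : List (ℕ × List ℕ) → α) :
    mkT T k = k (T.map fun p => (p.1, p.2.map mkV)) :=
  mapL_eq _ _ (fun p k => by
    obtain ⟨s, xs⟩ := p
    exact mapL_eq (fun x => fZ (mkV x)) mkV (fun _ _ => rfl) xs fun Vs => k (s, Vs)) T k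

lemma jl_eq : jl = List.range 38 := by decide

lemma shl (n : ℕ) : Nat.shiftLeft 1 n = 2 ^ n := by
  rw [Nat.shiftLeft_eq', Nat.shiftLeft_eq, one_mul]

lemma run_eq (n acc : ℕ) : run n acc =
    iter (step (2 ^ 115) (2 ^ 96) (2 ^ 116) (2 ^ 10848) (tb1.map fun p => (p.1, p.2.map mkV))
      (tb2.map fun p => (p.1, p.2.map mkV)) ((List.range 38).map yy)
      ((List.range 38).map fun _ => 6)) n acc := by
  unfold run
  rw [fZ_eq', fZ_eq', fZ_eq', fZ_eq', mkT_eq, mkT_eq, mapL_eq _ yy (fun _ _ => fZ_eq' _ _),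
    mapL_eq _ (fun _ => 6) (fun _ _ => fZ_eq' _ _), shl, shl, shl, shl, jl_eq]

lemma run_sound (k : ℕ) {n acc : ℕ} (h : Inv (lik 3 (dary 4) (-1 / 2) n) acc) :
    Inv (lik 3 (dary 4) (-1 / 2) (n + k)) (run k acc) := by
  rw [run_eq]
  induction k generalizing n acc with
  | zero => exact h
  | succ k ih =>
    rw [iter_succ, add_comm k 1, ← add_assoc]
    exact ih (inv_succ (step_sound chk_tb1 chk_tb2 (sym_lik n) h))

lemma inv_st8 : Inv (lik 3 (dary 4) (-1 / 2) 104) st8 := by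
  have h0 : Inv (lik 3 (dary 4) (-1 / 2) 0) st0 := inv_zero (sym_lik 0)
  have h1 := run_st0 ▸ run_sound 13 h0
  have h2 := run_st1 ▸ run_sound 13 h1
  have h3 := run_st2 ▸ run_sound 13 h2
  have h4 := run_st3 ▸ run_sound 13 h3
  have h5 := run_st4 ▸ run_sound 13 h4
  have h6 := run_st5 ▸ run_sound 13 h5
  have h7 := run_st6 ▸ run_sound 13 h6
  exact run_st7 ▸ run_sound 13 h7

noncomputable def D2 : F3 := fun l => (∑ i, l i ^ 2) / (∑ i, l i) - ∑ i, l i

lemma hom_chi (l : Fin 3 → ℝ) : hom chi l = D2 l + 2 * avg l := by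
  simp only [hom, chi, avg, D2, Fin.sum_univ_three]
  by_cases h : l 0 + l 1 + l 2 = 0
  · simp [h]
  · push_cast
    field_simp
    ring

lemma titu {a b s t : ℝ} (ha : 0 ≤ a) (hb : 0 ≤ b) (hs : a ≤ s) (ht : b ≤ t) :
    (a + b) ^ 2 / (s + t) ≤ a ^ 2 / s + b ^ 2 / t := by
  rcases (ha.trans hs).eq_or_lt with rfl | hs0
  · rw [le_antisymm hs ha]; simp
  rcases (hb.trans ht).eq_or_lt with rfl | ht0
  · rw [le_antisymm ht hb]; simp
  rw [div_add_div _ _ hs0.ne' ht0.ne', div_le_div_iff₀ (by positivity) (by positivity)]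
  nlinarith [sq_nonneg (a * t - b * s)]

lemma dg_D2 : Dg D2 := by
  refine ⟨⟨fun c l _ _ => ?_, fun l l' hl hl' => ?_, fun σ l _ => ?_, ?_⟩, ?_⟩
  · have h := hom_smul chi c l
    rw [hom_chi, hom_chi, avg_mul_left] at h
    linarith
  · have h : ∑ i, (l i + l' i) ^ 2 / (∑ i, l i + ∑ i, l' i) ≤
        ∑ i, (l i ^ 2 / ∑ i, l i + l' i ^ 2 / ∑ i, l' i) :=
      sum_le_sum fun i _ => titu (hl i) (hl' i) (single_le_sum (fun j _ => hl j) (mem_univ i))
        (single_le_sum (fun j _ => hl' j) (mem_univ i))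
    simp only [sum_add_distrib, ← sum_div] at h
    simp only [D2, sum_add_distrib]
    linarith
  · simp only [D2, Equiv.sum_comp σ l, Equiv.sum_comp σ fun i => l i ^ 2]
  · obtain ⟨C, hC⟩ := bdd_chi (q := 3)
    refine ⟨C + 2, fun l hl => ?_⟩
    have h := abs_le.1 (abs_hom_le hC hl)
    have := avg_nonneg hl
    rw [hom_chi] at h
    rw [abs_le]
    constructor <;> linarith [h.1, h.2]
  · simp [D2, e0, Fin.sum_univ_three]

lemma gam_D2 (j : ℕ) : 1048576 * gam D2 j ≤ -(ff j : ℝ) := by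
  have h0 := a0_le j
  have h1 := a1_le j
  have h2 := a2_le j
  have h : (ff j : ℝ) ≤ _ := Nat.cast_div_le
  simp only [Nat.add_eq, Nat.mul_eq, Nat.cast_mul, Nat.cast_add, Nat.cast_ofNat] at h
  rw [pw_cast (by omega), pw_cast (by omega), pw_cast (by omega), pw_cast (by omega),
    pw_cast (by omega), pw_cast (by omega)] at h
  obtain ⟨v0, v1, v2⟩ := vec_atm j
  simp only [gam, D2, Fin.sum_univ_three, v0, v1, v2]
  simp only [pow_add] at h
  have p0 : (0 : ℝ) < (8 / 7 : ℝ) ^ a0 j := by positivity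
  have p1 : (0 : ℝ) < (8 / 7 : ℝ) ^ a1 j := by positivity
  have p2 : (0 : ℝ) < (8 / 7 : ℝ) ^ a2 j := by positivity
  have ha : (0 : ℝ) < (8 / 7 : ℝ) ^ 18 := by positivity
  have ht : (0 : ℝ) < 7 ^ 216 := by positivity
  generalize (8 / 7 : ℝ) ^ a0 j = x at *
  generalize (8 / 7 : ℝ) ^ a1 j = y at *
  generalize (8 / 7 : ℝ) ^ a2 j = z at *
  generalize (8 / 7 : ℝ) ^ 18 = a at *
  generalize (7 : ℝ) ^ 216 = t at *
  rw [le_neg]
  refine h.trans (le_of_eq ?_)
  field_simp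
  ring

lemma fin_sound {Y : Type} {L : Y → Fin 3 → ℝ} {acc : ℕ} (hL : SymExp L) (h : Inv L acc)
    (hf : fin acc = true) : Ex chi L ≤ 1 / 2 := by
  have hC : SymExp (chanExp (-1 / 2) L) := hL.chanExp (by norm_num) (by norm_num) (by norm_num)
  have e : ∀ X s : ℕ, Nat.shiftRight X s = X / 2 ^ s := Nat.shiftRight_eq_div_pow
  have e1 : Nat.shiftRight acc 4524 = acc / 2 ^ (116 * 39) := e acc (116 * 39)
  rw [fin, Bool.and_eq_true, Nat.ble_eq, Nat.ble_eq, e1, shl, shl, jl_eq, dot_range, e,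
    zero_add] at hf
  have h1 := inv_dec h hf.1 dg_D2
  have h2 : (32985348833280 : ℝ) ≤ ∑ j ∈ range 38, (wOf acc j : ℝ) * ff j := by
    exact_mod_cast hf.2
  have h3 : 1048576 * ∑ j ∈ range 38, (wOf acc j : ℝ) * gam D2 j ≤
      -∑ j ∈ range 38, (wOf acc j : ℝ) * ff j := by
    rw [mul_sum, ← sum_neg_distrib]
    refine sum_le_sum fun j _ => ?_
    have := mul_le_mul_of_nonneg_left (gam_D2 j) (Nat.cast_nonneg (α := ℝ) (wOf acc j))
    linarith
  have h4 : (zOf acc : ℝ) * (3 * D2 U0) ≤ 0 :=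
    mul_nonpos_of_nonneg_of_nonpos (Nat.cast_nonneg _) (by linarith [dg_D2.nonpos U0_nonneg])
  have h5 : Ex chi (chanExp (-1 / 2) L) = ∑' y, Gc D2 (L y) + 2 * 1 := by
    simp only [Ex, hom_chi]
    exact ((hC.summable_good dg_D2.good).hasSum.add
      ((hC.hasSum_avg (by norm_num)).mul_left 2)).tsum_eq
  rw [Ex_chi_chanExp (by norm_num)] at h5
  linarith

end Lat

theorem lat_final : ∃ n, Ex chi (lik 3 (dary 4) (-1 / 2) n) ≤ 1 / 2 :=
  ⟨104, Lat.fin_sound (Lat.sym_lik 104) Lat.inv_st8 Lat.fin_st8⟩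

end Vale.Agent.P154
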