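import Vale.Agent.P154.AFDefs

/-! Finite measures on exponent vectors and upper bounds for symmetric experiments. -/

namespace Vale.Agent.P154.Lat

open Finset Vale.Agent.P154 AddMonoidAlgebra
open scoped Pointwise

abbrev M := Fin 3 → ℕ × ℕ
abbrev R := AddMonoidAlgebra ℕ M

noncomputable def E {α : Type} [CommSemiring α] (g : M → α) (x : R) : α :=
  ∑ m ∈ x.coeff.support, (x.coeff m : α) * g m

section
variable {α : Type} [CommSemiring α] (g g' : M → α) (x y : R)

lemma E_zero : E g 0 = 0 := by simp [E]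

lemma E_add : E g (x + y) = E g x + E g y :=
  Finsupp.sum_add_index' (f := x.coeff) (g := y.coeff) (h := fun m c => (c : α) * g m)
    (fun _ => by simp) fun _ _ _ => by simp [add_mul]

lemma E_single (m : M) (c : ℕ) : E g (single m c) = c * g m :=
  Finsupp.sum_single_index (a := m) (b := c) (h := fun m c => (c : α) * g m) (by simp)

lemma E_sum {ι : Type} (s : Finset ι) (f : ι → R) : E g (∑ i ∈ s, f i) = ∑ i ∈ s, E g (f i) := by
  classical
  induction s using Finset.induction_on with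
  | empty => simp [E_zero]
  | insert a s ha ih => rw [sum_insert ha, sum_insert ha, E_add, ih]

lemma E_fadd : E (fun m => g m + g' m) x = E g x + E g' x := by
  simp only [E, mul_add, sum_add_distrib]

lemma E_fmul (c : α) : E (fun m => c * g m) x = c * E g x := by
  simp only [E, mul_sum, mul_left_comm]

lemma E_fsum {ι : Type} (s : Finset ι) (f : ι → M → α) :
    E (fun m => ∑ i ∈ s, f i m) x = ∑ i ∈ s, E (f i) x := by
  simp only [E, mul_sum]
  exact sum_comm

lemma E_mul : E g (x * y) = E (fun m => E (fun m' => g (m + m')) y) x := by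
  induction x using AddMonoidAlgebra.induction_linear with
  | zero => simp [E_zero]
  | add x x' h h' => rw [add_mul, E_add, E_add, h, h']
  | single m c =>
    rw [E_single]
    induction y using AddMonoidAlgebra.induction_linear with
    | zero => simp [E_zero]
    | add y y' h h' => rw [mul_add, E_add, E_add, h, h', mul_add]
    | single m' c' => rw [single_mul_single, E_single, E_single, Nat.cast_mul, mul_assoc]

lemma E_mul_hom (h : ∀ m m', g (m + m') = g m * g m') : E g (x * y) = E g x * E g y := by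
  rw [E_mul]
  simp only [h, E_fmul]
  simp only [mul_comm _ (E g y), E_fmul]

lemma E_one : E g 1 = g 0 := by rw [one_def, E_single]; simp

end

def Sup (P : M → Prop) (x : R) : Prop := ∀ m ∈ x.coeff.support, P m

variable {P Q S : M → Prop} {x y : R}

lemma Sup.add (h : Sup P x) (h' : Sup P y) : Sup P (x + y) := fun m hm => by
  rcases mem_union.1 (Finsupp.support_add hm) with h1 | h1
  exacts [h m h1, h' m h1]

lemma Sup.mul (h : Sup P x) (h' : Sup Q y) (hS : ∀ m m', P m → Q m' → S (m + m')) :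
    Sup S (x * y) := fun m hm => by
  obtain ⟨a, ha, b, hb, rfl⟩ := Finset.mem_add.1 (support_coeff_mul_subset x y hm)
  exact hS a b (h a ha) (h' b hb)

lemma Sup.single {m : M} (h : P m) (c : ℕ) : Sup P (single m c) := fun m' hm => by
  have := Finsupp.support_single_subset hm
  rw [mem_singleton.1 this]; exact h

lemma Sup.mono (h : Sup P x) (hS : ∀ m, P m → Q m) : Sup Q x := fun m hm => hS m (h m hm)

lemma Sup.sum {ι : Type} (s : Finset ι) {f : ι → R} (h : ∀ i ∈ s, Sup P (f i)) :
    Sup P (∑ i ∈ s, f i) :=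
  Finset.sum_induction f (Sup P) (fun _ _ => Sup.add) (fun m hm => by simp at hm) h

lemma E_mono {g g' : M → ℝ} (h : Sup P x) (hg : ∀ m, P m → g m ≤ g' m) : E g x ≤ E g' x :=
  sum_le_sum fun m hm => mul_le_mul_of_nonneg_left (hg m (h m hm)) (Nat.cast_nonneg _)

lemma E_le {g g' : M → ℝ} (hg : ∀ m, g m ≤ g' m) (x : R) : E g x ≤ E g' x :=
  E_mono (P := fun _ => True) (fun _ _ => trivial) fun m _ => hg m

lemma E_nonpos {g : M → ℝ} (hg : ∀ m, g m ≤ 0) (x : R) : E g x ≤ 0 :=
  sum_nonpos fun m _ => mul_nonpos_of_nonneg_of_nonpos (Nat.cast_nonneg _) (hg m)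

def Sym (x : R) : Prop :=
  ∀ (σ : Equiv.Perm (Fin 3)) (g : M → ℝ), E (fun m => g fun i => m (σ i)) x = E g x

lemma Sym.add (h : Sym x) (h' : Sym y) : Sym (x + y) := fun σ g => by
  rw [E_add, E_add, h, h']

lemma Sym.mul (h : Sym x) (h' : Sym y) : Sym (x * y) := fun σ g => by
  rw [E_mul, E_mul, ← h σ fun m => E (fun m' => g (m + m')) y]
  congr 1
  funext m
  exact h' σ fun m' => g ((fun i => m (σ i)) + m')

lemma Sym.pow (h : Sym x) (k : ℕ) : Sym (x ^ k) := by
  induction k with
  | zero => intro σ g; rw [pow_zero, E_one, E_one]; rfl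
  | succ k ih => rw [pow_succ]; exact ih.mul h

lemma sum_perm3 {α : Type} [AddCommMonoid α] (F : Fin 3 → Fin 3 → Fin 3 → α) :
    ∑ σ : Equiv.Perm (Fin 3), F (σ 0) (σ 1) (σ 2) =
      F 0 1 2 + F 0 2 1 + F 1 0 2 + F 1 2 0 + F 2 0 1 + F 2 1 0 := by
  have h : (univ : Finset (Equiv.Perm (Fin 3))) = {1, Equiv.swap 1 2, Equiv.swap 0 1,
      Equiv.swap 0 1 * Equiv.swap 1 2, Equiv.swap 0 2 * Equiv.swap 1 2, Equiv.swap 0 2} := by
    decide
  rw [h, sum_insert (by decide), sum_insert (by decide), sum_insert (by decide),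
    sum_insert (by decide), sum_insert (by decide), sum_singleton]
  simp only [← add_assoc]
  rfl

/-- only the chamber has to be read -/
lemma Sym.chamber (h : Sym x) (μ : M → ℝ)
    (hμ : ∀ m : M, ∑ σ : Equiv.Perm (Fin 3), μ (fun i => m (σ i)) = 6) (g : M → ℝ)
    (hg : ∀ (σ : Equiv.Perm (Fin 3)) (m : M), g (fun i => m (σ i)) = g m) :
    E g x = E (fun m => μ m * g m) x := by
  have h1 : ∑ σ : Equiv.Perm (Fin 3), E (fun m => (fun m => μ m * g m) fun i => m (σ i)) x =
      6 * E (fun m => μ m * g m) x := by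
    simp only [h _ (fun m => μ m * g m), sum_const, card_univ, Fintype.card_perm, Fintype.card_fin]
    norm_num [Nat.factorial]
  rw [← E_fsum] at h1
  simp only [hg, ← sum_mul, hμ, E_fmul] at h1
  linarith

/-! ### functionals vanishing at the vertices -/

def e0 : Fin 3 → ℝ := ![1, 0, 0]

structure Dg (D : F3) : Prop where
  good : GoodF D
  zero : D e0 = 0

variable {D F : F3}

lemma e0_nonneg (i : Fin 3) : 0 ≤ e0 i := by fin_cases i <;> simp [e0]

lemma good_le (hF : GoodF F) {l : Fin 3 → ℝ} (hl : ∀ i, 0 ≤ l i) : F l ≤ (∑ i, l i) * F e0 := by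
  have h := hF.sum_le univ (fun (j : Fin 3) i => l j * e0 (Equiv.swap 0 j i))
    fun j i => mul_nonneg (hl j) (e0_nonneg _)
  have e : (fun i => ∑ j : Fin 3, l j * e0 (Equiv.swap 0 j i)) = l := by
    funext i
    fin_cases i <;> simp [Fin.sum_univ_three, e0, Equiv.swap_apply_def]
  rw [e] at h
  refine h.trans (le_of_eq ?_)
  rw [sum_mul]
  refine sum_congr rfl fun j _ => ?_
  rw [hF.smul _ _ (hl j) fun i => e0_nonneg _, hF.perm _ _ e0_nonneg]

lemma Dg.nonpos (hD : Dg D) {l : Fin 3 → ℝ} (hl : ∀ i, 0 ≤ l i) : D l ≤ 0 := by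
  simpa [hD.zero] using good_le hD.good hl

lemma Dg.anti (hD : Dg D) {l l' : Fin 3 → ℝ} (hl : ∀ i, 0 ≤ l' i) (h : ∀ i, l' i ≤ l i) :
    D l ≤ D l' := by
  have h1 := hD.good.add l' (fun i => l i - l' i) hl fun i => sub_nonneg.2 (h i)
  have h2 := hD.nonpos (l := fun i => l i - l' i) fun i => sub_nonneg.2 (h i)
  simp only [add_sub_cancel] at h1
  linarith

noncomputable def toD (F : F3) : F3 := fun l => F l - (∑ i, l i) * F e0

lemma dg_toD (hF : GoodF F) : Dg (toD F) := by
  refine ⟨⟨fun c l hc hl => ?_, fun l l' hl hl' => ?_, fun σ l hl => ?_, ?_⟩, ?_⟩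
  · simp only [toD, hF.smul c l hc hl, ← mul_sum]; ring
  · have := hF.add l l' hl hl'
    simp only [toD, sum_add_distrib]; linarith
  · simp only [toD, hF.perm σ l hl, Equiv.sum_comp σ l]
  · obtain ⟨C, hC⟩ := hF.bound
    refine ⟨C + 3 * |F e0|, fun l hl => ?_⟩
    have h1 := hC l hl
    have h2 : 0 ≤ ∑ i, l i := sum_nonneg fun i _ => hl i
    have h3 : ∑ i, l i = 3 * avg l := by simp only [avg]; push_cast; ring
    refine (abs_sub _ _).trans ?_
    rw [abs_mul, abs_of_nonneg h2, h3]
    linarith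
  · simp [toD, e0, Fin.sum_univ_three]

variable {Y Y' : Type} {L : Y → Fin 3 → ℝ} {L' : Y' → Fin 3 → ℝ}

lemma tsum_toD (hL : SymExp L) (hF : GoodF F) :
    ∑' y, F (L y) = 3 * F e0 + ∑' y, toD F (L y) := by
  have h1 := (hasSum_sum (s := univ) fun i _ => hL.sum_one i).mul_right (F e0)
  have h2 := ((hL.summable_good hF).hasSum.sub h1).tsum_eq
  simp only [sum_const, card_univ, Fintype.card_fin, nsmul_eq_mul, mul_one] at h2
  unfold toD
  rw [h2]; push_cast; ring

noncomputable def vec (m : M) : Fin 3 → ℝ := fun i => (8 / 7 : ℝ) ^ (m i).1 * 0 ^ (m i).2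

lemma vec_nonneg (m : M) (i : Fin 3) : 0 ≤ vec m i := by unfold vec; positivity

lemma vec_add (m m' : M) : vec (m + m') = fun i => vec m i * vec m' i := by
  funext i
  simp only [vec, Pi.add_apply, Prod.fst_add, Prod.snd_add, pow_add]; ring

def Bd (L : Y → Fin 3 → ℝ) (κ : ℝ) (x : R) : Prop :=
  ∀ D, Dg D → ∑' y, D (L y) ≤ κ * E (fun m => D (vec m)) x

lemma dg_E (hD : Dg D) (hx : Sym x) : Dg fun l => E (fun m => D fun i => vec m i * l i) x := by
  have hn : ∀ (m : M) {l : Fin 3 → ℝ}, (∀ i, 0 ≤ l i) → ∀ i, 0 ≤ vec m i * l i :=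
    fun m l hl i => mul_nonneg (vec_nonneg m i) (hl i)
  refine ⟨⟨fun c l hc hl => ?_, fun l l' hl hl' => ?_, fun σ l hl => ?_, ?_⟩, ?_⟩
  · rw [← E_fmul]
    congr 1
    funext m
    rw [← hD.good.smul c _ hc (hn m hl)]
    simp only [mul_left_comm]
  · rw [← E_fadd]
    refine E_le (fun m => ?_) x
    simp only [mul_add]
    exact hD.good.add _ _ (hn m hl) (hn m hl')
  · rw [← hx σ]
    congr 1
    funext m
    exact hD.good.perm σ (fun i => vec m i * l i) (hn m hl)
  · obtain ⟨C, hC⟩ := hD.good.bound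
    refine ⟨E (fun m => |C| * ∑ i, vec m i) x, fun l hl => ?_⟩
    rw [abs_of_nonpos (E_nonpos (fun m => hD.nonpos (hn m hl)) x), mul_comm, ← E_fmul,
      neg_eq_neg_one_mul, ← E_fmul]
    refine E_le (fun m => ?_) x
    have h1 := (abs_le.1 (hC _ (hn m hl))).1
    have h2 : avg (fun i => vec m i * l i) ≤ (∑ i, vec m i) * avg l := by
      rw [← avg_mul_left]
      exact avg_mono fun i => mul_le_mul_of_nonneg_right
        (single_le_sum (fun j _ => vec_nonneg m j) (mem_univ i)) (hl i)
    have h3 := mul_le_mul (le_abs_self C) h2 (avg_nonneg (hn m hl)) (abs_nonneg C)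
    linarith
  · have : ∀ m : M, (D fun i => vec m i * e0 i) = 0 := fun m => by
      have e : (fun i => vec m i * e0 i) = fun i => vec m 0 * e0 i := by
        funext i; fin_cases i <;> simp [e0]
      rw [e, hD.good.smul _ _ (vec_nonneg m 0) e0_nonneg, hD.zero, mul_zero]
    simp only [this, E, mul_zero, sum_const_zero]

lemma Bd.star {κ κ' : ℝ} (h : Bd L κ x) (h' : Bd L' κ' y) (hL : SymExp L) (hL' : SymExp L')
    (hx : Sym x) (hκ : 0 ≤ κ) : Bd (star L L') (κ * κ') (x * y) := by
  intro D hD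
  rw [((hL.star hL').summable_good hD.good).tsum_prod]
  have h1 : Dg fun l => ∑' y, D fun i => l i * L' y i := by
    refine ⟨hD.good.star hL', ?_⟩
    have : ∀ y, (D fun i => e0 i * L' y i) = 0 := fun y => by
      have e : (fun i => e0 i * L' y i) = fun i => L' y 0 * e0 i := by
        funext i; fin_cases i <;> simp [e0]
      rw [e, hD.good.smul _ _ (hL'.nonneg y 0) e0_nonneg, hD.zero, mul_zero]
    simp [this]
  refine (h _ h1).trans ?_
  rw [mul_assoc]
  refine mul_le_mul_of_nonneg_left ?_ hκ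
  have h2 : E (fun m => ∑' y, D fun i => vec m i * L' y i) x =
      ∑' y, E (fun m => D fun i => vec m i * L' y i) x := by
    unfold E
    rw [Summable.tsum_finsetSum fun m _ =>
      (hL'.summable_good_mul hD.good (vec_nonneg m)).mul_left _]
    simp only [tsum_mul_left]
  rw [h2]
  refine (h' _ (dg_E hD hx)).trans (le_of_eq ?_)
  rw [mul_comm x y, E_mul]
  simp only [vec_add, mul_comm]

lemma Bd.pw {κ : ℝ} (h : Bd L κ x) (hL : SymExp L) (hx : Sym x) (hκ : 0 ≤ κ) (k : ℕ) :
    Bd (pw L k) (κ ^ k) (x ^ k) := by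
  induction k with
  | zero =>
    intro D _
    rw [tsum_fintype, Fintype.sum_unique, pow_zero, pow_zero, E_one, one_mul]
    refine le_of_eq (congrArg D ?_)
    funext i; simp [P154.pw, vec]
  | succ k ih =>
    intro D hD
    have := ih.star h (hL.pw k) hL (hx.pow k) (pow_nonneg hκ k) D hD
    rw [pw_succ, pow_succ, pow_succ]
    exact le_of_eq_of_le (Equiv.tsum_eq _ fun y => D (P154.star (P154.pw L k) L y)) this

end Vale.Agent.P154.Lat
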