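import Vale.Agent.P154.LatAlg
import Vale.Agent.P154.LatCode

/-! Soundness of the table check and of the table reading. -/

namespace Vale.Agent.P154.Lat

open Finset Vale.Agent.P154

def atm (j : ℕ) : M := ![(a0 j, 0), (a1 j, 0), (a2 j, 0)]

def U0 : Fin 3 → ℝ := ![0, 1, 1]

lemma U0_nonneg (i : Fin 3) : 0 ≤ U0 i := by fin_cases i <;> simp [U0]

noncomputable def gam (D : F3) (j : ℕ) : ℝ := 6 / (8 / 7 : ℝ) ^ 18 * D (vec (atm j))

def Good (D : F3) (V : ℕ) (x : ℝ) : Prop :=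
  ∃ (f : ℕ → ℕ) (b : ℕ), V = ∑ j ∈ range 39, f j * 2 ^ (116 * j) + b * 2 ^ (116 * 39) ∧
    ∑ j ∈ range 39, f j ≤ b ∧ x ≤ ∑ j ∈ range 38, (f (j + 1) : ℝ) * gam D j - b * (3 * D U0)

variable {D : F3} {V W : ℕ} {x y : ℝ}

lemma Good.mono (h : Good D V x) (hy : y ≤ x) : Good D V y := by
  obtain ⟨f, b, h1, h2, h3⟩ := h
  exact ⟨f, b, h1, h2, hy.trans h3⟩

lemma good_zero (h : x ≤ 0) : Good D 0 x :=
  ⟨fun _ => 0, 0, by simp only [zero_mul, sum_const_zero, add_zero], by simp, by simpa using h⟩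

lemma Good.acc (h : Good D V x) (h' : Good D W y) (d : ℕ) : Good D (V + d * W) (x + d * y) := by
  obtain ⟨f, b, h1, h2, h3⟩ := h
  obtain ⟨g, c, g1, g2, g3⟩ := h'
  refine ⟨fun j => f j + d * g j, b + d * c, ?_, ?_, ?_⟩
  · rw [h1, g1]
    generalize 2 ^ (116 * 39) = t
    simp only [add_mul, sum_add_distrib, mul_assoc, ← mul_sum]
    ring
  · simp only [sum_add_distrib, ← mul_sum]
    exact Nat.add_le_add h2 (Nat.mul_le_mul_left d g2)
  · have := mul_le_mul_of_nonneg_left g3 (Nat.cast_nonneg (α := ℝ) d)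
    simp only [Nat.cast_add, Nat.cast_mul, add_mul, sum_add_distrib, mul_assoc, ← mul_sum]
    linarith

lemma fZ_eq' {α : Type} (n : ℕ) (k : ℕ → α) : fZ n k = k n := by cases n <;> rfl

def dig (B X k : ℕ) : ℕ := X / 2 ^ (B * k) % 2 ^ B

lemma dig_zero (B X : ℕ) : dig B X 0 = X % 2 ^ B := by simp [dig]

lemma dig_add (B X s k : ℕ) : dig B (X / 2 ^ (B * s)) k = dig B X (s + k) := by
  rw [dig, dig, Nat.div_div_eq_div_mul, ← pow_add, mul_add]

lemma dig_succ (B X k : ℕ) : dig B (X / 2 ^ B) k = dig B X (k + 1) := by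
  have := dig_add B X 1 k
  rwa [mul_one, add_comm] at this

lemma dot_cons (B P sh V : ℕ) (Vs : List ℕ) (X acc : ℕ) :
    dot B P sh (V :: Vs) X acc = dot B P sh Vs (X / 2 ^ B) (acc + X % P / 2 ^ sh * V) := by
  have e : dot B P sh (V :: Vs) X acc = Nat.rec (dot B P sh Vs (wShr V X B) acc)
      (fun m _ => dot B P sh Vs (wShr V X B) (acc + (m + 1) * V)) (wDig V X P sh) := rfl
  have e2 : wDig V X P sh = X % P / 2 ^ sh := Nat.shiftRight_eq_div_pow _ _
  have e3 : wShr V X B = X / 2 ^ B := Nat.shiftRight_eq_div_pow _ _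
  rw [e, ← e2, e3]
  cases wDig V X P sh with
  | zero => simp
  | succ m => rfl

lemma dot_range (B sh n : ℕ) (Y : ℕ → ℕ) (X acc : ℕ) :
    dot B (2 ^ B) sh ((List.range n).map Y) X acc =
      acc + ∑ j ∈ range n, dig B X j / 2 ^ sh * Y j := by
  induction n generalizing Y X acc with
  | zero => rfl
  | succ n ih =>
    rw [List.range_succ_eq_map, List.map_cons, List.map_map, dot_cons, ih, sum_range_succ',
      dig_zero]
    simp only [dig_succ, Function.comp_apply, Nat.succ_eq_add_one]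
    ring

lemma chkRow_cons {fl r x k : ℕ} {xs : List ℕ} (h : chkRow fl r (x :: xs) k = true) :
    chk fl r k x = true ∧ chkRow fl r xs (k + 1) = true := by
  have h' : Bool.rec false (chkRow fl r xs (k + 1)) (chk fl r k x) = true := h
  cases hc : chk fl r k x with
  | false => rw [hc] at h'; exact absurd h' (by simp)
  | true => rw [hc] at h'; exact ⟨rfl, h'⟩

lemma chkRow_le {fl r : ℕ} {xs : List ℕ} {k : ℕ} (h : chkRow fl r xs k = true) : k ≤ 113 := by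
  induction xs generalizing k with
  | nil => exact Nat.le_of_ble_eq_true h
  | cons x xs ih => have := ih (chkRow_cons h).2; omega

lemma chkAll_cons {fl r s : ℕ} {xs : List ℕ} {rows : List (ℕ × List ℕ)}
    (h : chkAll fl ((s, xs) :: rows) r = true) :
    chkRow fl r xs s = true ∧ chkAll fl rows (r + 1) = true := by
  have h' : Bool.rec false (chkAll fl rows (r + 1)) (chkRow fl r xs s) = true := h
  cases hc : chkRow fl r xs s with
  | false => rw [hc] at h'; exact absurd h' (by simp)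
  | true => rw [hc] at h'; exact ⟨rfl, h'⟩

lemma chkAll_le {fl : ℕ} {rows : List (ℕ × List ℕ)} {r : ℕ} (h : chkAll fl rows r = true) :
    r ≤ 217 := by
  induction rows generalizing r with
  | nil => exact Nat.le_of_ble_eq_true h
  | cons x xs ih => have := ih (chkAll_cons h).2; omega

lemma dot_good {fl r : ℕ} {G : ℕ → ℝ} (hG : ∀ k, G k ≤ 0)
    (hc : ∀ k x, k ≤ 216 → chk fl r k x = true → Good D (mkV x) (G k)) (xs : List ℕ)
    {k X acc : ℕ} {y : ℝ} (h : chkRow fl r xs k = true) (ha : Good D acc y) :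
    Good D (dot 96 (2 ^ 96) 0 (xs.map mkV) X acc)
      (y + ∑ i ∈ range (113 - k), (dig 96 X i : ℝ) * G (k + i)) := by
  induction xs generalizing k X acc y with
  | nil =>
    refine ha.mono (add_le_of_nonpos_right (sum_nonpos fun i _ => ?_))
    exact mul_nonpos_of_nonneg_of_nonpos (Nat.cast_nonneg _) (hG _)
  | cons x xs ih =>
    obtain ⟨h1, h2⟩ := chkRow_cons h
    have h3 := chkRow_le h2
    rw [List.map_cons, dot_cons, pow_zero, Nat.div_one, ← dig_zero]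
    refine (ih h2 (ha.acc (hc k x (by omega) h1) _)).mono (le_of_eq ?_)
    rw [show 113 - k = 113 - (k + 1) + 1 by omega, sum_range_succ']
    simp only [dig_succ, add_zero, add_assoc, add_comm 1]
    ring

lemma rdAll_cons (P P2 s : ℕ) (Vs : List ℕ) (rows : List (ℕ × List ℕ)) (X acc : ℕ) :
    rdAll P P2 ((s, Vs) :: rows) X acc =
      rdAll P P2 rows (X / 2 ^ 10848) (dot 96 P 0 Vs (X % P2 / 2 ^ (96 * s)) acc) := by
  have e : rdAll P P2 ((s, Vs) :: rows) X acc =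
      fZ (Nat.shiftRight (Nat.mod X P2) (Nat.mul 96 s)) fun Rw =>
      fZ (dot 96 P 0 Vs Rw acc) fun acc' =>
      fZ (Nat.shiftRight X 10848) fun X' => rdAll P P2 rows X' acc' := rfl
  rw [e, fZ_eq', fZ_eq', fZ_eq', Nat.shiftRight_eq, Nat.shiftRight_eq, Nat.shiftRight_eq_div_pow,
    Nat.shiftRight_eq_div_pow]
  rfl

lemma rdAll_good {fl : ℕ} {G : ℕ → ℕ → ℝ} (hG : ∀ r k, G r k ≤ 0)
    (hc : ∀ r k x, r ≤ 216 → k ≤ 216 → chk fl r k x = true → Good D (mkV x) (G r k))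
    (rows : List (ℕ × List ℕ)) {r X acc : ℕ} {y : ℝ} (h : chkAll fl rows r = true)
    (ha : Good D acc y) :
    Good D (rdAll (2 ^ 96) (2 ^ 10848) (rows.map fun p => (p.1, p.2.map mkV)) X acc)
      (y + ∑ i ∈ range (217 - r), ∑ k ∈ range 113,
        (dig 96 (dig 10848 X i) k : ℝ) * G (r + i) k) := by
  induction rows generalizing r X acc y with
  | nil =>
    refine ha.mono (add_le_of_nonpos_right (sum_nonpos fun i _ => sum_nonpos fun k _ => ?_))
    exact mul_nonpos_of_nonneg_of_nonpos (Nat.cast_nonneg _) (hG _ _)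
  | cons p rows ih =>
    obtain ⟨s, xs⟩ := p
    obtain ⟨h1, h2⟩ := chkAll_cons h
    have h3 := chkAll_le h2
    have h4 := chkRow_le h1
    rw [List.map_cons, rdAll_cons, ← dig_zero]
    refine (ih h2 (dot_good (hG r) (fun k x => hc r k x (by omega)) xs h1 ha)).mono ?_
    rw [show 217 - r = 217 - (r + 1) + 1 by omega, sum_range_succ']
    simp only [dig_succ, dig_add, add_zero, add_assoc, add_comm 1]
    have h5 : ∑ k ∈ range 113, (dig 96 (dig 10848 X 0) k : ℝ) * G r k ≤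
        ∑ i ∈ range (113 - s), (dig 96 (dig 10848 X 0) (s + i) : ℝ) * G r (s + i) := by
      conv_lhs => rw [show 113 = s + (113 - s) by omega, sum_range_add]
      refine add_le_of_nonpos_left (sum_nonpos fun i _ => ?_)
      exact mul_nonpos_of_nonneg_of_nonpos (Nat.cast_nonneg _) (hG _ _)
    linarith

/-! ### the entries of the tables -/

lemma pw_cast {e : ℕ} (h : e ≤ 216) : (pw e : ℝ) = (8 / 7 : ℝ) ^ e * 7 ^ 216 := by
  obtain ⟨d, hd⟩ := Nat.exists_eq_add_of_le h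
  have e1 : pw e = 8 ^ e * 7 ^ d := by
    have : 216 - e = d := by omega
    simp only [pw, Nat.shiftLeft_eq', Nat.shiftLeft_eq, one_mul, Nat.mul_eq, Nat.sub_eq, this,
      pow_mul, Nat.pow_eq]
    norm_num
  rw [e1, hd, pow_add, div_pow]
  push_cast
  field_simp

lemma a0_le (j : ℕ) : a0 j ≤ 31 := Nat.le_of_lt_succ (Nat.mod_lt _ (by norm_num))
lemma a1_le (j : ℕ) : a1 j ≤ 31 := Nat.le_of_lt_succ (Nat.mod_lt _ (by norm_num))
lemma a2_le (j : ℕ) : a2 j ≤ 54 := by simp only [a2, Nat.sub_eq]; omega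

lemma vec_atm (j : ℕ) : vec (atm j) 0 = (8 / 7 : ℝ) ^ a0 j ∧ vec (atm j) 1 = (8 / 7 : ℝ) ^ a1 j ∧
    vec (atm j) 2 = (8 / 7 : ℝ) ^ a2 j := by
  simp [vec, atm]

lemma pm_spec (hD : GoodF D) (j p : ℕ) : ∃ (v : Fin 3 → ℝ) (x y z : ℕ),
    (∀ k : ℕ → ℕ → ℕ → Bool, pm j p k = k x y z) ∧ (∀ i, 0 ≤ v i) ∧ D v = D (vec (atm j)) ∧
      (x : ℝ) = ((8 / 7 : ℝ) ^ 18) ^ 3 * 7 ^ 216 * v 0 ∧
      (y : ℝ) = ((8 / 7 : ℝ) ^ 18) ^ 3 * 7 ^ 216 * v 1 ∧
      (z : ℝ) = ((8 / 7 : ℝ) ^ 18) ^ 3 * 7 ^ 216 * v 2 := by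
  obtain ⟨v0, v1, v2⟩ := vec_atm j
  have key : ∀ a : ℕ, a ≤ 54 →
      (pw (a + 54) : ℝ) = ((8 / 7 : ℝ) ^ 18) ^ 3 * 7 ^ 216 * (8 / 7 : ℝ) ^ a := fun a ha => by
    rw [pw_cast (by omega), pow_add, ← pow_mul]
    generalize (7 : ℝ) ^ 216 = t
    ring
  have k0 := key _ ((a0_le j).trans (by norm_num))
  have k1 := key _ ((a1_le j).trans (by norm_num))
  have k2 := key _ (a2_le j)
  rw [← v0] at k0
  rw [← v1] at k1
  rw [← v2] at k2
  have e : ∀ k : ℕ → ℕ → ℕ → Bool, pm j p k = sw (p % 2) (pw (a1 j + 54)) (pw (a2 j + 54))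
      fun y' z' => sw (p / 2) (pw (a0 j + 54)) y' fun x' y'' => k x' y'' z' := fun _ => rfl
  simp only [e]
  have hw := vec_nonneg (atm j)
  clear e v0 v1 v2 key
  generalize vec (atm j) = w at *
  generalize pw (a0 j + 54) = A at *
  generalize pw (a1 j + 54) = B at *
  generalize pw (a2 j + 54) = C at *
  generalize ((8 / 7 : ℝ) ^ 18) ^ 3 * 7 ^ 216 = t at *
  cases p % 2 with
  | zero =>
    cases p / 2 with
    | zero => exact ⟨w, A, B, C, fun _ => rfl, hw, rfl, k0, k1, k2⟩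
    | succ _ =>
      exact ⟨fun i => w (Equiv.swap 0 1 i), B, A, C, fun _ => rfl, fun _ => hw _,
        hD.perm _ _ hw, k1, k0, k2⟩
  | succ _ =>
    cases p / 2 with
    | zero =>
      exact ⟨fun i => w (Equiv.swap 1 2 i), A, C, B, fun _ => rfl, fun _ => hw _,
        hD.perm _ _ hw, k0, k2, k1⟩
    | succ _ =>
      exact ⟨fun i => w ((Equiv.swap 1 2 * Equiv.swap 0 1 : Equiv.Perm (Fin 3)) i), C, A, B,
        fun _ => rfl, fun _ => hw _, hD.perm _ _ hw, k2, k0, k1⟩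

lemma split_le (hD : Dg D) {v1 v2 v3 w : Fin 3 → ℝ} {c1 c2 c3 ζ m : ℝ} (h1 : ∀ i, 0 ≤ v1 i)
    (h2 : ∀ i, 0 ≤ v2 i) (h3 : ∀ i, 0 ≤ v3 i) (hw : ∀ i, 0 ≤ w i) (g1 : 0 ≤ c1) (g2 : 0 ≤ c2)
    (g3 : 0 ≤ c3) (g4 : 0 ≤ ζ) (hm : 0 ≤ m)
    (h : ∀ i, c1 * v1 i + c2 * v2 i + c3 * v3 i + ζ * U0 i ≤ m * w i) :
    m * D w ≤ c1 * D v1 + c2 * D v2 + c3 * D v3 + ζ * D U0 := by
  have n1 := fun i => mul_nonneg g1 (h1 i)
  have n2 := fun i => mul_nonneg g2 (h2 i)
  have n3 := fun i => mul_nonneg g3 (h3 i)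
  have n4 := fun i => mul_nonneg g4 (U0_nonneg i)
  have n12 := fun i => add_nonneg (n1 i) (n2 i)
  have n123 := fun i => add_nonneg (n12 i) (n3 i)
  have a1 := hD.anti (fun i => add_nonneg (n123 i) (n4 i)) h
  have a2 := hD.good.add _ _ n123 n4
  have a3 := hD.good.add _ _ n12 n3
  have a4 := hD.good.add _ _ n1 n2
  rw [hD.good.smul _ _ hm hw] at a1
  rw [hD.good.smul _ _ g4 U0_nonneg] at a2
  rw [hD.good.smul _ _ g3 h3] at a3
  rw [hD.good.smul _ _ g1 h1, hD.good.smul _ _ g2 h2] at a4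
  linarith

lemma scale {a t c1 c2 c3 x1 x2 x3 ζ m p q : ℝ} (ha : 0 < a) (ht : 0 < t)
    (h : 2 * (6 * (c1 * (a ^ 3 * t * x1) + c2 * (a ^ 3 * t * x2) + c3 * (a ^ 3 * t * x3)) +
      ζ * (a ^ 4 * t)) ≤ m * (p * t + q * t)) :
    c1 * (6 / a) * x1 + c2 * (6 / a) * x2 + c3 * (6 / a) * x3 + ζ ≤ m / a ^ 4 * ((p + q) / 2) := by
  refine le_of_eq_of_le ?_ ((div_le_div_of_nonneg_right h
    (show 0 ≤ 2 * a ^ 4 * t by positivity)).trans (le_of_eq ?_))
  · field_simp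
  · field_simp

/-- the functional `D` seen through one edge -/
noncomputable def Gc (D : F3) : F3 := fun l => D fun i => ∑ j, potts 3 (-1 / 2) i j * l j

lemma good_Gc (hD : GoodF D) : GoodF (Gc D) :=
  hD.chan (by norm_num) (by norm_num) (by norm_num)

lemma Gc_eq (D : F3) (l : Fin 3 → ℝ) :
    Gc D l = D ![(l 1 + l 2) / 2, (l 0 + l 2) / 2, (l 0 + l 1) / 2] := by
  refine congrArg D ?_
  funext i
  rw [sum_potts_mul, avg, Fin.sum_univ_three]
  fin_cases i <;> simp <;> ring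

lemma Gc_e0 (hD : GoodF D) : Gc D e0 = 1 / 2 * D U0 := by
  rw [Gc_eq, ← hD.smul _ _ (by norm_num) U0_nonneg]
  refine congrArg D ?_
  funext i
  fin_cases i <;> simp [e0, U0]

noncomputable def pv (fl r k : ℕ) : Fin 3 → ℝ :=
  ![(8 / 7 : ℝ) ^ k, (8 / 7 : ℝ) ^ (216 - r - k), fl * (8 / 7 : ℝ) ^ r]

noncomputable def hh (D : F3) (fl r k : ℕ) : ℝ :=
  1048576 * (mult (k + 1) (216 - r - k + 1) (fl * (r + 1)) : ℝ) / ((8 / 7 : ℝ) ^ 18) ^ 4 *
    toD (Gc D) (pv fl r k)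

lemma pv_nonneg (fl r k : ℕ) (i : Fin 3) : 0 ≤ pv fl r k i := by
  fin_cases i <;> simp [pv] <;> positivity

lemma hh_nonpos (hD : Dg D) (fl r k : ℕ) : hh D fl r k ≤ 0 :=
  mul_nonpos_of_nonneg_of_nonpos (by positivity)
    ((dg_toD (good_Gc hD.good)).nonpos (pv_nonneg fl r k))

lemma good_entry {j1 j2 j3 c1 c2 c3 mu : ℕ} (h1 : j1 < 38) (h2 : j2 < 38) (h3 : j3 < 38)
    (hs : c1 + c1 + c2 + c3 ≤ mu)
    (h : x ≤ c1 * gam D j1 + c2 * gam D j2 + c3 * gam D j3 - mu * (3 * D U0)) :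
    Good D (c1 + pl c1 j1 + pl c2 j2 + pl c3 j3 + pl mu 38) x := by
  have e : ∀ c j, pl c j = c * 2 ^ (116 * (j + 1)) := fun c j => Nat.shiftLeft_eq _ _
  have m0 : 0 ∈ range 39 := by simp
  have m1 : j1 + 1 ∈ range 39 := mem_range.2 (by omega)
  have m2 : j2 + 1 ∈ range 39 := mem_range.2 (by omega)
  have m3 : j3 + 1 ∈ range 39 := mem_range.2 (by omega)
  refine ⟨fun j => (if j = 0 then c1 else 0) + (if j = j1 + 1 then c1 else 0) +
    (if j = j2 + 1 then c2 else 0) + (if j = j3 + 1 then c3 else 0), mu, ?_, ?_, ?_⟩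
  · simp only [e, add_mul, sum_add_distrib, ite_mul, zero_mul, sum_ite_eq', m0, m1, m2, m3, if_true,
      mul_zero, pow_zero, mul_one]
  · simp only [sum_add_distrib, sum_ite_eq', m0, m1, m2, m3, if_true]
    exact hs
  · refine h.trans (le_of_eq ?_)
    simp only [Nat.succ_ne_zero, if_false, zero_add, add_left_inj, Nat.cast_add, Nat.cast_ite,
      Nat.cast_zero, add_mul, sum_add_distrib, ite_mul, zero_mul, sum_ite_eq', mem_range, h1, h2,
      h3, if_true]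

theorem chk_sound (hD : Dg D) {fl r k x : ℕ} (hr : r ≤ 216) (hk : k ≤ 216)
    (h : chk fl r k x = true) : Good D (mkV x) (hh D fl r k) := by
  obtain ⟨v1, x1, y1, z1, e1, n1, d1, p1, q1, r1⟩ := pm_spec hD.good (fld x 0 64) (fld x 6 4)
  obtain ⟨v2, x2, y2, z2, e2, n2, d2, p2, q2, r2⟩ := pm_spec hD.good (fld x 38 64) (fld x 44 4)
  obtain ⟨v3, x3, y3, z3, e3, n3, d3, p3, q3, r3⟩ := pm_spec hD.good (fld x 76 64) (fld x 82 4)
  simp only [chk, fZ_eq', e1, e2, e3, Bool.and_eq_true, Nat.blt_eq, Nat.ble_eq, lin3, Nat.add_eq,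
    Nat.mul_eq, Nat.sub_eq, Nat.succ_eq_add_one] at h
  obtain ⟨⟨⟨j1, j2⟩, j3, hs⟩, ⟨i0, i1⟩, i2, i3⟩ := h
  refine good_entry j1 j2 j3 hs ?_
  unfold hh gam
  rw [← d1, ← d2, ← d3, toD, Gc_eq, Gc_e0 hD.good, Fin.sum_univ_three]
  have w0 : (pw k : ℝ) = pv fl r k 0 * 7 ^ 216 := pw_cast hk
  have w1 : (pw (216 - r - k) : ℝ) = pv fl r k 1 * 7 ^ 216 := pw_cast (by omega)
  have w2 : (fl : ℝ) * pw r = pv fl r k 2 * 7 ^ 216 := by rw [pw_cast hr, ← mul_assoc]; rfl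
  have wu : (pw 72 : ℝ) = ((8 / 7 : ℝ) ^ 18) ^ 4 * 7 ^ 216 := by
    rw [pw_cast (by norm_num), ← pow_mul]
  have i0' := (Nat.cast_le (α := ℝ)).2 i0
  have i1' := (Nat.cast_le (α := ℝ)).2 i1
  have i2' := (Nat.cast_le (α := ℝ)).2 i2
  have i3' := (Nat.cast_le (α := ℝ)).2 i3
  simp only [Nat.cast_mul, Nat.cast_add, Nat.cast_ofNat, w0, w1, w2, wu, p1, p2, p3, q1, q2, q3,
    r1, r2, r3] at i0' i1' i2' i3'
  have hp := pv_nonneg fl r k
  have hU := hD.nonpos U0_nonneg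
  have ha : (0 : ℝ) < (8 / 7 : ℝ) ^ 18 := by positivity
  have ht : (0 : ℝ) < 7 ^ 216 := by positivity
  clear e1 e2 e3 d1 d2 d3 p1 p2 p3 q1 q2 q3 r1 r2 r3 w0 w1 w2 wu i0 i1 i2 i3 j1 j2 j3 hs
  generalize (8 / 7 : ℝ) ^ 18 = a at *
  generalize (7 : ℝ) ^ 216 = t at *
  generalize pv fl r k = v at *
  have hm : (0 : ℝ) ≤ 1048576 * (mult (k + 1) (216 - r - k + 1) (fl * (r + 1)) : ℝ) := by positivity
  generalize 1048576 * (mult (k + 1) (216 - r - k + 1) (fl * (r + 1)) : ℝ) = m at *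
  rw [← add_zero (6 * _ : ℝ), ← zero_mul (a ^ 4 * t)] at i0'
  have s0 := scale ha ht i0'
  have s1 := scale ha ht i1'
  have s2 := scale ha ht i2'
  have hw : ∀ i, 0 ≤ ![(v 1 + v 2) / 2, (v 0 + v 2) / 2, (v 0 + v 1) / 2] i := fun i => by
    have := hp 0; have := hp 1; have := hp 2
    fin_cases i <;> simp <;> positivity
  have key := split_le hD n1 n2 n3 hw (c1 := fld x 8 1073741824 * (6 / a))
    (c2 := fld x 46 1073741824 * (6 / a)) (c3 := fld x 84 1073741824 * (6 / a))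
    (ζ := fld x 114 1073741824) (m := m / a ^ 4) (by positivity) (by positivity) (by positivity)
    (by positivity) (by positivity) fun i => by
      fin_cases i
      · simpa [U0] using s0
      · simpa [U0] using s1
      · simpa [U0] using s2
  have s3 : m / a ^ 4 * ((v 0 + v 1 + v 2) / 2) ≤
      3 * (Nat.shiftRight x 144 : ℝ) + fld x 114 1073741824 := by
    refine le_of_eq_of_le ?_ ((div_le_div_of_nonneg_right i3'
      (show 0 ≤ 2 * a ^ 4 * t by positivity)).trans (le_of_eq ?_))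
    · field_simp
    · field_simp
  have s4 := mul_le_mul_of_nonpos_right s3 hU
  linarith

end Vale.Agent.P154.Lat
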