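import Vale.Agent.P154.LatGood

/-! Soundness of one level of the lattice computation. -/

namespace Vale.Agent.P154.Lat

open Finset Vale.Agent.P154 AddMonoidAlgebra

def kron (B N : ℕ) (m : M) : ℕ := 2 ^ (B * ((m 0).1 + N * (m 2).1))

lemma kron_add (B N : ℕ) (m m' : M) : kron B N (m + m') = kron B N m * kron B N m' := by
  simp only [kron, Pi.add_apply, Prod.fst_add, ← pow_add]
  congr 1
  ring

lemma sum_lt_pow (B n : ℕ) (c : ℕ → ℕ) (hc : ∀ k, c k < 2 ^ B) :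
    ∑ k ∈ range n, c k * 2 ^ (B * k) < 2 ^ (B * n) := by
  induction n with
  | zero => simp
  | succ n ih =>
    rw [sum_range_succ, mul_add, pow_add, mul_one]
    have := Nat.mul_le_mul_right (2 ^ (B * n)) (Nat.succ_le_of_lt (hc n))
    rw [Nat.succ_mul, mul_comm (2 ^ B)] at this
    omega

lemma read {B N n : ℕ} {x : R} {P : M → Prop} (hx : Sup P x)
    (hP : ∀ m, P m → (m 0).1 < N ∧ (m 2).1 < n) (ht : E (fun _ => (1 : ℕ)) x < 2 ^ B)
    {g : M → ℝ} {G : ℕ → ℕ → ℝ} (hg : ∀ m, P m → g m ≤ G (m 2).1 (m 0).1) :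
    E g x ≤ ∑ r ∈ range n, ∑ k ∈ range N,
      (dig B (dig (B * N) (E (kron B N) x) r) k : ℝ) * G r k := by
  obtain ⟨C, hC⟩ : ∃ C : ℕ → ℕ → ℕ, ∀ r k,
      C r k = E (fun m => if (m 2).1 = r then (if (m 0).1 = k then 1 else 0) else 0) x :=
    ⟨_, fun _ _ => rfl⟩
  have key : ∀ {α : Type} [CommSemiring α] (F : ℕ → ℕ → α),
      E (fun m => F (m 2).1 (m 0).1) x = ∑ r ∈ range n, ∑ k ∈ range N, (C r k : α) * F r k := by
    intro α _ F
    simp only [hC, E, Nat.cast_sum, sum_mul]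
    simp only [sum_comm (t := x.coeff.support)]
    refine sum_congr rfl fun m hm => ?_
    obtain ⟨h1, h2⟩ := hP m (hx m hm)
    simp [h1, h2]
  have hlt : ∀ r k, C r k < 2 ^ B := fun r k => by
    refine lt_of_le_of_lt ?_ ht
    rw [hC]
    exact sum_le_sum fun m _ => Nat.mul_le_mul_left _ (by beta_reduce; split_ifs <;> simp)
  have e : E (kron B N) x =
      ∑ r ∈ range n, (∑ k ∈ range N, C r k * 2 ^ (B * k)) * 2 ^ (B * N * r) := by
    refine (key fun r k => 2 ^ (B * (k + N * r))).trans (sum_congr rfl fun r _ => ?_)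
    rw [sum_mul]
    refine sum_congr rfl fun k _ => ?_
    rw [mul_add, pow_add, mul_assoc, mul_assoc, Nat.cast_id]
  refine (E_mono hx hg).trans (le_of_eq ?_)
  rw [key G]
  refine sum_congr rfl fun r hr => sum_congr rfl fun k hk => ?_
  rw [e, dig, dig, digit_extract (B * N) n _ (fun r => sum_lt_pow B N _ (hlt r)) r (mem_range.1 hr),
    digit_extract B N _ (hlt r) k (mem_range.1 hk)]

noncomputable def pW (w : ℕ → ℕ) : R :=
  ∑ j ∈ range 38, ∑ σ : Equiv.Perm (Fin 3), single (fun i => atm j (σ i)) (w j)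

def cU (i : Fin 3) : M := fun i' => (18, if i' = i then 1 else 0)

noncomputable def yU (z : ℕ) (i : Fin 3) : R := single (cU i) z

lemma sym_pW (w : ℕ → ℕ) : Sym (pW w) := fun σ g => by
  simp only [pW, E_sum, E_single]
  exact sum_congr rfl fun j _ => Equiv.sum_comp (Equiv.mulRight σ)
    fun τ : Equiv.Perm (Fin 3) => (w j : ℝ) * g fun i => atm j (τ i)

lemma sym_yU (z : ℕ) : Sym (∑ i, yU z i) := fun σ g => by
  simp only [yU, E_sum, E_single]
  rw [← Equiv.sum_comp σ]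
  refine sum_congr rfl fun i _ => ?_
  congr 2
  funext i'
  simp [cU]

def Gr (d b lo hi : ℕ) (m : M) : Prop :=
  ∑ i, (m i).1 = d ∧ (m 0).1 ≤ b ∧ (m 0).2 = 0 ∧ (m 1).2 = 0 ∧ lo ≤ (m 2).2 ∧ (m 2).2 ≤ hi

lemma gr_mul {d b lo hi d' b' lo' hi' : ℕ} {x y : R} (h : Sup (Gr d b lo hi) x)
    (h' : Sup (Gr d' b' lo' hi') y) : Sup (Gr (d + d') (b + b') (lo + lo') (hi + hi')) (x * y) :=
  h.mul h' fun m m' h h' => by
    simp only [Gr, Pi.add_apply, Prod.fst_add, Prod.snd_add, sum_add_distrib] at *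
    omega

lemma gr_mono {d b lo hi hi' : ℕ} {x : R} (h : Sup (Gr d b lo hi) x) (hh : hi ≤ hi') :
    Sup (Gr d b lo hi') x := h.mono fun m h => by
  simp only [Gr] at *
  omega

lemma atm_ok : ∀ j < 38, a0 j + a1 j + a2 j = 54 ∧ a0 j ≤ 28 ∧ a1 j ≤ 28 ∧ a2 j ≤ 28 := by
  decide +kernel

lemma gr_pW (w : ℕ → ℕ) : Sup (Gr 54 28 0 0) (pW w) := by
  refine Sup.sum _ fun j hj => Sup.sum _ fun σ _ => Sup.single ?_ _
  obtain ⟨h0, h1, h2, h3⟩ := atm_ok j (mem_range.1 hj)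
  have h : ∀ i, (atm j i).1 ≤ 28 ∧ (atm j i).2 = 0 := fun i => by
    fin_cases i <;> simp [atm, h1, h2, h3]
  refine ⟨?_, (h _).1, (h _).2, (h _).2, Nat.zero_le _, (h _).2.le⟩
  rw [Equiv.sum_comp σ fun i => (atm j i).1, Fin.sum_univ_three]
  exact h0

lemma gr_yU (z : ℕ) : Sup (Gr 54 28 1 1) (yU z 2) := Sup.single (by simp [Gr, cU]) _

lemma kr_eq (a c : ℕ) : kr a c = 2 ^ (96 * (a + 113 * c)) := by
  simp only [kr, Nat.shiftLeft_eq', Nat.shiftLeft_eq, one_mul, Nat.mul_eq, Nat.add_eq]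

lemma kron_pW (w : ℕ → ℕ) : E (kron 96 113) (pW w) = ∑ j ∈ range 38, w j * yy j := by
  simp only [pW, E_sum, E_single, Nat.cast_id, ← mul_sum]
  refine sum_congr rfl fun j _ => congrArg (w j * ·) ?_
  refine (sum_perm3 fun a _ c => 2 ^ (96 * ((atm j a).1 + 113 * (atm j c).1))).trans ?_
  simp only [yy, kr_eq, Nat.add_eq]
  rfl

lemma tot_pW (w : ℕ → ℕ) : E (fun _ => (1 : ℕ)) (pW w) = ∑ j ∈ range 38, w j * 6 := by
  simp only [pW, E_sum, E_single, Nat.cast_id, ← mul_sum, sum_const, card_univ, Fintype.card_perm,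
    Fintype.card_fin, smul_eq_mul]
  rfl

variable {Y : Type} {L : Y → Fin 3 → ℝ} {acc : ℕ} {D : F3}

def Inv (L : Y → Fin 3 → ℝ) (acc : ℕ) : Prop :=
  ∀ D, Dg D → Good D acc (2 ^ 116 * (∑' y, Gc D (L y) - 3 / 2 * D U0))

lemma tsum_Gc (hL : SymExp L) (hD : Dg D) :
    ∑' y, Gc D (L y) - 3 / 2 * D U0 = ∑' y, toD (Gc D) (L y) := by
  rw [tsum_toD hL (good_Gc hD.good), Gc_e0 hD.good]; ring

lemma inv_zero (hL : SymExp L) : Inv L 0 := fun D hD => by
  refine good_zero (mul_nonpos_of_nonneg_of_nonpos (by positivity) ?_)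
  rw [tsum_Gc hL hD]
  exact tsum_nonpos fun y => (dg_toD (good_Gc hD.good)).nonpos (hL.nonneg y)

def wOf (acc j : ℕ) : ℕ := dig 116 (acc / 2 ^ 116) j / 2 ^ 92
def zOf (acc : ℕ) : ℕ := (2 ^ 115 - acc / 2 ^ (116 * 39)) / 2 ^ 92

lemma gam_nonpos (hD : Dg D) (j : ℕ) : gam D j ≤ 0 :=
  mul_nonpos_of_nonneg_of_nonpos (by positivity) (hD.nonpos (vec_nonneg _))

lemma inv_dec (h : Inv L acc) (hμ : acc / 2 ^ (116 * 39) ≤ 2 ^ 115) (hD : Dg D) :
    2 ^ 24 * ∑' y, Gc D (L y) ≤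
      ∑ j ∈ range 38, (wOf acc j : ℝ) * gam D j + zOf acc * (3 * D U0) := by
  obtain ⟨f, b, h1, h2, h3⟩ := h D hD
  have hb : b ≤ acc / 2 ^ (116 * 39) := by
    exact (Nat.le_div_iff_mul_le (Nat.two_pow_pos _)).2 ((Nat.le_add_left _ _).trans h1.ge)
  have hb' : b < 2 ^ 116 := (hb.trans hμ).trans_lt (by norm_num)
  have e : acc = ∑ j ∈ range 40, (if j < 39 then f j else b) * 2 ^ (116 * j) := by
    have e' : ∑ j ∈ range 39, (if j < 39 then f j else b) * 2 ^ (116 * j) =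
        ∑ j ∈ range 39, f j * 2 ^ (116 * j) :=
      sum_congr rfl fun j hj => by rw [if_pos (mem_range.1 hj)]
    rw [sum_range_succ, if_neg (lt_irrefl _), e', ← h1]
  have hc : ∀ j, (if j < 39 then f j else b) < 2 ^ 116 := fun j => by
    split_ifs with hj
    · exact ((single_le_sum (fun _ _ => Nat.zero_le _) (mem_range.2 hj)).trans h2).trans_lt hb'
    · exact hb'
  have d := digit_extract 116 40 _ hc
  rw [← e] at d
  have d1 := d 39 (by norm_num)
  rw [if_neg (lt_irrefl _), Nat.mod_eq_of_lt (hμ.trans_lt (by norm_num))] at d1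
  have hw : ∑ j ∈ range 38, (f (j + 1) : ℝ) * gam D j ≤
      2 ^ 92 * ∑ j ∈ range 38, (wOf acc j : ℝ) * gam D j := by
    rw [mul_sum]
    refine sum_le_sum fun j hj => ?_
    have hj := mem_range.1 hj
    have d2 := d (j + 1) (by omega)
    rw [if_pos (by omega)] at d2
    have h4 : 2 ^ 92 * wOf acc j ≤ f (j + 1) := by
      rw [wOf, dig_succ, dig, d2]
      exact Nat.mul_div_le _ _
    rw [← mul_assoc]
    exact mul_le_mul_of_nonpos_right (by exact_mod_cast h4) (gam_nonpos hD j)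
  have hz : 2 ^ 92 * zOf acc + b ≤ 2 ^ 115 := by
    rw [d1] at hμ
    rw [zOf, d1]
    exact (Nat.le_sub_iff_add_le hμ).1 (Nat.mul_div_le _ _)
  have hz' : (2 : ℝ) ^ 92 * zOf acc + b ≤ 2 ^ 115 := by exact_mod_cast hz
  have h5 := mul_le_mul_of_nonpos_right hz' (hD.nonpos U0_nonneg)
  linarith

lemma bd_of_inv (h : Inv L acc) (hμ : acc / 2 ^ (116 * 39) ≤ 2 ^ 115) :
    Bd (chanExp (-1 / 2) L) (1 / (2 ^ 24 * (8 / 7 : ℝ) ^ 18))
      (pW (wOf acc) + ∑ i, yU (zOf acc) i) := by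
  intro D hD
  have h1 := inv_dec h hμ hD
  have e1 : ∀ (j : ℕ) (σ : Equiv.Perm (Fin 3)),
      D (vec fun i => atm j (σ i)) = D (vec (atm j)) :=
    fun j σ => hD.good.perm σ _ (vec_nonneg _)
  have e2 : ∀ i, D (vec (cU i)) = (8 / 7 : ℝ) ^ 18 * D U0 := fun i => by
    rw [← hD.good.perm (Equiv.swap 0 i) _ U0_nonneg,
      ← hD.good.smul _ _ (by positivity) fun _ => U0_nonneg _]
    refine congrArg D (funext fun i' => ?_)
    fin_cases i <;> fin_cases i' <;> simp [vec, cU, U0, Equiv.swap_apply_def]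
  simp only [pW, yU, E_add, E_sum, E_single, e1, e2, sum_const, card_univ, Fintype.card_perm,
    Fintype.card_fin, nsmul_eq_mul]
  have ha : (0 : ℝ) < (8 / 7 : ℝ) ^ 18 := by positivity
  unfold gam at h1
  generalize (8 / 7 : ℝ) ^ 18 = a at *
  have e3 : ∑ j ∈ range 38, ((Nat.factorial 3 : ℕ) : ℝ) * (wOf acc j * D (vec (atm j))) =
      a * ∑ j ∈ range 38, (wOf acc j : ℝ) * (6 / a * D (vec (atm j))) := by
    rw [mul_sum]
    refine sum_congr rfl fun j _ => ?_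
    simp only [Nat.factorial]
    field_simp
    push_cast
    ring
  rw [e3, one_div, ← div_eq_inv_mul, le_div_iff₀ (by positivity)]
  have := mul_le_mul_of_nonneg_left h1 ha.le
  change _ * (_ * ∑' y, D (chanExp (-1 / 2) L y)) ≤ _ at this
  push_cast
  linarith

lemma mult_eq (a b c : ℕ) : mult a b c = if c < b then (if b < a then 6 else if a = b then 3 else 0)
    else if b = c then (if b < a then 3 else if a = b then 1 else 0) else 0 := by
  simp only [← Nat.blt_eq, ← Nat.beq_eq, mult]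
  cases Nat.blt c b <;> cases Nat.blt b a <;> cases Nat.beq a b <;> cases Nat.beq b c <;> rfl

lemma mult_sum (a b c : ℕ) :
    mult a b c + mult a c b + mult b a c + mult b c a + mult c a b + mult c b a = 6 := by
  simp only [mult_eq]
  grind

def key (m : M) (i : Fin 3) : ℕ := if (m i).2 = 0 then (m i).1 + 1 else 0

noncomputable def gg (D : F3) (m : M) : ℝ :=
  1048576 * (mult (key m 0) (key m 1) (key m 2) : ℝ) / ((8 / 7 : ℝ) ^ 18) ^ 4 * toD (Gc D) (vec m)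

lemma gg_eq {fl hi : ℕ} {m : M} (h : Gr 216 112 (1 - fl) hi m) (hf : fl = 0 ∨ fl = 1 ∧ hi = 0) :
    gg D m = hh D fl (m 2).1 (m 0).1 := by
  obtain ⟨h1, -, h2, h3, h4, h5⟩ := h
  rw [Fin.sum_univ_three] at h1
  have e : 216 - (m 2).1 - (m 0).1 = (m 1).1 := by omega
  have k0 : key m 0 = (m 0).1 + 1 := if_pos h2
  have k1 : key m 1 = (m 1).1 + 1 := if_pos h3
  have k2 : key m 2 = fl * ((m 2).1 + 1) ∧ (0 : ℝ) ^ (m 2).2 = fl := by
    rcases hf with rfl | ⟨rfl, rfl⟩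
    · have : (m 2).2 ≠ 0 := by omega
      simp [key, this]
    · have : (m 2).2 = 0 := by omega
      simp [key, this]
  have v : vec m = pv fl (m 2).1 (m 0).1 := by
    funext i
    fin_cases i
    · simp [vec, pv, h2]
    · simp [vec, pv, h3, e]
    · simp [vec, pv, k2.2, mul_comm]
  rw [gg, hh, k0, k1, k2.1, v, e]

lemma main_le (hL : SymExp L) {w : ℕ → ℕ} {z : ℕ}
    (h : Bd L (1 / (2 ^ 24 * (8 / 7 : ℝ) ^ 18)) (pW w + ∑ i, yU z i)) (hD : Dg D) {Q : R}
    (hQ : (pW w + yU z 2) ^ 4 = pW w ^ 4 + Q) :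
    2 ^ 116 * ∑' y, toD (Gc D) (P154.pw L 4 y) ≤ E (gg D) Q + E (gg D) (pW w ^ 4) := by
  have hs := (sym_pW w).add (sym_yU z)
  have hδ := dg_toD (good_Gc hD.good)
  have h1 := h.pw hL hs (by positivity) 4 _ hδ
  rw [(hs.pow 4).chamber (fun m => (mult (key m 0) (key m 1) (key m 2) : ℝ))
    (fun m => by
      have := (sum_perm3 fun a b c => mult (key m a) (key m b) (key m c)).trans (mult_sum _ _ _)
      exact_mod_cast this)
    _ fun σ m => hδ.good.perm σ _ (vec_nonneg m)] at h1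
  have e : E (gg D) ((pW w + ∑ i, yU z i) ^ 4) = 1048576 / ((8 / 7 : ℝ) ^ 18) ^ 4 *
      E (fun m => (mult (key m 0) (key m 1) (key m 2) : ℝ) * toD (Gc D) (vec m))
        ((pW w + ∑ i, yU z i) ^ 4) := by
    rw [← E_fmul]
    refine congrArg (E · _) (funext fun m => ?_)
    rw [gg]
    generalize ((8 / 7 : ℝ) ^ 18) ^ 4 = t
    ring
  obtain ⟨r, hr⟩ : ∃ r, (pW w + ∑ i, yU z i) ^ 4 = (pW w + yU z 2) ^ 4 + r := by
    rw [Fin.sum_univ_three]
    generalize pW w = p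
    generalize yU z 2 = c
    generalize yU z 0 + yU z 1 = b
    exact ⟨b * ((p + c) ^ 3 + (p + c) ^ 2 * (p + c + b) + (p + c) * (p + c + b) ^ 2 +
      (p + c + b) ^ 3), by ring⟩
  have h2 : E (gg D) r ≤ 0 := E_nonpos (fun m => mul_nonpos_of_nonneg_of_nonpos (by positivity)
    (hδ.nonpos (vec_nonneg m))) r
  have h3 : E (gg D) ((pW w + ∑ i, yU z i) ^ 4) = E (gg D) (pW w ^ 4) + E (gg D) Q + E (gg D) r := by
    rw [hr, hQ, E_add, E_add]
  have ha : (0 : ℝ) < (8 / 7 : ℝ) ^ 18 := by positivity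
  have h4 := mul_le_mul_of_nonneg_left h1 (show (0 : ℝ) ≤ 2 ^ 116 by positivity)
  have e2 : (2 : ℝ) ^ 116 * (1 / (2 ^ 24 * (8 / 7 : ℝ) ^ 18)) ^ 4 =
      1048576 / ((8 / 7 : ℝ) ^ 18) ^ 4 := by
    generalize (8 / 7 : ℝ) ^ 18 = a at *
    field_simp
    norm_num
  rw [← mul_assoc, e2, ← e] at h4
  linarith

lemma step_eq (P P2 : ℕ) (T1 T2 : List (ℕ × List ℕ)) (acc : ℕ) {G A : ℕ}
    (hG : G = ∑ j ∈ range 38, wOf acc j * yy j) (hA : A = G + zOf acc * kr 18 18) :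
    step (2 ^ 115) P (2 ^ 116) P2 T1 T2 ((List.range 38).map yy)
      ((List.range 38).map fun _ => 6) acc =
    Bool.rec 0 (rdAll P P2 T1 (G * G * (G * G))
        (rdAll P P2 T2 (A * A * (A * A) - G * G * (G * G)) 0))
      (Bool.and (Nat.ble (acc / 2 ^ (116 * 39)) (2 ^ 115))
        (Nat.ble (zOf acc + ∑ j ∈ range 38, wOf acc j * 6) 16777215)) := by
  have e : ∀ X s : ℕ, Nat.shiftRight X s = X / 2 ^ s := Nat.shiftRight_eq_div_pow
  have e1 : Nat.shiftRight acc 4524 = acc / 2 ^ (116 * 39) := e acc (116 * 39)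
  have e2 : Nat.shiftRight (Nat.sub (2 ^ 115) (acc / 2 ^ (116 * 39))) 92 = zOf acc := e _ _
  have e3 : dot 116 (2 ^ 116) 92 ((List.range 38).map yy) (Nat.shiftRight acc 116) 0 = G := by
    rw [dot_range, e, zero_add, hG]; rfl
  have e4 : dot 116 (2 ^ 116) 92 ((List.range 38).map fun _ => 6) (Nat.shiftRight acc 116)
      (zOf acc) = zOf acc + ∑ j ∈ range 38, wOf acc j * 6 := by
    rw [dot_range, e]; rfl
  have e5 : Nat.add G (Nat.mul (zOf acc) (kr 18 18)) = A := hA.symm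
  unfold step
  rw [fZ_eq', e1, fZ_eq', e2, fZ_eq', fZ_eq', e3, fZ_eq', e4, fZ_eq', fZ_eq', fZ_eq', e5, fZ_eq',
    fZ_eq', fZ_eq']
  rfl

theorem step_sound {T1 T2 : List (ℕ × List ℕ)} (c1 : chkAll 1 T1 0 = true)
    (c2 : chkAll 0 T2 0 = true) (hL : SymExp L) (h : Inv L acc) :
    Inv (P154.pw (chanExp (-1 / 2) L) 4)
      (step (2 ^ 115) (2 ^ 96) (2 ^ 116) (2 ^ 10848) (T1.map fun p => (p.1, p.2.map mkV))
        (T2.map fun p => (p.1, p.2.map mkV)) ((List.range 38).map yy)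
        ((List.range 38).map fun _ => 6) acc) := by
  have hC : SymExp (chanExp (-1 / 2) L) := hL.chanExp (by norm_num) (by norm_num) (by norm_num)
  rw [step_eq _ _ _ _ _ rfl rfl]
  cases hb : Bool.and (Nat.ble (acc / 2 ^ (116 * 39)) (2 ^ 115))
    (Nat.ble (zOf acc + ∑ j ∈ range 38, wOf acc j * 6) 16777215) with
  | false => exact inv_zero (hC.pw 4)
  | true =>
    rw [Bool.and_eq_true, Nat.ble_eq, Nat.ble_eq] at hb
    obtain ⟨hμ, ht⟩ := hb
    intro D hD
    have hB := bd_of_inv h hμ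
    have k1 := kron_pW (wOf acc)
    have k2 : E (kron 96 113) (yU (zOf acc) 2) = zOf acc * kr 18 18 := by
      rw [yU, E_single, kr_eq, Nat.cast_id, kron, show (cU 2 0).1 = 18 from rfl,
        show (cU 2 2).1 = 18 from rfl]
    have t1 := tot_pW (wOf acc)
    have t2 : E (fun _ => (1 : ℕ)) (yU (zOf acc) 2) = zOf acc := by
      rw [yU, E_single, mul_one, Nat.cast_id]
    have g1 := gr_pW (wOf acc)
    have g2 := gr_yU (zOf acc)
    rw [← k1, ← k2, ← E_add]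
    rw [← t1, ← t2, add_comm, t2] at ht
    rw [← t2, ← E_add] at ht
    simp only [← E_mul_hom _ _ _ (kron_add 96 113)]
    have m := fun Q => main_le hC hB hD (Q := Q)
    clear k1 k2 t1 t2 hB
    generalize pW (wOf acc) = p at *
    generalize yU (zOf acc) 2 = y at *
    have hQ : (p + y) ^ 4 = p ^ 4 + y * (p * p * p + p * p * (p + y) + p * (p + y) * (p + y) +
      (p + y) * (p + y) * (p + y)) := by ring
    have ga : Sup (Gr 54 28 0 1) (p + y) :=
      (gr_mono g1 zero_le_one).add (g2.mono fun m h => ⟨h.1, h.2.1, h.2.2.1, h.2.2.2.1,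
        Nat.zero_le _, h.2.2.2.2.2⟩)
    have g1' := gr_mono g1 zero_le_one
    have gQ := gr_mul g2 ((((gr_mul (gr_mul g1' g1') g1').add (gr_mul (gr_mul g1' g1') ga)).add
      (gr_mul (gr_mul g1' ga) ga)).add (gr_mul (gr_mul ga ga) ga))
    have gP := gr_mul (gr_mul g1 g1) (gr_mul g1 g1)
    have m' := m _ hQ
    clear m
    generalize y * (p * p * p + p * p * (p + y) + p * (p + y) * (p + y) +
      (p + y) * (p + y) * (p + y)) = Q at *
    have e1 : p ^ 4 = p * p * (p * p) := by ring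
    have e2 : (p + y) * (p + y) * ((p + y) * (p + y)) = p * p * (p * p) + Q := by
      rw [← e1, ← hQ]; ring
    have tt : E (fun _ => (1 : ℕ)) (p * p * (p * p)) + E (fun _ => (1 : ℕ)) Q < 2 ^ 96 := by
      rw [← E_add, ← e2]
      simp only [E_mul_hom (fun _ => (1 : ℕ)) _ _ fun _ _ => rfl]
      exact (Nat.mul_le_mul (Nat.mul_le_mul ht ht) (Nat.mul_le_mul ht ht)).trans_lt (by norm_num)
    rw [e2, E_add, Nat.add_sub_cancel_left]
    rw [e1] at m'
    have hP : ∀ lo hi m, Gr 216 112 lo hi m → (m 0).1 < 113 ∧ (m 2).1 < 217 := fun lo hi m h => by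
      obtain ⟨h1, h2, -⟩ := h
      rw [Fin.sum_univ_three] at h1
      omega
    have r1 := read (B := 96) (N := 113) (n := 217) gP (hP 0 0) ((Nat.le_add_right _ _).trans_lt tt)
      (g := gg D) (G := hh D 1) fun m h => (gg_eq (fl := 1) h (Or.inr ⟨rfl, rfl⟩)).le
    have r2 := read (B := 96) (N := 113) (n := 217) gQ (hP 1 4) ((Nat.le_add_left _ _).trans_lt tt)
      (g := gg D) (G := hh D 0) fun m h => (gg_eq (fl := 0) h (Or.inl rfl)).le
    rw [show 96 * 113 = 10848 from rfl] at r1 r2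
    have s2 := rdAll_good (hh_nonpos hD 0) (fun r k x => chk_sound hD) T2
      (X := E (kron 96 113) Q) c2 (good_zero (D := D) le_rfl)
    have s1 := rdAll_good (hh_nonpos hD 1) (fun r k x => chk_sound hD) T1
      (X := E (kron 96 113) (p * p * (p * p))) c1 s2
    refine s1.mono ?_
    simp only [zero_add, Nat.sub_zero]
    rw [tsum_Gc (hC.pw 4) hD]
    exact m'.trans (add_le_add r2 r1)

end Vale.Agent.P154.Lat
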