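import Vale.Agent.P154.KS

/-! The two offspring laws. -/

namespace Vale.Agent.P154

open Finset Filter Topology

/-- what the proofs use about an offspring law with mean `d` -/
structure Law (ν : ℕ → ℝ) (d : ℝ) : Prop where
  nonneg : ∀ k, 0 ≤ ν k
  one : HasSum ν 1
  mean : HasSum (fun k : ℕ => (k : ℝ) * ν k) d
  sq : Summable fun k : ℕ => (k : ℝ) ^ 2 * ν k
  big : ν 0 + ν 1 < 1

lemma law_dary {d : ℕ} (hd : 2 ≤ d) : Law (dary d) d := by
  refine ⟨fun k => by unfold dary; split_ifs <;> norm_num, ?_, ?_, ?_, ?_⟩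
  · exact hasSum_ite_eq d (1 : ℝ)
  · convert hasSum_ite_eq d (d : ℝ) using 2 with k
    unfold dary; split_ifs with h <;> simp [h]
  · refine (hasSum_ite_eq d ((d : ℝ) ^ 2)).summable.congr fun k => ?_
    unfold dary; split_ifs with h <;> simp [h]
  · unfold dary
    rw [if_neg (by omega), if_neg (by omega)]; norm_num

lemma hasSum_pois (d : ℝ) : HasSum (pois d) 1 := by
  have h := (NormedSpace.expSeries_div_hasSum_exp d).mul_left (Real.exp (-d))
  rw [← Real.exp_eq_exp_ℝ, ← Real.exp_add, neg_add_cancel, Real.exp_zero] at h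
  have e : pois d = fun k => Real.exp (-d) * (d ^ k / (k.factorial : ℝ)) :=
    funext fun k => by unfold pois; ring
  rw [e]; exact h

lemma pois_succ (d : ℝ) (k : ℕ) : ((k + 1 : ℕ) : ℝ) * pois d (k + 1) = d * pois d k := by
  unfold pois
  rw [Nat.factorial_succ]; push_cast
  have : (k.factorial : ℝ) ≠ 0 := by positivity
  field_simp
  ring

lemma mean_pois (d : ℝ) : HasSum (fun k : ℕ => (k : ℝ) * pois d k) d := by
  rw [← hasSum_nat_add_iff' 1]
  simp only [pois_succ]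
  simpa using (hasSum_pois d).mul_left d

lemma law_pois {d : ℝ} (hd : 0 < d) : Law (pois d) d := by
  refine ⟨fun k => by unfold pois; positivity, hasSum_pois d, mean_pois d, ?_, ?_⟩
  · rw [← summable_nat_add_iff 1]
    refine (((mean_pois d).summable.add (hasSum_pois d).summable).mul_left d).congr fun k => ?_
    have := pois_succ d k
    push_cast at this ⊢
    linear_combination -((k : ℝ) + 1) * this
  · have h := Real.add_one_lt_exp hd.ne'
    have e : pois d 0 + pois d 1 = (d + 1) / Real.exp d := by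
      unfold pois; rw [Real.exp_neg]; simp; field_simp; ring
    rw [e, div_lt_one (Real.exp_pos d)]; exact h

lemma hasSum_marg {q : ℕ} (hq : 2 ≤ q) {lam : ℝ} (h0 : -1 / ((q : ℝ) - 1) ≤ lam) (h1 : lam ≤ 1)
    {ν : ℕ → ℝ} {d : ℝ} (h : Law ν d) (n : ℕ) : HasSum (marg q ν lam n) 1 := by
  have hs := (symExp_lik hq h0 h1 h.nonneg h.one n).sum_one
  have := hasSum_sum (s := univ) fun j _ => (hs j).mul_left (1 / (q : ℝ))
  have hq' : (q : ℝ) ≠ 0 := by positivity
  have e : ∑ _j : Fin q, 1 / (q : ℝ) * 1 = 1 := by simp [hq']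
  rw [e] at this
  exact this

/-- the threshold statement follows from nonreconstruction below the threshold -/
theorem threshold {q : ℕ} (hq : 2 ≤ q) {lam : ℝ} (h0 : -1 / ((q : ℝ) - 1) ≤ lam) (h1 : lam ≤ 1)
    {ν : ℕ → ℝ} {d : ℝ} (h : Law ν d)
    (hn : d * lam ^ 2 ≤ 1 → Tendsto (adv q ν lam) atTop (𝓝 0)) :
    (∀ n, HasSum (marg q ν lam n) 1) ∧
    ((∃ c : ℝ, 0 < c ∧ Tendsto (adv q ν lam) atTop (𝓝 c)) ↔ 1 < d * lam ^ 2) ∧
    (Tendsto (adv q ν lam) atTop (𝓝 0) ↔ d * lam ^ 2 ≤ 1) := by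
  have hk := ks_abstract hq lam h0 h1 ν h.nonneg h.one d h.mean h.sq
  refine ⟨hasSum_marg hq h0 h1 h, ⟨fun ⟨c, hc, ht⟩ => ?_, hk⟩, ⟨fun ht => ?_, hn⟩⟩
  · by_contra hc'
    exact hc.ne' (tendsto_nhds_unique ht (hn (not_lt.1 hc')))
  · by_contra hc'
    obtain ⟨c, hc, ht'⟩ := hk (not_le.1 hc')
    exact hc.ne' (tendsto_nhds_unique ht' ht)

end Vale.Agent.P154
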