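import Vale.Agent.P154.Q3Data

namespace Vale.Agent.P154.Q3

lemma okgs1 : okGS 3 5 gs1 = true := by decide +kernel

lemma zero1 : zeroChk 44 3 5 tbl3 gs1 cphi1 [root3] = true := by decide +kernel

lemma maj1_0 : majChk 8 83 3 3 tbl3 gs1 cphi1 1000 2 2 [[[1, 1, 1], [0, 1, 1], [0, 0, 1], [0, 0, 0]]] = true := by
  decide +kernel

lemma majok1 : MajOk 3 3 gs1 cphi1 :=
  majOk permTbl3 (cc := 1000) (nw := 2) (nt := 2) (by norm_num) (by norm_num) (by norm_num) (by norm_num)
    (by decide +kernel) okgs1 cov1 covers_root3 zero1 (by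
      intro c hc
      simp only [cells1, List.mem_cons, List.not_mem_nil, or_false] at hc
      rcases hc with rfl
      exacts [maj1_0])

lemma al1 : unChk 32 3 5 cal1 cells1 = true := by decide +kernel

end Vale.Agent.P154.Q3
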