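import Vale.Agent.P154.Q3Data
import Vale.Agent.P154.Q3Maj1

namespace Vale.Agent.P154.Q3

lemma okgs2 : okGS 3 8 gs2 = true := by decide +kernel

lemma zero2 : zeroChk 65 3 8 tbl3 gs2 cphi2 [root3] = true := by decide +kernel

lemma maj2_0 : majChk 20 176 3 6 tbl3 gs2 cphi2 1000 4 4 [[[1, 1, 1], [2, 5, 5], [1, 1, 4], [0, 0, 0]]] = true := by
  decide +kernel

lemma maj2_1 : majChk 20 176 3 6 tbl3 gs2 cphi2 1000 4 4 [[[2, 5, 5], [0, 1, 1], [1, 1, 4], [0, 0, 0]]] = true := by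
  decide +kernel

lemma maj2_2 : majChk 20 176 3 6 tbl3 gs2 cphi2 1000 4 4 [[[1, 1, 4], [0, 1, 1], [0, 1, 3], [0, 0, 0]]] = true := by
  decide +kernel

lemma maj2_3 : majChk 20 176 3 6 tbl3 gs2 cphi2 1000 4 4 [[[1, 1, 4], [0, 1, 3], [0, 0, 1], [0, 0, 0]]] = true := by
  decide +kernel

lemma majok2 : MajOk 3 6 gs2 cphi2 :=
  majOk permTbl3 (cc := 1000) (nw := 4) (nt := 4) (by norm_num) (by norm_num) (by norm_num) (by norm_num)
    (by decide +kernel) okgs2 cov2 covers_root3 zero2 (by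
      intro c hc
      simp only [cells2, List.mem_cons, List.not_mem_nil, or_false] at hc
      rcases hc with rfl | rfl | rfl | rfl
      exacts [maj2_0, maj2_1, maj2_2, maj2_3])

lemma al2 : unChk 59 3 8 cal2 cells2 = true := by decide +kernel

end Vale.Agent.P154.Q3
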