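import Vale.Agent.P154.Q3Data
import Vale.Agent.P154.Q3Maj2

namespace Vale.Agent.P154.Q3

lemma oktm1 : okTerms 3 5 (scaleT (1 : ℕ) (tA1 ++ gTerms (5 : ℕ) 3 5 gs1) ++ scaleT (-((9 : ℕ) : ℤ)) tR1) = true := by decide +kernel

lemma oktr1 : okTerms 3 5 tR1 = true := by decide +kernel

lemma red1 : pairChk 46 65 3 5 tbl3 (scaleT (1 : ℕ) (tA1 ++ gTerms (5 : ℕ) 3 5 gs1) ++ scaleT (-((9 : ℕ) : ℤ)) tR1) [root3] [root3] = true := by
  decide +kernel

lemma pair1_0_0 : pairChk 23 61 3 5 tbl3 tR1 [[[1, 1, 1], [0, 1, 1], [0, 0, 1], [0, 0, 0]]] [[[1, 1, 1], [0, 1, 1], [0, 0, 1], [0, 0, 0]]] = true := by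
  decide +kernel

lemma pairok1 : PairOk 3 5 tbl3 tR1 cells1 cells1 := by
  intro c hc c' hc'
  simp only [cells1, List.mem_cons, List.not_mem_nil, or_false] at hc hc'
  rcases hc with rfl <;> rcases hc' with rfl
  exacts [pairChk_sound permTbl3.ok oktr1 pair1_0_0 _ (List.mem_singleton.2 rfl) _ (List.mem_singleton.2 rfl)]

lemma pairall1 : PairAll 3 5 tbl3 (tA1 ++ gTerms (5 : ℕ) 3 5 gs1) :=
  pairAll_red permTbl3 (by norm_num) oktm1 oktr1 covers_root3 cov1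
    (pairChk_sound permTbl3.ok oktm1 red1) pairok1

end Vale.Agent.P154.Q3
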