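import Vale.Agent.P154.Q4Data
import Vale.Agent.P154.Q3Pair2

namespace Vale.Agent.P154.Q4

lemma okgs1 : okGS 4 7 gs1 = true := by decide +kernel

lemma zero1 : zeroChk 70 4 7 tbl4 gs1 cphi1 [root4] = true := by decide +kernel

lemma maj1_0 : majChk 17 158 4 5 tbl4 gs1 cphi1 1000 4 4 [[[1, 1, 1, 1], [0, 1, 1, 1], [1, 1, 3, 3], [1, 1, 1, 5]]] = true := by
  decide +kernel

lemma maj1_1 : majChk 17 158 4 5 tbl4 gs1 cphi1 1000 4 4 [[[1, 1, 3, 3], [0, 1, 1, 1], [0, 0, 1, 1], [1, 1, 1, 5]]] = true := by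
  decide +kernel

lemma maj1_2 : majChk 17 158 4 5 tbl4 gs1 cphi1 1000 4 4 [[[1, 1, 1, 5], [0, 1, 1, 1], [0, 0, 1, 1], [0, 1, 1, 4]]] = true := by
  decide +kernel

lemma maj1_3 : majChk 17 158 4 5 tbl4 gs1 cphi1 1000 4 4 [[[1, 1, 1, 5], [0, 1, 1, 4], [0, 0, 1, 1], [0, 0, 0, 1]]] = true := by
  decide +kernel

lemma majok1 : MajOk 4 5 gs1 cphi1 :=
  majOk permTbl4 (cc := 1000) (nw := 4) (nt := 4) (by norm_num) (by norm_num) (by norm_num) (by norm_num)
    (by decide +kernel) okgs1 cov1 covers_root4 zero1 (by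
      intro c hc
      simp only [cells1, List.mem_cons, List.not_mem_nil, or_false] at hc
      rcases hc with rfl | rfl | rfl | rfl
      exacts [maj1_0, maj1_1, maj1_2, maj1_3])

lemma al1 : unChk 65 4 7 cal1 cells1 = true := by decide +kernel

end Vale.Agent.P154.Q4
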