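import Vale.Agent.P154.Q4Maj1
import Vale.Agent.P154.Q4Maj2
import Vale.Agent.P154.Q4Pair1
import Vale.Agent.P154.Q4Pair2
import Vale.Agent.P154.Ferro

namespace Vale.Agent.P154.Q4

open Filter Topology

noncomputable def psi (p : Fin 4 → ℝ) : ℝ := peR 4 5 cpsi (ext p)
noncomputable def alpha (p : Fin 4 → ℝ) : ℝ := peR 4 7 cal1 (ext p) / 1030792151040000000
noncomputable def beta (p : Fin 4 → ℝ) : ℝ := peR 4 10 cal2 (ext p) / 67108864000000000

lemma chi_eq {p : Fin 4 → ℝ} (hp : Simp p) : psum 4 2 (ext p) = 64 * chi p := by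
  rw [hp.psum]; norm_num [chi]

lemma H1 (p r : Fin 4 → ℝ) (hp : Simp p) (hr : Simp r) :
    Kop chi p r ≤ chi p + chi r + psi p * alpha r + alpha p * psi r
      - 1 / 1000 * (chi p ^ 2 * chi r + chi p * chi r ^ 2) := by
  have h := kop_le permTbl4 (n := 5) okgs1 majok1 (φ := chi) (cφ := 50331648000000)
    (fun p hp => by simp [peR, cphi1, pdeg, hp.sumR, chi_eq hp]; ring) pairall1 hp hr
  have l1 := peR_lift (q := 4) (n := 5) (d := 7) (by norm_num) (cs := cpsi) (by decide)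
  simp only [trmSum, tA1, List.map_cons, List.map_nil, List.sum_cons, List.sum_nil, evF, l1,
    hp.sumR, hr.sumR] at h
  unfold psi alpha
  generalize peR 4 5 cpsi (ext p) = a at *
  generalize peR 4 5 cpsi (ext r) = a' at *
  generalize peR 4 7 cal1 (ext p) = b at *
  generalize peR 4 7 cal1 (ext r) = b' at *
  simp only [peR, pdeg, List.map_cons, List.map_nil, List.sum_cons, List.sum_nil, hp.sumR, hr.sumR,
    chi_eq hp, chi_eq hr] at h
  norm_num [Nat.factorial] at h
  linarith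

lemma H2 (p r : Fin 4 → ℝ) (hp : Simp p) (hr : Simp r) :
    Kop psi p r ≤ psi p * beta r + beta p * psi r := by
  have h := kop_le permTbl4 (n := 8) okgs2 majok2 (φ := psi) (cφ := 314572800000000)
    (fun p hp => by simp [psi, peR, cphi2, cpsi, pdeg, hp.sumR]; ring) pairall2 hp hr
  have l1 := peR_lift (q := 4) (n := 5) (d := 10) (by norm_num) (cs := cpsi) (by decide)
  simp only [trmSum, tA2, List.map_cons, List.map_nil, List.sum_cons, List.sum_nil, evF, l1,
    hp.sumR, hr.sumR] at h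
  unfold beta
  rw [show psi p = peR 4 5 cpsi (ext p) from rfl, show psi r = peR 4 5 cpsi (ext r) from rfl]
  norm_num [Nat.factorial] at h
  linarith

noncomputable def thr (p : Fin 4 → ℝ) : ℝ := avg fun i => (p i - 1) ^ 3

lemma psi_eq {p : Fin 4 → ℝ} (hp : Simp p) : psi p = 524288 * chi p ^ 2 - 655360 * thr p - 81920 * (chi p * thr p) := by
  simp [psi, peR, cpsi, pdeg, hp.sumR, chi_eq hp, hp.psum 3, thr]; ring

lemma thr_chan (lam : ℝ) (p : Fin 4 → ℝ) : thr (chan lam p) = lam ^ 3 * thr p := by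
  unfold thr chan
  rw [← avg_mul_left]; congr 1; funext i; ring

lemma thr_le {p : Fin 4 → ℝ} (hp : Simp p) : thr p ≤ 3 * chi p := by
  unfold thr chi
  rw [← avg_mul_left]
  refine avg_mono fun i => ?_
  have := hp.le i
  push_cast at this
  nlinarith [sq_nonneg (p i - 1)]

lemma psi_chan {lam : ℝ} (h0 : 0 ≤ lam) (h1 : lam ≤ 1) (p : Fin 4 → ℝ) (hp : Simp p) :
    psi (chan lam p) ≤ lam ^ 3 * psi p := by
  have hs : Simp (chan lam p) := simp_chan (by norm_num) (le_trans (by norm_num) h0) h1 hp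
  rw [psi_eq hs, psi_eq hp, chi_chan, thr_chan]
  have hc := chi_nonneg p
  have ht := thr_le hp
  have k : 0 ≤ lam ^ 3 * (1 - lam) * chi p := by have := sub_nonneg.2 h1; positivity
  have k2 : 0 ≤ 524288 * chi p - 81920 * (1 + lam) * thr p := by
    rcases le_total 0 (thr p) with h | h
    · nlinarith [mul_nonneg (sub_nonneg.2 h1) h]
    · nlinarith [mul_nonneg h0 (neg_nonneg.2 h)]
  nlinarith [mul_nonneg k k2]

theorem ferro (lam : ℝ) (h0 : 0 ≤ lam) (h1 : lam ≤ 1)
    (ν : ℕ → ℝ) (hν : ∀ k, 0 ≤ ν k) (hν1 : HasSum ν 1) (d : ℝ)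
    (hd : HasSum (fun k : ℕ => (k : ℝ) * ν k) d) (hcrit : d * lam ^ 2 ≤ 1) (h2 : ν 0 + ν 1 < 1) :
    Tendsto (adv 4 ν lam) atTop (𝓝 0) := by
  refine ferro_abstract (by norm_num) lam h0 h1 ν hν hν1 d hd hcrit h2 psi alpha beta
    (bdd_peR _ _) ?_ ?_ (fun p hp => div_nonneg (unChk_sound cov1 al1 hp.1) (by norm_num))
    (fun p hp => div_nonneg (unChk_sound cov2 al2 hp.1) (by norm_num)) ?_ ?_ (lam ^ 3) (by positivity)
    (psi_chan h0 h1) (1 / 1000) (by norm_num) H1 H2
  · exact (bdd_peR (q := 4) 7 cal1).mul (bdd_const _)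
  · exact (bdd_peR (q := 4) 10 cal2).mul (bdd_const _)
  · rw [psi_eq (simp_one (by norm_num))]; simp [chi, thr, avg]
  · intro j
    rw [psi_eq (simp_vert j)]
    fin_cases j <;> simp [chi, thr, avg, vert, Fin.sum_univ_succ] <;> norm_num

end Vale.Agent.P154.Q4
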