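import Vale.Agent.P154.Q4Red2

namespace Vale.Agent.P154.Q4

lemma pair2_0_0 : pairChk 67 190 4 10 tbl4 tR2 [[[1, 1, 1, 1], [0, 1, 1, 1], [1, 1, 3, 3], [1, 1, 1, 5]]] [[[1, 1, 1, 1], [0, 1, 1, 1], [1, 1, 3, 3], [1, 1, 1, 5]]] = true := by
  decide +kernel

lemma pair2_0_1 : pairChk 67 190 4 10 tbl4 tR2 [[[1, 1, 1, 1], [0, 1, 1, 1], [1, 1, 3, 3], [1, 1, 1, 5]]] [[[1, 1, 3, 3], [0, 1, 1, 1], [0, 0, 1, 1], [1, 1, 1, 5]]] = true := by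
  decide +kernel

lemma pair2_0_2 : pairChk 67 190 4 10 tbl4 tR2 [[[1, 1, 1, 1], [0, 1, 1, 1], [1, 1, 3, 3], [1, 1, 1, 5]]] [[[1, 1, 1, 5], [0, 1, 1, 1], [0, 0, 1, 1], [0, 1, 1, 4]]] = true := by
  decide +kernel

lemma pair2_0_3 : pairChk 67 190 4 10 tbl4 tR2 [[[1, 1, 1, 1], [0, 1, 1, 1], [1, 1, 3, 3], [1, 1, 1, 5]]] [[[1, 1, 1, 5], [0, 1, 1, 4], [0, 0, 1, 1], [0, 0, 0, 1]]] = true := by
  decide +kernel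

lemma pair2_1_0 : pairChk 67 190 4 10 tbl4 tR2 [[[1, 1, 3, 3], [0, 1, 1, 1], [0, 0, 1, 1], [1, 1, 1, 5]]] [[[1, 1, 1, 1], [0, 1, 1, 1], [1, 1, 3, 3], [1, 1, 1, 5]]] = true := by
  decide +kernel

lemma pair2_1_1 : pairChk 67 190 4 10 tbl4 tR2 [[[1, 1, 3, 3], [0, 1, 1, 1], [0, 0, 1, 1], [1, 1, 1, 5]]] [[[1, 1, 3, 3], [0, 1, 1, 1], [0, 0, 1, 1], [1, 1, 1, 5]]] = true := by
  decide +kernel

lemma pair2_1_2 : pairChk 67 190 4 10 tbl4 tR2 [[[1, 1, 3, 3], [0, 1, 1, 1], [0, 0, 1, 1], [1, 1, 1, 5]]] [[[1, 1, 1, 5], [0, 1, 1, 1], [0, 0, 1, 1], [0, 1, 1, 4]]] = true := by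
  decide +kernel

lemma pair2_1_3 : pairChk 67 190 4 10 tbl4 tR2 [[[1, 1, 3, 3], [0, 1, 1, 1], [0, 0, 1, 1], [1, 1, 1, 5]]] [[[1, 1, 1, 5], [0, 1, 1, 4], [0, 0, 1, 1], [0, 0, 0, 1]]] = true := by
  decide +kernel

end Vale.Agent.P154.Q4
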