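import Vale.Agent.P154.Q4Data
import Vale.Agent.P154.Q4Pair1

namespace Vale.Agent.P154.Q4

lemma oktm2 : okTerms 4 10 (scaleT (864 : ℕ) (tA2 ++ gTerms (5 : ℕ) 4 10 gs2) ++ scaleT (-((1 : ℕ) : ℤ)) tR2) = true := by decide +kernel

lemma oktr2 : okTerms 4 10 tR2 = true := by decide +kernel

lemma red2 : pairChk 120 166 4 10 tbl4 (scaleT (864 : ℕ) (tA2 ++ gTerms (5 : ℕ) 4 10 gs2) ++ scaleT (-((1 : ℕ) : ℤ)) tR2) [root4] [root4] = true := by
  decide +kernel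

end Vale.Agent.P154.Q4
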